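import Vale.Agent.P299.H91.ShMo

/-!
P299, package A-SKODA (helper91), (T1): global regularisation of distributional plurisubharmonic
functions on `Sheets` with a plurisubharmonic exhaustion.
-/

set_option linter.all false

open MeasureTheory Filter Topology Set
open scoped ENNReal NNReal ComplexConjugate ContDiff

namespace Vale.Agent.P299.H91

open Vale.Agent.P300.L2 Vale.Agent.P300.L2.Sheets Metric

variable {n N : ℕ} {S : Sheets n N} {v : (Fin n → ℂ) × ℕ → ℝ}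

/-- refined upper bound: only the sheet through `q` matters -/
theorem LPsh.smo_le' (h : LPsh S v) {z : Fin n → ℂ} {ε : ℝ} (hε : 0 < ε)
    {s : (Fin n → ℂ) → ℕ} (hs : S.IsSection (ball z (2 * ε)) s) {B : ℝ}
    (hB : ∀ᵐ ζ, ζ ∈ ball z ε → v (ζ, s ζ) ≤ B) : smo S ε v (z, s z) ≤ B := by
  rw [smo_eq hs hε (by rw [dist_self]; linarith)]
  exact mo_le hε ((h.section hs).loc.integrableOn_compact_subset
    (closedBall_subset_ball (by linarith)) (isCompact_closedBall _ _)) hB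

lemma le_mo {ε : ℝ} (hε : 0 < ε) {f : (Fin n → ℂ) → ℝ} {z : Fin n → ℂ}
    (hf : IntegrableOn f (closedBall z ε)) {B : ℝ}
    (h : ∀ᵐ ζ, ζ ∈ ball z ε → B ≤ f ζ) : B ≤ mo ε f z := by
  have h1 : mo ε (fun ζ => -f ζ) z ≤ -B := by
    refine mo_le hε hf.neg ?_
    filter_upwards [h] with ζ hζ hζb
    exact neg_le_neg (hζ hζb)
  have h2 : mo ε (fun ζ => -f ζ) z = -mo ε f z := by
    unfold mo Cv
    rw [← integral_neg]
    refine integral_congr_ae (Eventually.of_forall fun ζ => ?_)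
    show _ * -f ζ = -(_ * f ζ)
    ring
  linarith

/-- refined lower bound -/
theorem LPsh.le_smo' (h : LPsh S v) {z : Fin n → ℂ} {ε : ℝ} (hε : 0 < ε)
    {s : (Fin n → ℂ) → ℕ} (hs : S.IsSection (ball z (2 * ε)) s) {B : ℝ}
    (hB : ∀ᵐ ζ, ζ ∈ ball z ε → B ≤ v (ζ, s ζ)) : B ≤ smo S ε v (z, s z) := by
  rw [smo_eq hs hε (by rw [dist_self]; linarith)]
  exact le_mo hε ((h.section hs).loc.integrableOn_compact_subset
    (closedBall_subset_ball (by linarith)) (isCompact_closedBall _ _)) hB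

/-- radii -/
lemma exists_radii (e : ℕ → ℝ) (he : ∀ m, 0 < e m) : ∃ ε : ℕ → ℝ, (∀ m, 0 < ε m) ∧
    (∀ m, ε (m + 1) ≤ ε m) ∧ (∀ m, ε m ≤ e m) ∧ Tendsto ε atTop (𝓝 0) := by
  set ε : ℕ → ℝ := fun m => Nat.rec (min (e 0) 1)
    (fun m x => min x (min (e (m + 1)) (1 / ((m : ℝ) + 2)))) m with hε
  have hs : ∀ m, ε (m + 1) = min (ε m) (min (e (m + 1)) (1 / ((m : ℝ) + 2))) := fun m => rfl
  have h0 : ∀ m, 0 < ε m := by
    intro m
    induction m with
    | zero => exact lt_min (he 0) one_pos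
    | succ m ih =>
      rw [hs]
      exact lt_min ih (lt_min (he _) (by positivity))
  refine ⟨ε, h0, fun m => ?_, fun m => ?_, ?_⟩
  · rw [hs]; exact min_le_left _ _
  · cases m with
    | zero => exact min_le_left _ _
    | succ m => rw [hs]; exact (min_le_right _ _).trans (min_le_left _ _)
  · rw [← tendsto_add_atTop_iff_nat 1]
    refine squeeze_zero (g := fun m : ℕ => 1 / ((m : ℝ) + 2)) (fun m => (h0 (m + 1)).le)
      (fun m => ?_) ?_
    · rw [hs]; exact (min_le_right _ _).trans (min_le_right _ _)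
    · have h1 : Tendsto (fun m : ℕ => (m : ℝ) + 2) atTop atTop :=
        tendsto_atTop_add_const_right _ _ tendsto_natCast_atTop_atTop
      simpa using h1.const_div_atTop 1

/-- radii adapted to an exhaustion -/
lemma exists_radius {p : (Fin n → ℂ) → ℝ} {C : ℝ} {k0 : ℕ} (hp : Exh S.V p C k0) (c : ℝ) :
    ∃ e : ℝ, 0 < e ∧ (∀ q ∈ S.M, p q.1 ≤ c → Good S (4 * e) q) ∧
      ∀ z ∈ S.V, p z ≤ c → ∀ y ∈ ball z e, y ∈ S.V ∧ p y ≤ p z + 1 := by
  have hK : IsCompact {z | z ∈ S.V ∧ p z ≤ c} := hp.compact c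
  obtain ⟨r, hr, hr1⟩ := exists_good (S := S) hK fun z hz => hz.1
  have hpc : ContinuousOn p S.V := hp.smooth.continuousOn
  have hU : ∀ y : {z | z ∈ S.V ∧ p z ≤ c}, IsOpen (S.V ∩ p ⁻¹' ball (p y) (1 / 2)) := fun y =>
    hpc.isOpen_inter_preimage S.isOpen isOpen_ball
  obtain ⟨δ, hδ, h1⟩ := lebesgue_number_lemma_of_metric hK
    (c := fun y : {z | z ∈ S.V ∧ p z ≤ c} => S.V ∩ p ⁻¹' ball (p y) (1 / 2)) hU
    fun z hz => mem_iUnion.2 ⟨⟨z, hz⟩, hz.1, mem_ball_self (by norm_num)⟩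
  refine ⟨min (r / 4) δ, lt_min (by linarith) hδ, fun q hq hqc => ?_, fun z hz hzc y hy => ?_⟩
  · refine (hr1 q hq ⟨hq.1, hqc⟩).mono ?_
    have := min_le_left (r / 4) δ
    linarith
  · obtain ⟨i, hi⟩ := h1 z ⟨hz, hzc⟩
    have hy' := hi (ball_subset_ball (min_le_right _ _) hy)
    have hz' := hi (mem_ball_self hδ)
    refine ⟨hy'.1, ?_⟩
    have a1 := mem_ball.1 hy'.2
    have a2 := mem_ball.1 hz'.2
    rw [Real.dist_eq] at a1 a2
    have b1 := (abs_lt.1 a1).2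
    have b2 := (abs_lt.1 a2).1
    linarith

/-- bounds of Levi forms over compact sets -/
lemma exists_levi_bound {g : (Fin n → ℂ) × ℕ → ℝ} (hg : S.CD 2 (fun q => (g q : ℂ)))
    {K : Set (Fin n → ℂ)} (hK : IsCompact K) (hKV : K ⊆ S.V) :
    ∃ B : ℝ, ∀ q ∈ S.M, q.1 ∈ K → ∀ β : Fin n → ℂ, S.levi g β q ≤ B * ∑ j, ‖β j‖ ^ 2 := by
  have h1 : ∀ j k, ∃ B : ℝ, ∀ q ∈ S.M, q.1 ∈ K →
      ‖S.D j (S.Db k (fun q => (g q : ℂ))) q‖ ≤ B := fun j k =>
    exists_bound (CD.D (m := 0) (CD.Db (m := 1) hg)) hK hKV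
  choose B hB using h1
  refine ⟨∑ j, ∑ k, |B j k|, fun q hq hqK β => ?_⟩
  have h2 : ∀ j k, ‖β j‖ * ‖β k‖ ≤ ∑ i, ‖β i‖ ^ 2 := by
    intro j k
    have a1 : ‖β j‖ ^ 2 ≤ ∑ i, ‖β i‖ ^ 2 :=
      Finset.single_le_sum (f := fun i => ‖β i‖ ^ 2) (fun _ _ => sq_nonneg _) (Finset.mem_univ j)
    have a2 : ‖β k‖ ^ 2 ≤ ∑ i, ‖β i‖ ^ 2 :=
      Finset.single_le_sum (f := fun i => ‖β i‖ ^ 2) (fun _ _ => sq_nonneg _) (Finset.mem_univ k)
    nlinarith [sq_nonneg (‖β j‖ - ‖β k‖)]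
  unfold Sheets.levi
  refine (Complex.re_le_norm _).trans ((norm_sum_le _ _).trans ?_)
  rw [Finset.sum_mul]
  refine Finset.sum_le_sum fun j _ => (norm_sum_le _ _).trans ?_
  rw [Finset.sum_mul]
  refine Finset.sum_le_sum fun k _ => ?_
  rw [norm_mul, norm_mul, RCLike.norm_conj, mul_assoc]
  have h3 : 0 ≤ ∑ i, ‖β i‖ ^ 2 := Finset.sum_nonneg fun _ _ => sq_nonneg _
  calc _ ≤ |B j k| * (‖β j‖ * ‖β k‖) := by
        gcongr
        exact (hB j k q hq hqK).trans (le_abs_self _)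
    _ ≤ |B j k| * ∑ i, ‖β i‖ ^ 2 := by gcongr; exact h2 j k

/-- real bounds over compact sets -/
lemma exists_real_bound {g : (Fin n → ℂ) × ℕ → ℝ} (hg : S.CD 0 (fun q => (g q : ℂ)))
    {K : Set (Fin n → ℂ)} (hK : IsCompact K) (hKV : K ⊆ S.V) :
    ∃ B : ℝ, ∀ q ∈ S.M, q.1 ∈ K → |g q| ≤ B := by
  obtain ⟨B, hB⟩ := exists_bound hg hK hKV
  refine ⟨B, fun q hq hqK => ?_⟩
  have := hB q hq hqK
  rwa [Complex.norm_real, Real.norm_eq_abs] at this

/-- **(T1) Global regularisation.** -/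
theorem LPsh.exists_reg (h : LPsh S v) {p : (Fin n → ℂ) → ℝ} {C : ℝ} {k0 : ℕ}
    (hp : Exh S.V p C k0) {g φ : (Fin n → ℂ) × ℕ → ℝ} (hg : S.CD 2 (fun q => (g q : ℂ)))
    (hφ : S.CD 0 (fun q => (φ q : ℂ))) (hle : ∀ᵐ q ∂S.μ, v q + g q ≤ φ q) :
    ∃ Φ : ℕ → (Fin n → ℂ) × ℕ → ℝ, (∀ m, S.CD 2 (fun q => (Φ m q : ℂ))) ∧
      (∀ m, ∀ q ∈ S.M, Φ (m + 1) q ≤ Φ m q) ∧ (∀ m, ∃ c : ℝ, ∀ q ∈ S.M, c ≤ Φ m q) ∧
      (∀ m, ∀ q ∈ S.M, ∀ β : Fin n → ℂ, 0 ≤ S.levi (fun q => Φ m q - g q) β q) ∧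
      (∀ q ∈ S.M, limE Φ q ≤ Real.exp (φ q)) ∧
      (∀ᵐ q ∂S.μ, limE Φ q = Real.exp (v q + g q)) ∧
      ∀ ψ : (Fin n → ℂ) × ℕ → ℝ, S.CD 0 (fun q => (ψ q : ℂ)) →
        (∀ᵐ q ∂S.μ, ψ q ≤ v q + g q) → ∀ q ∈ S.M, Real.exp (ψ q) ≤ limE Φ q := by
  classical
  have hp0 : ∀ z ∈ S.V, 0 ≤ p z := fun z hz => (sq_nonneg _).trans (hp.norm_sq_le z hz)
  have hKV : ∀ c : ℝ, {z | z ∈ S.V ∧ p z ≤ c} ⊆ S.V := fun c z hz => hz.1
  -- radii
  choose e he hgood hball using fun m : ℕ => exists_radius (S := S) hp ((m : ℝ) + 2)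
  obtain ⟨ε, hε0, hεm, hεe, hεt⟩ := exists_radii e he
  have hεanti : Antitone ε := antitone_nat_of_succ_le hεm
  have hG : ∀ m : ℕ, ∀ q ∈ S.M, p q.1 ≤ m + 2 → Good S (4 * ε m) q := fun m q hq hqm =>
    (hgood m q hq hqm).mono (by linarith [hεe m])
  have hBall : ∀ m : ℕ, ∀ z ∈ S.V, p z ≤ m + 2 → ∀ y ∈ ball z (ε m), y ∈ S.V ∧ p y ≤ p z + 1 :=
    fun m z hz hzm y hy => hball m z hz hzm y (ball_subset_ball (hεe m) hy)
  -- bounds
  choose Bφ hBφ using fun k : ℕ => exists_real_bound hφ (hp.compact ((k : ℝ) + 1)) (hKV _)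
  choose Bg hBg using fun k : ℕ =>
    exists_real_bound (hg.mono (by norm_num)) (hp.compact ((k : ℝ) + 1)) (hKV _)
  choose Bl hBl using fun k : ℕ => exists_levi_bound hg (hp.compact (k : ℝ)) (hKV _)
  set A : ℕ → ℝ := fun k => |Bφ k| + 2 * |Bg k| + |Bl k| + k + 4 with hA
  obtain ⟨χ, hχ, hχ1, hχ2, hχ3, hχ4, hχ5⟩ := exists_growth A
  set T : (Fin n → ℂ) → ℝ := fun z => χ (p z) with hT
  have hTA : ∀ z ∈ S.V, A ⌈p z⌉₊ ≤ T z := fun z hz => hχ1 _ (hp0 z hz)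
  -- the functions `h_m`
  set hm : ℕ → (Fin n → ℂ) × ℕ → ℝ := fun m q => smo S (ε m) v q + g q with hhm
  have hmle : ∀ m : ℕ, ∀ q ∈ S.M, p q.1 ≤ m + 2 → hm m q ≤ T q.1 - p q.1 - 4 := by
    intro m q hq hqm
    set k := ⌈p q.1⌉₊ with hk
    have hpk : p q.1 ≤ k := Nat.le_ceil _
    have h1 : smo S (ε m) v q ≤ |Bφ k| + |Bg k| := by
      refine h.smo_le (hε0 m) ((hG m q hq hqm).mono (by linarith [hε0 m])) ?_
      filter_upwards [hle, ae_mem_M (S := S)] with q' h1 h2 h3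
      obtain ⟨-, h4⟩ := hBall m q.1 hq.1 hqm q'.1 h3
      have h5 : q'.1 ∈ {z | z ∈ S.V ∧ p z ≤ (k : ℝ) + 1} := ⟨h2.1, by linarith⟩
      have h6 := (abs_le.1 (hBφ k q' h2 h5)).2
      have h7 := (abs_le.1 (hBg k q' h2 h5)).1
      have h8 := le_abs_self (Bφ k)
      have h9 := le_abs_self (Bg k)
      linarith
    have h2 : g q ≤ |Bg k| := ((abs_le.1 (hBg k q hq ⟨hq.1, by linarith⟩)).2).trans (le_abs_self _)
    have h3 := hTA q.1 hq.1
    rw [← hk] at h3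
    have h4 : A k = |Bφ k| + 2 * |Bg k| + |Bl k| + k + 4 := rfl
    have h5 := abs_nonneg (Bl k)
    show smo S (ε m) v q + g q ≤ _
    linarith
  set Φ : ℕ → (Fin n → ℂ) × ℕ → ℝ := fun m q =>
    if p q.1 < m + 1 then RM (hm m q) (T q.1 - m) else T q.1 - m with hΦ
  have hΦ1 : ∀ m : ℕ, ∀ q ∈ S.M, p q.1 ≤ m + 2 → Φ m q = RM (hm m q) (T q.1 - m) := by
    intro m q hq hqm
    by_cases hlt : p q.1 < m + 1
    · exact if_pos hlt
    · have h1 := hmle m q hq hqm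
      push Not at hlt
      rw [RM_right (by linarith)]
      exact if_neg (by push Not; exact hlt)
  have hΦ2 : ∀ m : ℕ, ∀ q ∈ S.M, (m : ℝ) ≤ p q.1 → Φ m q = T q.1 - m := by
    intro m q hq hqm
    by_cases hlt : p q.1 < m + 1
    · have h1 := hmle m q hq (by linarith)
      have : Φ m q = RM (hm m q) (T q.1 - m) := if_pos hlt
      rw [this, RM_right (by linarith)]
    · exact if_neg hlt
  -- smoothness of the pieces
  have hp2 : ∀ z ∈ S.V, ContDiffAt ℝ 2 p z := fun z hz =>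
    (hp.smooth.contDiffAt (S.isOpen.mem_nhds hz)).of_le (by norm_num)
  have hT2 : ∀ z ∈ S.V, ContDiffAt ℝ 2 T z := fun z hz => hχ.contDiffAt.comp z (hp2 z hz)
  have hpcont : ∀ z ∈ S.V, ContinuousAt p z := fun z hz => (hp2 z hz).continuousAt
  have hg2 : ∀ {W : Set (Fin n → ℂ)} {s : (Fin n → ℂ) → ℕ}, S.IsSection W s → ∀ z ∈ W,
      ContDiffAt ℝ 2 (fun y => g (y, s y)) z := fun hs z hz =>
    (CD.re_section hg hs).contDiffAt (hs.isOpen.mem_nhds hz)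
  have hTm2 : ∀ (m : ℕ), ∀ z ∈ S.V, ContDiffAt ℝ 2 (fun y => T y - m) z := fun m z hz =>
    (hT2 z hz).sub contDiffAt_const
  -- local descriptions
  have hloc1 : ∀ (m : ℕ) {W : Set (Fin n → ℂ)} {s : (Fin n → ℂ) → ℕ}, S.IsSection W s → ∀ z ∈ W,
      p z < m + 1 → (fun y => Φ m (y, s y)) =ᶠ[𝓝 z]
        fun y => RM (smo S (ε m) v (y, s y) + g (y, s y)) (T y - m) := by
    intro m W s hs z hz hpz
    filter_upwards [(hpcont z (hs.subset hz)).eventually_lt_const hpz] with y hy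
    exact if_pos hy
  have hloc2 : ∀ (m : ℕ) {W : Set (Fin n → ℂ)} {s : (Fin n → ℂ) → ℕ}, S.IsSection W s → ∀ z ∈ W,
      (m : ℝ) + 1 ≤ p z → (fun y => Φ m (y, s y)) =ᶠ[𝓝 z] fun y => T y - m := by
    intro m W s hs z hz hpz
    filter_upwards [(hpcont z (hs.subset hz)).eventually_const_lt (show (m : ℝ) < p z by linarith),
      hs.isOpen.mem_nhds hz] with y hy hyW
    exact hΦ2 m (y, s y) (hs.mem_M hyW) hy.le
  have hsmo2 : ∀ (m : ℕ) {W : Set (Fin n → ℂ)} {s : (Fin n → ℂ) → ℕ} (hs : S.IsSection W s),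
      ∀ z ∈ W, p z < m + 1 → ContDiffAt ℝ 2 (fun y => smo S (ε m) v (y, s y)) z := by
    intro m W s hs z hz hpz
    exact (h.smo_contDiffAt hs hz (hε0 m) (hG m (z, s z) (hs.mem_M hz)
      (by show p z ≤ _; linarith))).of_le two_le_inf
  -- the Levi form of `T - m - g`
  have hlevT : ∀ (m : ℕ) {W : Set (Fin n → ℂ)} {s : (Fin n → ℂ) → ℕ} (hs : S.IsSection W s),
      ∀ z ∈ W, ∀ β, 0 ≤ lev (fun y => T y - m - g (y, s y)) β z := by
    intro m W s hs z hz β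
    have hzV := hs.subset hz
    rw [lev_sub (hTm2 m z hzV) (hg2 hs z hz), lev_sub (hT2 z hzV) contDiffAt_const, lev_const,
      sub_zero]
    have h1 : lev T β z = S.levi (fun q => χ (p q.1)) β (z, s z) := by
      rw [levi_section hs hz]
    have h2 : lev (fun y => g (y, s y)) β z = S.levi g β (z, s z) := (levi_section hs hz g β).symm
    rw [h1, h2, levi_comp hχ (hp.smooth.of_le (by norm_num)) (hs.mem_M hz)]
    have h3 := hp.levi z hzV β
    have h4 := hχ4 _ (hp0 z hzV)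
    have h5 := hχ5 (p z)
    have h6 := hχ2 _ (hp0 z hzV)
    have h7 := hBl ⌈p z⌉₊ (z, s z) (hs.mem_M hz) ⟨hzV, Nat.le_ceil _⟩ β
    set Sb : ℝ := ∑ j, ‖β j‖ ^ 2 with hSb
    have hSb0 : 0 ≤ Sb := Finset.sum_nonneg fun _ _ => sq_nonneg _
    have h8 : Bl ⌈p z⌉₊ ≤ deriv χ (p z) := by
      refine le_trans ?_ h6
      have a1 := le_abs_self (Bl ⌈p z⌉₊)
      have a2 := abs_nonneg (Bφ ⌈p z⌉₊)
      have a3 := abs_nonneg (Bg ⌈p z⌉₊)
      have a4 : (0 : ℝ) ≤ (⌈p z⌉₊ : ℝ) := Nat.cast_nonneg _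
      show _ ≤ |Bφ ⌈p z⌉₊| + 2 * |Bg ⌈p z⌉₊| + |Bl ⌈p z⌉₊| + (⌈p z⌉₊ : ℝ) + 4
      linarith
    have h9 : Bl ⌈p z⌉₊ * Sb ≤ deriv χ (p z) * Sb := mul_le_mul_of_nonneg_right h8 hSb0
    have h10 : deriv χ (p z) * Sb ≤ deriv χ (p z) *
        (∑ j, ∑ k, dz j (dzb k (fun z => (p z : ℂ))) z * β j * conj (β k)).re :=
      mul_le_mul_of_nonneg_left h3 h4
    have h11 : 0 ≤ deriv (deriv χ) (p z) * ‖∑ j, dz j (fun z => (p z : ℂ)) z * β j‖ ^ 2 :=
      mul_nonneg h5 (sq_nonneg _)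
    show 0 ≤ deriv χ (p z) * _ + deriv (deriv χ) (p z) * _ - _
    linarith
  -- CD 2
  have hCD : ∀ m, S.CD 2 (fun q => (Φ m q : ℂ)) := by
    intro m W s hs z hz
    refine ContDiffAt.contDiffWithinAt (Complex.ofRealCLM.contDiff.contDiffAt.comp z ?_)
    rcases lt_or_ge (p z) (m + 1) with hpz | hpz
    · exact (contDiffAt_RM ((hsmo2 m hs z hz hpz).add (hg2 hs z hz))
        (hTm2 m z (hs.subset hz))).congr_of_eventuallyEq (hloc1 m hs z hz hpz)
    · exact (hTm2 m z (hs.subset hz)).congr_of_eventuallyEq (hloc2 m hs z hz hpz)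
  -- monotonicity
  have hanti : ∀ m, ∀ q ∈ S.M, Φ (m + 1) q ≤ Φ m q := by
    intro m q hq
    rcases le_total (p q.1) (m + 1) with hpq | hpq
    · rw [hΦ1 m q hq (by linarith), hΦ1 (m + 1) q hq (by push_cast; linarith)]
      refine RM_mono ?_ (by push_cast; linarith)
      show smo S (ε (m + 1)) v q + g q ≤ smo S (ε m) v q + g q
      have := h.smo_mono (hε0 (m + 1)) (hεm m)
        ((hG m q hq (by linarith)).mono (by linarith [hε0 m]))
      linarith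
    · rw [hΦ2 m q hq (by linarith), hΦ2 (m + 1) q hq (by push_cast; linarith)]
      push_cast; linarith
  have hle' : ∀ m, ∀ q ∈ S.M, T q.1 - m ≤ Φ m q := by
    intro m q hq
    rcases le_total (p q.1) (m + 1) with hpq | hpq
    · rw [hΦ1 m q hq (by linarith)]; exact le_RM_right _ _
    · rw [hΦ2 m q hq (by linarith)]
  -- convergence: general facts
  have hTinf : ∀ (q : (Fin n → ℂ) × ℕ) (a : ℝ), ∀ᶠ m : ℕ in atTop, T q.1 - m + 1 ≤ a := by
    intro q a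
    filter_upwards [eventually_ge_atTop ⌈T q.1 + 1 - a⌉₊] with m hm'
    have := (Nat.le_ceil _).trans (Nat.cast_le (α := ℝ).2 hm')
    linarith
  have hpev : ∀ q : (Fin n → ℂ) × ℕ, ∀ᶠ m : ℕ in atTop, p q.1 ≤ m + 2 := by
    intro q
    filter_upwards [eventually_ge_atTop ⌈p q.1⌉₊] with m hm'
    have := (Nat.le_ceil _).trans (Nat.cast_le (α := ℝ).2 hm')
    linarith
  have hεt' : Tendsto ε atTop (𝓝[>] 0) :=
    tendsto_nhdsWithin_iff.2 ⟨hεt, Eventually.of_forall hε0⟩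
  refine ⟨Φ, hCD, hanti, ?_, ?_, ?_, ?_, ?_⟩
  · intro m
    refine ⟨-m, fun q hq => le_trans ?_ (hle' m q hq)⟩
    have := hχ3 _ (hp0 q.1 hq.1)
    show -(m : ℝ) ≤ χ (p q.1) - m
    linarith
  · intro m q hq β
    obtain ⟨s, W, hs, z, hz, rfl⟩ := exists_section' hq
    rw [levi_section hs hz]
    rcases lt_or_ge (p z) (m + 1) with hpz | hpz
    · have h1 : (fun y => Φ m (y, s y) - g (y, s y)) =ᶠ[𝓝 z]
          fun y => RM (smo S (ε m) v (y, s y)) (T y - m - g (y, s y)) := by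
        filter_upwards [hloc1 m hs z hz hpz] with y hy
        show Φ m (y, s y) - g (y, s y) = _
        have hy' : Φ m (y, s y) = RM (smo S (ε m) v (y, s y) + g (y, s y)) (T y - m) := hy
        rw [hy', RM_sub, add_sub_cancel_right]
      rw [lev_congr h1]
      exact lev_RM (hsmo2 m hs z hz hpz) ((hTm2 m z (hs.subset hz)).sub (hg2 hs z hz))
        (h.lev_smo hs hz (hε0 m) (hG m (z, s z) (hs.mem_M hz) (by show p z ≤ _; linarith)) β)
        (hlevT m hs z hz β)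
    · have h1 : (fun y => Φ m (y, s y) - g (y, s y)) =ᶠ[𝓝 z] fun y => T y - m - g (y, s y) := by
        filter_upwards [hloc2 m hs z hz hpz] with y hy
        show Φ m (y, s y) - g (y, s y) = _
        have hy' : Φ m (y, s y) = T y - m := hy
        rw [hy']
      rw [lev_congr h1]
      exact hlevT m hs z hz β
  · -- upper bound
    intro q hq
    obtain ⟨s, W, hs, z, hz, rfl⟩ := exists_section' hq
    have hlim := limE_tendsto (fun m => hanti m (z, s z) (hs.mem_M hz))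
    refine le_of_forall_pos_le_add fun δ0 hδ0 => ?_
    -- choose δ with exp (φ + δ) ≤ exp φ + δ0
    obtain ⟨δ, hδ, hδ1⟩ : ∃ δ > 0, Real.exp (φ (z, s z) + δ) ≤ Real.exp (φ (z, s z)) + δ0 := by
      have hc : Tendsto (fun δ => Real.exp (φ (z, s z) + δ)) (𝓝 0)
          (𝓝 (Real.exp (φ (z, s z) + 0))) := by
        have : Continuous (fun δ => Real.exp (φ (z, s z) + δ)) := by fun_prop
        exact this.tendsto 0
      have h1 := hc.eventually_lt_const (u := Real.exp (φ (z, s z)) + δ0)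
        (by rw [add_zero]; linarith)
      obtain ⟨r, hr, h2⟩ := Metric.eventually_nhds_iff.1 h1
      refine ⟨r / 2, by positivity, (h2 ?_).le⟩
      rw [dist_zero_right, Real.norm_eq_abs, abs_of_pos (by positivity)]; linarith
    refine le_trans (le_of_tendsto hlim ?_) hδ1
    have hzV := hs.subset hz
    have hψc : Tendsto (fun y => φ (y, s y) - g (y, s y)) (𝓝 z)
        (𝓝 (φ (z, s z) - g (z, s z))) :=
      ((CD.re_section hφ hs).continuousOn.continuousAt (hs.isOpen.mem_nhds hz)).sub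
        (hg2 hs z hz).continuousAt
    have hψ := hψc.eventually_lt_const (u := φ (z, s z) - g (z, s z) + δ) (by linarith)
    obtain ⟨r, hr, hrW⟩ := Metric.eventually_nhds_iff_ball.1 (hψ.and (hs.isOpen.mem_nhds hz))
    have hεr : ∀ᶠ m in atTop, ε m < r / 2 := hεt.eventually_lt_const (by linarith)
    filter_upwards [hεr, hpev (z, s z), hTinf (z, s z) (φ (z, s z) + δ)] with m h1 h2 h3
    refine Real.exp_le_exp.2 ?_
    rw [hΦ1 m (z, s z) (hs.mem_M hz) h2]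
    have hbW : ball z (2 * ε m) ⊆ W := fun y hy =>
      (hrW y (ball_subset_ball (by linarith) hy)).2
    have h4 : smo S (ε m) v (z, s z) ≤ φ (z, s z) - g (z, s z) + δ := by
      refine h.smo_le' (hε0 m) (hs.mono isOpen_ball hbW) ?_
      filter_upwards [ae_section hle hs] with ζ hζ hζb
      have hζr : ζ ∈ ball z r := ball_subset_ball (by linarith [hε0 m]) hζb
      have h5 := (hrW ζ hζr).1
      have h6 := hζ (hrW ζ hζr).2
      linarith
    calc RM (hm m (z, s z)) (T z - m) ≤ RM (φ (z, s z) + δ) (T z - m) := by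
          refine RM_mono ?_ le_rfl
          show smo S (ε m) v (z, s z) + g (z, s z) ≤ _
          linarith
      _ = φ (z, s z) + δ := RM_left h3
  · filter_upwards [h.smo_tendsto, ae_mem_M (S := S)] with q hq hqM
    have hlim := limE_tendsto (fun m => hanti m q hqM)
    have h1 : Tendsto (fun m => hm m q) atTop (𝓝 (v q + g q)) := (hq.comp hεt').add_const _
    have h2 : ∀ᶠ m in atTop, v q + g q - 1 < hm m q := h1.eventually_const_lt (by linarith)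
    have h3 : Tendsto (fun m => Φ m q) atTop (𝓝 (v q + g q)) := by
      refine h1.congr' ?_
      filter_upwards [h2, hpev q, hTinf q (v q + g q - 1)] with m a1 a2 a3
      rw [hΦ1 m q hqM a2, RM_left (by linarith)]
    exact tendsto_nhds_unique hlim ((Real.continuous_exp.tendsto _).comp h3)
  · -- lower bound
    intro ψ hψ0 hψle q hq
    obtain ⟨s, W, hs, z, hz, rfl⟩ := exists_section' hq
    have hlim := limE_tendsto (fun m => hanti m (z, s z) (hs.mem_M hz))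
    refine le_of_forall_pos_sub_le fun δ0 hδ0 => ?_
    obtain ⟨δ, hδ, hδ1⟩ : ∃ δ > 0, Real.exp (ψ (z, s z)) - δ0 ≤ Real.exp (ψ (z, s z) - δ) := by
      have hc : Tendsto (fun δ => Real.exp (ψ (z, s z) - δ)) (𝓝 0)
          (𝓝 (Real.exp (ψ (z, s z) - 0))) := by
        have : Continuous (fun δ => Real.exp (ψ (z, s z) - δ)) := by fun_prop
        exact this.tendsto 0
      have h1 := hc.eventually_const_lt (u := Real.exp (ψ (z, s z)) - δ0)
        (by rw [sub_zero]; linarith)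
      obtain ⟨r, hr, h2⟩ := Metric.eventually_nhds_iff.1 h1
      refine ⟨r / 2, by positivity, (h2 ?_).le⟩
      rw [dist_zero_right, Real.norm_eq_abs, abs_of_pos (by positivity)]; linarith
    refine le_trans hδ1 (ge_of_tendsto hlim ?_)
    have hzV := hs.subset hz
    have hψc : Tendsto (fun y => ψ (y, s y) - g (y, s y)) (𝓝 z)
        (𝓝 (ψ (z, s z) - g (z, s z))) :=
      ((CD.re_section hψ0 hs).continuousOn.continuousAt (hs.isOpen.mem_nhds hz)).sub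
        (hg2 hs z hz).continuousAt
    have hψ := hψc.eventually_const_lt (u := ψ (z, s z) - g (z, s z) - δ) (by linarith)
    obtain ⟨r, hr, hrW⟩ := Metric.eventually_nhds_iff_ball.1 (hψ.and (hs.isOpen.mem_nhds hz))
    have hεr : ∀ᶠ m in atTop, ε m < r / 2 := hεt.eventually_lt_const (by linarith)
    filter_upwards [hεr, hpev (z, s z)] with m h1 h2
    refine Real.exp_le_exp.2 ?_
    rw [hΦ1 m (z, s z) (hs.mem_M hz) h2]
    have hbW : ball z (2 * ε m) ⊆ W := fun y hy =>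
      (hrW y (ball_subset_ball (by linarith) hy)).2
    have h4 : ψ (z, s z) - g (z, s z) - δ ≤ smo S (ε m) v (z, s z) := by
      refine h.le_smo' (hε0 m) (hs.mono isOpen_ball hbW) ?_
      filter_upwards [ae_section hψle hs] with ζ hζ hζb
      have hζr : ζ ∈ ball z r := ball_subset_ball (by linarith [hε0 m]) hζb
      have h5 := (hrW ζ hζr).1
      have h6 := hζ (hrW ζ hζr).2
      linarith
    refine le_trans ?_ (le_RM_left _ _)
    show _ ≤ smo S (ε m) v (z, s z) + g (z, s z)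
    linarith

/-- (T1) for `DPsh` -/
theorem DPsh.exists_reg (h : DPsh S v) {p : (Fin n → ℂ) → ℝ} {C : ℝ} {k0 : ℕ}
    (hp : Exh S.V p C k0) {g φ : (Fin n → ℂ) × ℕ → ℝ} (hg : S.CD 2 (fun q => (g q : ℂ)))
    (hφ : S.CD 0 (fun q => (φ q : ℂ))) (hle : ∀ᵐ q ∂S.μ, v q + g q ≤ φ q) :
    ∃ Φ : ℕ → (Fin n → ℂ) × ℕ → ℝ, (∀ m, S.CD 2 (fun q => (Φ m q : ℂ))) ∧
      (∀ m, ∀ q ∈ S.M, Φ (m + 1) q ≤ Φ m q) ∧ (∀ m, ∃ c : ℝ, ∀ q ∈ S.M, c ≤ Φ m q) ∧
      (∀ m, ∀ q ∈ S.M, ∀ β : Fin n → ℂ, 0 ≤ S.levi (fun q => Φ m q - g q) β q) ∧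
      (∀ q ∈ S.M, limE Φ q ≤ Real.exp (φ q)) ∧
      (∀ᵐ q ∂S.μ, limE Φ q = Real.exp (v q + g q)) ∧
      ∀ ψ : (Fin n → ℂ) × ℕ → ℝ, S.CD 0 (fun q => (ψ q : ℂ)) →
        (∀ᵐ q ∂S.μ, ψ q ≤ v q + g q) → ∀ q ∈ S.M, Real.exp (ψ q) ≤ limE Φ q :=
  h.lpsh.exists_reg hp hg hφ hle

end Vale.Agent.P299.H91
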