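import Vale.Agent.P299.H91.Ker

/-!
P299, package A-SKODA (helper91): second derivatives, Levi forms, convolutions on `ℂⁿ`.
-/

set_option linter.all false

open MeasureTheory Filter Topology Set
open scoped ENNReal NNReal ComplexConjugate ContDiff

namespace Vale.Agent.P299.H91

open Vale.Agent.P300.L2

variable {n : ℕ}

/-! ### Levi forms -/

/-- the Levi form of a real function on `ℂⁿ` -/
noncomputable def lev (f : (Fin n → ℂ) → ℝ) (β z : Fin n → ℂ) : ℝ :=
  (∑ j, ∑ k, dz j (dzb k (fun z => (f z : ℂ))) z * β j * conj (β k)).re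

/-- the second derivative -/
noncomputable def D2 (f : (Fin n → ℂ) → ℝ) (z u v : Fin n → ℂ) : ℝ :=
  fderiv ℝ (fun y => fderiv ℝ f y u) z v

lemma D2_eq {f : (Fin n → ℂ) → ℝ} {z : Fin n → ℂ} (hf : ContDiffAt ℝ 2 f z) (u v : Fin n → ℂ) :
    D2 f z u v = fderiv ℝ (fderiv ℝ f) z v u := by
  have h1 : DifferentiableAt ℝ (fderiv ℝ f) z :=
    (hf.fderiv_right (m := 1) (by norm_num)).differentiableAt (by norm_num)
  unfold D2
  rw [fderiv_clm_apply h1 (differentiableAt_const u)]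
  simp

lemma D2_symm {f : (Fin n → ℂ) → ℝ} {z : Fin n → ℂ} (hf : ContDiffAt ℝ 2 f z) (u v : Fin n → ℂ) :
    D2 f z u v = D2 f z v u := by
  rw [D2_eq hf, D2_eq hf]
  exact (hf.isSymmSndFDerivAt (by simp)) v u

/-- the real part of the cast of the second derivative -/
lemma fderiv_ofReal {f : (Fin n → ℂ) → ℝ} {z : Fin n → ℂ} (hf : DifferentiableAt ℝ f z)
    (u : Fin n → ℂ) : fderiv ℝ (fun y => (f y : ℂ)) z u = ((fderiv ℝ f z u : ℝ) : ℂ) := by
  have h1 : HasFDerivAt (fun z => (f z : ℂ)) (Complex.ofRealCLM.comp (fderiv ℝ f z)) z :=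
    Complex.ofRealCLM.hasFDerivAt.comp z hf.hasFDerivAt
  rw [h1.fderiv]
  rfl

lemma diffAt_near {f : (Fin n → ℂ) → ℝ} {z : Fin n → ℂ} (hf : ContDiffAt ℝ 2 f z) :
    ∀ᶠ y in 𝓝 z, DifferentiableAt ℝ f y := by
  have h1 := hf.eventually (by simp)
  filter_upwards [h1] with y hy using hy.differentiableAt (by norm_num)

lemma diffAt_fderiv_apply {f : (Fin n → ℂ) → ℝ} {z : Fin n → ℂ} (hf : ContDiffAt ℝ 2 f z)
    (u : Fin n → ℂ) : DifferentiableAt ℝ (fun y => fderiv ℝ f y u) z := by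
  have h1 : DifferentiableAt ℝ (fderiv ℝ f) z :=
    (hf.fderiv_right (m := 1) (by norm_num)).differentiableAt (by norm_num)
  exact h1.clm_apply (differentiableAt_const u)

lemma fderiv_fderiv_ofReal {f : (Fin n → ℂ) → ℝ} {z : Fin n → ℂ} (hf : ContDiffAt ℝ 2 f z)
    (u v : Fin n → ℂ) :
    fderiv ℝ (fun y => fderiv ℝ (fun x => (f x : ℂ)) y u) z v = ((D2 f z u v : ℝ) : ℂ) := by
  have h1 : (fun y => fderiv ℝ (fun x => (f x : ℂ)) y u) =ᶠ[𝓝 z]
      fun y => ((fderiv ℝ f y u : ℝ) : ℂ) := by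
    filter_upwards [diffAt_near hf] with y hy using fderiv_ofReal hy u
  rw [h1.fderiv_eq, fderiv_ofReal (diffAt_fderiv_apply hf u)]
  rfl

lemma dz_dzb_eq {f : (Fin n → ℂ) → ℝ} {z : Fin n → ℂ} (hf : ContDiffAt ℝ 2 f z) (j k : Fin n) :
    dz j (dzb k (fun z => (f z : ℂ))) z =
      (((D2 f z (Pi.single k 1) (Pi.single j 1) +
          D2 f z (Pi.single k Complex.I) (Pi.single j Complex.I) : ℝ) : ℂ) +
        Complex.I * ((D2 f z (Pi.single k Complex.I) (Pi.single j 1) -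
          D2 f z (Pi.single k 1) (Pi.single j Complex.I) : ℝ) : ℂ)) / 4 := by
  have hc : ∀ u, DifferentiableAt ℝ (fun y => fderiv ℝ (fun x => (f x : ℂ)) y u) z := by
    intro u
    have h1 : (fun y => fderiv ℝ (fun x => (f x : ℂ)) y u) =ᶠ[𝓝 z]
        fun y => ((fderiv ℝ f y u : ℝ) : ℂ) := by
      filter_upwards [diffAt_near hf] with y hy using fderiv_ofReal hy u
    refine DifferentiableAt.congr_of_eventuallyEq ?_ h1
    exact Complex.ofRealCLM.differentiableAt.comp z (diffAt_fderiv_apply hf u)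
  have hd : ∀ v, fderiv ℝ (dzb k (fun z => (f z : ℂ))) z v =
      (((D2 f z (Pi.single k 1) v : ℝ) : ℂ) +
        Complex.I * ((D2 f z (Pi.single k Complex.I) v : ℝ) : ℂ)) / 2 := by
    intro v
    have e : dzb k (fun z => (f z : ℂ)) = fun y =>
        (fderiv ℝ (fun x => (f x : ℂ)) y (Pi.single k 1) +
          Complex.I * fderiv ℝ (fun x => (f x : ℂ)) y (Pi.single k Complex.I)) / 2 := rfl
    have h2 : HasFDerivAt (dzb k (fun z => (f z : ℂ)))
        ((2 : ℂ)⁻¹ • (fderiv ℝ (fun y => fderiv ℝ (fun x => (f x : ℂ)) y (Pi.single k 1)) z +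
          Complex.I • fderiv ℝ (fun y => fderiv ℝ (fun x => (f x : ℂ)) y
            (Pi.single k Complex.I)) z)) z := by
      rw [e]
      have h3 := ((hc (Pi.single k 1)).hasFDerivAt.add
        ((hc (Pi.single k Complex.I)).hasFDerivAt.const_mul Complex.I)).const_mul ((2 : ℂ)⁻¹)
      refine h3.congr_of_eventuallyEq (Eventually.of_forall fun y => ?_)
      simp only [Pi.add_apply]
      ring
    rw [h2.fderiv]
    simp only [smul_apply, add_apply, smul_eq_mul, fderiv_fderiv_ofReal hf]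
    ring
  rw [dz, hd, hd]
  push_cast
  ring_nf
  rw [Complex.I_sq]
  ring

lemma D2_add_left {f : (Fin n → ℂ) → ℝ} {z : Fin n → ℂ} (u u' v : Fin n → ℂ)
    (hf : ContDiffAt ℝ 2 f z) : D2 f z (u + u') v = D2 f z u v + D2 f z u' v := by
  rw [D2_eq hf, D2_eq hf, D2_eq hf, map_add]

lemma D2_smul_left {f : (Fin n → ℂ) → ℝ} {z : Fin n → ℂ} (a : ℝ) (u v : Fin n → ℂ)
    (hf : ContDiffAt ℝ 2 f z) : D2 f z (a • u) v = a * D2 f z u v := by
  rw [D2_eq hf, D2_eq hf, map_smul]; rfl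

/-- decomposition of a vector -/
lemma vec_decomp (β : Fin n → ℂ) : β = ∑ j, ((β j).re • (Pi.single j 1 : Fin n → ℂ) +
    (β j).im • (Pi.single j Complex.I : Fin n → ℂ)) := wirt_pi_decomp β

lemma D2_decomp {f : (Fin n → ℂ) → ℝ} {z : Fin n → ℂ} (hf : ContDiffAt ℝ 2 f z)
    (β v : Fin n → ℂ) : D2 f z β v = ∑ j, ((β j).re * D2 f z (Pi.single j 1) v +
      (β j).im * D2 f z (Pi.single j Complex.I) v) := by
  simp only [D2_eq hf]
  conv_lhs => rw [vec_decomp β]
  simp only [map_sum, map_add, map_smul, smul_eq_mul]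

/-- the Levi form through real second derivatives -/
theorem lev_eq {f : (Fin n → ℂ) → ℝ} {z : Fin n → ℂ} (hf : ContDiffAt ℝ 2 f z)
    (β : Fin n → ℂ) :
    lev f β z = (D2 f z β β + D2 f z (Complex.I • β) (Complex.I • β)) / 4 := by
  have h1 : ∀ u v : Fin n → ℂ, D2 f z u v = ∑ k, ∑ j,
      ((u k).re * (v j).re * D2 f z (Pi.single k 1) (Pi.single j 1) +
        (u k).re * (v j).im * D2 f z (Pi.single k 1) (Pi.single j Complex.I) +
        (u k).im * (v j).re * D2 f z (Pi.single k Complex.I) (Pi.single j 1) +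
        (u k).im * (v j).im * D2 f z (Pi.single k Complex.I) (Pi.single j Complex.I)) := by
    intro u v
    rw [D2_decomp hf]
    refine Finset.sum_congr rfl fun k _ => ?_
    rw [D2_symm hf (Pi.single k 1) v, D2_symm hf (Pi.single k Complex.I) v, D2_decomp hf v,
      D2_decomp hf v, Finset.mul_sum, Finset.mul_sum, ← Finset.sum_add_distrib]
    refine Finset.sum_congr rfl fun j _ => ?_
    rw [D2_symm hf (Pi.single j 1) (Pi.single k 1),
      D2_symm hf (Pi.single j Complex.I) (Pi.single k 1),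
      D2_symm hf (Pi.single j 1) (Pi.single k Complex.I),
      D2_symm hf (Pi.single j Complex.I) (Pi.single k Complex.I)]
    ring
  rw [h1 β β, h1 (Complex.I • β) (Complex.I • β), ← Finset.sum_add_distrib, lev,
    Finset.sum_comm, Complex.re_sum, Finset.sum_div]
  refine Finset.sum_congr rfl fun k _ => ?_
  rw [← Finset.sum_add_distrib, Complex.re_sum, Finset.sum_div]
  refine Finset.sum_congr rfl fun j _ => ?_
  rw [dz_dzb_eq hf]
  simp only [Pi.smul_apply, smul_eq_mul, Complex.mul_re, Complex.mul_im, Complex.I_re,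
    Complex.I_im, Complex.add_re, Complex.add_im, Complex.ofReal_re, Complex.ofReal_im,
    Complex.conj_re, Complex.conj_im, Complex.div_ofNat_re, Complex.div_ofNat_im]
  ring

/-! ### calculus of Levi forms -/

lemma lev_congr {f g : (Fin n → ℂ) → ℝ} {z : Fin n → ℂ} (h : f =ᶠ[𝓝 z] g) (β : Fin n → ℂ) :
    lev f β z = lev g β z := by
  have h1 : ∀ k, dzb k (fun z => (f z : ℂ)) =ᶠ[𝓝 z] dzb k (fun z => (g z : ℂ)) := by
    intro k
    filter_upwards [h.eventually_nhds] with y hy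
    refine dzb_congr ?_
    filter_upwards [hy] with x hx
    rw [hx]
  unfold lev
  congr 1
  refine Finset.sum_congr rfl fun j _ => Finset.sum_congr rfl fun k _ => ?_
  rw [dz_congr (h1 k)]

lemma fderiv_add_near {f g : (Fin n → ℂ) → ℝ} {z : Fin n → ℂ} (hf : ContDiffAt ℝ 2 f z)
    (hg : ContDiffAt ℝ 2 g z) (u : Fin n → ℂ) :
    (fun y => fderiv ℝ (fun x => f x + g x) y u) =ᶠ[𝓝 z]
      fun y => fderiv ℝ f y u + fderiv ℝ g y u := by
  filter_upwards [diffAt_near hf, diffAt_near hg] with y h1 h2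
  rw [fderiv_fun_add h1 h2]; rfl

lemma D2_add {f g : (Fin n → ℂ) → ℝ} {z : Fin n → ℂ} (hf : ContDiffAt ℝ 2 f z)
    (hg : ContDiffAt ℝ 2 g z) (u v : Fin n → ℂ) :
    D2 (fun x => f x + g x) z u v = D2 f z u v + D2 g z u v := by
  unfold D2
  rw [(fderiv_add_near hf hg u).fderiv_eq,
    fderiv_fun_add (diffAt_fderiv_apply hf u) (diffAt_fderiv_apply hg u)]
  rfl

lemma D2_const_mul {f : (Fin n → ℂ) → ℝ} {z : Fin n → ℂ} (hf : ContDiffAt ℝ 2 f z) (c : ℝ)
    (u v : Fin n → ℂ) : D2 (fun x => c * f x) z u v = c * D2 f z u v := by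
  have h1 : (fun y => fderiv ℝ (fun x => c * f x) y u) =ᶠ[𝓝 z]
      fun y => c * fderiv ℝ f y u := by
    filter_upwards [diffAt_near hf] with y h1
    rw [fderiv_const_mul h1]; rfl
  unfold D2
  rw [h1.fderiv_eq, fderiv_const_mul (diffAt_fderiv_apply hf u)]
  rfl

lemma lev_add {f g : (Fin n → ℂ) → ℝ} {z : Fin n → ℂ} (hf : ContDiffAt ℝ 2 f z)
    (hg : ContDiffAt ℝ 2 g z) (β : Fin n → ℂ) :
    lev (fun x => f x + g x) β z = lev f β z + lev g β z := by
  rw [lev_eq hf, lev_eq hg, lev_eq (hf.add hg), D2_add hf hg, D2_add hf hg]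
  ring

lemma lev_const_mul {f : (Fin n → ℂ) → ℝ} {z : Fin n → ℂ} (hf : ContDiffAt ℝ 2 f z) (c : ℝ)
    (β : Fin n → ℂ) : lev (fun x => c * f x) β z = c * lev f β z := by
  rw [lev_eq hf, lev_eq (contDiffAt_const.mul hf), D2_const_mul hf, D2_const_mul hf]
  ring

lemma lev_sub {f g : (Fin n → ℂ) → ℝ} {z : Fin n → ℂ} (hf : ContDiffAt ℝ 2 f z)
    (hg : ContDiffAt ℝ 2 g z) (β : Fin n → ℂ) :
    lev (fun x => f x - g x) β z = lev f β z - lev g β z := by
  have h1 : (fun x => f x - g x) = fun x => f x + (-1) * g x := by funext x; ring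
  rw [h1, lev_add hf (contDiffAt_const.mul hg), lev_const_mul hg]
  ring

lemma lev_const (c : ℝ) (β z : Fin n → ℂ) : lev (fun _ => c) β z = 0 := by
  rw [lev_eq contDiffAt_const]
  simp [D2]

lemma D2_comp {θ : ℝ → ℝ} {f : (Fin n → ℂ) → ℝ} {z : Fin n → ℂ} (hf : ContDiffAt ℝ 2 f z)
    (hθ : ContDiff ℝ 2 θ) (u v : Fin n → ℂ) :
    D2 (fun x => θ (f x)) z u v =
      deriv θ (f z) * D2 f z u v + deriv (deriv θ) (f z) * (fderiv ℝ f z u * fderiv ℝ f z v) := by
  have hθ1 : ContDiff ℝ 1 (deriv θ) := by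
    have : ContDiff ℝ (1 + 1) θ := by norm_num; exact hθ
    exact (contDiff_succ_iff_deriv.1 this).2.2
  have h1 : (fun y => fderiv ℝ (fun x => θ (f x)) y u) =ᶠ[𝓝 z]
      fun y => deriv θ (f y) * fderiv ℝ f y u := by
    filter_upwards [diffAt_near hf] with y h1
    have h2 := ((hθ.differentiable (by norm_num) (f y)).hasDerivAt).comp_hasFDerivAt y
      h1.hasFDerivAt
    have h3 : HasFDerivAt (fun x => θ (f x)) (deriv θ (f y) • fderiv ℝ f y) y := h2
    rw [h3.fderiv]; rfl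
  unfold D2
  rw [h1.fderiv_eq]
  have h2 := (((hθ1.differentiable (by norm_num) (f z)).hasDerivAt).comp_hasFDerivAt z
      (hf.differentiableAt (by norm_num)).hasFDerivAt)
  have h3 : HasFDerivAt (fun x => deriv θ (f x)) (deriv (deriv θ) (f z) • fderiv ℝ f z) z := h2
  have h4 : HasFDerivAt (fun y => deriv θ (f y) * fderiv ℝ f y u)
      (deriv θ (f z) • fderiv ℝ (fun y => fderiv ℝ f y u) z +
        fderiv ℝ f z u • deriv (deriv θ) (f z) • fderiv ℝ f z) z :=
    h3.mul (diffAt_fderiv_apply hf u).hasFDerivAt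
  rw [h4.fderiv]
  simp only [add_apply, smul_apply, smul_eq_mul]
  ring

/-- the Levi form of a composition -/
theorem lev_comp {θ : ℝ → ℝ} {f : (Fin n → ℂ) → ℝ} {z : Fin n → ℂ} (hf : ContDiffAt ℝ 2 f z)
    (hθ : ContDiff ℝ 2 θ) (β : Fin n → ℂ) :
    lev (fun x => θ (f x)) β z = deriv θ (f z) * lev f β z +
      deriv (deriv θ) (f z) * ((fderiv ℝ f z β) ^ 2 + (fderiv ℝ f z (Complex.I • β)) ^ 2) / 4 := by
  have h : ContDiffAt ℝ 2 (fun x => θ (f x)) z := hθ.contDiffAt.comp z hf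
  rw [lev_eq hf, lev_eq h, D2_comp hf hθ, D2_comp hf hθ]
  ring

lemma fderiv_reflect {f : (Fin n → ℂ) → ℝ} {z y : Fin n → ℂ} (hf : DifferentiableAt ℝ f (z - y))
    (u : Fin n → ℂ) : fderiv ℝ (fun ζ => f (z - ζ)) y u = -fderiv ℝ f (z - y) u := by
  have h1 : HasFDerivAt (fun ζ : Fin n → ℂ => z - ζ) (-(ContinuousLinearMap.id ℝ (Fin n → ℂ))) y :=
    (hasFDerivAt_id y).const_sub z
  have h2 := hf.hasFDerivAt.comp y h1
  have h3 : HasFDerivAt (fun ζ => f (z - ζ))
      ((fderiv ℝ f (z - y)).comp (-(ContinuousLinearMap.id ℝ (Fin n → ℂ)))) y := h2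
  rw [h3.fderiv]
  simp

lemma contDiffAt_reflect {f : (Fin n → ℂ) → ℝ} {z y : Fin n → ℂ}
    (hf : ContDiffAt ℝ 2 f (z - y)) : ContDiffAt ℝ 2 (fun ζ => f (z - ζ)) y :=
  hf.comp y (contDiffAt_const.sub contDiffAt_id)

lemma D2_reflect {f : (Fin n → ℂ) → ℝ} {z y : Fin n → ℂ} (hf : ContDiffAt ℝ 2 f (z - y))
    (u v : Fin n → ℂ) : D2 (fun ζ => f (z - ζ)) y u v = D2 f (z - y) u v := by
  have hc : Tendsto (fun ζ : Fin n → ℂ => z - ζ) (𝓝 y) (𝓝 (z - y)) :=
    (continuous_const.sub continuous_id).tendsto y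
  have h1 : (fun y => fderiv ℝ (fun ζ => f (z - ζ)) y u) =ᶠ[𝓝 y]
      fun y => -fderiv ℝ f (z - y) u := by
    filter_upwards [hc.eventually (diffAt_near hf)] with x hx using fderiv_reflect hx u
  unfold D2
  rw [h1.fderiv_eq]
  have h2 : fderiv ℝ (fun y => -fderiv ℝ f (z - y) u) y v =
      -fderiv ℝ (fun y => fderiv ℝ f (z - y) u) y v := by
    rw [fderiv_fun_neg]; rfl
  rw [h2, fderiv_reflect (f := fun x => fderiv ℝ f x u) (diffAt_fderiv_apply hf u), neg_neg]

lemma lev_reflect {f : (Fin n → ℂ) → ℝ} {z y : Fin n → ℂ} (hf : ContDiffAt ℝ 2 f (z - y))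
    (β : Fin n → ℂ) : lev (fun ζ => f (z - ζ)) β y = lev f β (z - y) := by
  rw [lev_eq hf, lev_eq (contDiffAt_reflect hf), D2_reflect hf, D2_reflect hf]

/-! ### convolutions -/

/-- the convolution `∫ k(z - ζ) v(ζ) dζ` -/
noncomputable def Cv (k v : (Fin n → ℂ) → ℝ) (z : Fin n → ℂ) : ℝ := ∫ ζ, k (z - ζ) * v ζ

lemma Cv_eq (k v : (Fin n → ℂ) → ℝ) :
    Cv k v = MeasureTheory.convolution v k (ContinuousLinearMap.mul ℝ ℝ) volume := by
  funext z
  rw [Cv, convolution_def]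
  refine integral_congr_ae (Eventually.of_forall fun ζ => ?_)
  simp [mul_comm]

section Conv

variable {k v : (Fin n → ℂ) → ℝ}

lemma Cv_contDiff (hk : ContDiff ℝ ∞ k) (hs : HasCompactSupport k) (hv : LocallyIntegrable v) :
    ContDiff ℝ ∞ (Cv k v) := by
  rw [Cv_eq]
  exact hs.contDiff_convolution_right _ hv hk

lemma contDiff_fderiv_apply (hk : ContDiff ℝ ∞ k) (u : Fin n → ℂ) :
    ContDiff ℝ ∞ fun x => fderiv ℝ k x u :=
  (hk.fderiv_right (m := ∞) (by simp)).clm_apply contDiff_const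

lemma hasCompactSupport_fderiv_apply (hs : HasCompactSupport k) (u : Fin n → ℂ) :
    HasCompactSupport fun x => fderiv ℝ k x u :=
  (hs.fderiv (𝕜 := ℝ)).comp_left (g := fun L : (Fin n → ℂ) →L[ℝ] ℝ => L u) rfl

lemma fderiv_Cv (hk : ContDiff ℝ ∞ k) (hs : HasCompactSupport k) (hv : LocallyIntegrable v)
    (z u : Fin n → ℂ) : fderiv ℝ (Cv k v) z u = Cv (fun x => fderiv ℝ k x u) v z := by
  have h1 := hs.hasFDerivAt_convolution_right (ContinuousLinearMap.mul ℝ ℝ) hv
    (hk.of_le (by simp)) z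
  rw [Cv_eq, h1.fderiv, Cv_eq]
  exact convolution_precompR_apply _ hv (hs.fderiv (𝕜 := ℝ)) (hk.continuous_fderiv (by simp)) z u

lemma D2_Cv (hk : ContDiff ℝ ∞ k) (hs : HasCompactSupport k) (hv : LocallyIntegrable v)
    (z u w : Fin n → ℂ) : D2 (Cv k v) z u w = Cv (fun x => D2 k x u w) v z := by
  have h1 : (fun y => fderiv ℝ (Cv k v) y u) = Cv (fun x => fderiv ℝ k x u) v :=
    funext fun y => fderiv_Cv hk hs hv y u
  unfold D2
  rw [h1, fderiv_Cv (contDiff_fderiv_apply hk u) (hasCompactSupport_fderiv_apply hs u) hv]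

lemma continuous_D2 (hk : ContDiff ℝ ∞ k) (u w : Fin n → ℂ) : Continuous fun x => D2 k x u w :=
  (contDiff_fderiv_apply (contDiff_fderiv_apply hk u) w).continuous

lemma hasCompactSupport_D2 (hs : HasCompactSupport k) (u w : Fin n → ℂ) :
    HasCompactSupport fun x => D2 k x u w :=
  hasCompactSupport_fderiv_apply (hasCompactSupport_fderiv_apply hs u) w

lemma Cv_integrable (hk : Continuous k) (hs : HasCompactSupport k) (hv : LocallyIntegrable v)
    (z : Fin n → ℂ) : Integrable fun ζ => k (z - ζ) * v ζ := by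
  have h1 : Continuous fun ζ => k (z - ζ) := hk.comp (continuous_const.sub continuous_id)
  have h2 : HasCompactSupport fun ζ => k (z - ζ) := by
    have h3 := hs.comp_homeomorph ((Homeomorph.neg (Fin n → ℂ)).trans (Homeomorph.addLeft z))
    have h4 : (fun ζ => k (z - ζ)) =
        k ∘ ((Homeomorph.neg (Fin n → ℂ)).trans (Homeomorph.addLeft z)) := by
      funext ζ
      simp [sub_eq_add_neg]
    rw [h4]; exact h3
  exact hv.integrable_smul_left_of_hasCompactSupport h1 h2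

end Conv

end Vale.Agent.P299.H91
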