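import Vale.Agent.P299.H91.Psh2

/-!
P299, package A-SKODA (helper91): the regularised maximum, convex growth functions.
-/

set_option linter.all false

open MeasureTheory Filter Topology Set
open scoped ENNReal NNReal ComplexConjugate ContDiff

namespace Vale.Agent.P299.H91

open Vale.Agent.P300.L2 Metric

/-! ### primitives of continuous functions -/

lemma contDiff_prim {f : ℝ → ℝ} {k : ℕ} (hf : ContDiff ℝ k f) (a : ℝ) :
    ContDiff ℝ ((k + 1 : ℕ) : WithTop ℕ∞) fun t => ∫ s in a..t, f s := by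
  have hd : ∀ t, HasDerivAt (fun t => ∫ s in a..t, f s) (f t) t := fun t =>
    intervalIntegral.integral_hasDerivAt_right (hf.continuous.intervalIntegrable _ _)
      (hf.continuous.stronglyMeasurableAtFilter _ _) hf.continuous.continuousAt
  have h1 : deriv (fun t => ∫ s in a..t, f s) = f := funext fun t => (hd t).deriv
  have h2 : ContDiff ℝ ((k : WithTop ℕ∞) + 1) fun t => ∫ s in a..t, f s := by
    rw [contDiff_succ_iff_deriv]
    refine ⟨fun t => (hd t).differentiableAt, ?_, ?_⟩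
    · intro h
      exact absurd h (by exact WithTop.coe_ne_top)
    · rw [h1]; exact hf
  exact_mod_cast h2

lemma hasDerivAt_prim {f : ℝ → ℝ} (hf : Continuous f) (a t : ℝ) :
    HasDerivAt (fun t => ∫ s in a..t, f s) (f t) t :=
  intervalIntegral.integral_hasDerivAt_right (hf.intervalIntegrable _ _)
    (hf.stronglyMeasurableAtFilter _ _) hf.continuousAt

lemma deriv_prim {f : ℝ → ℝ} (hf : Continuous f) (a : ℝ) :
    deriv (fun t => ∫ s in a..t, f s) = f := funext fun t => (hasDerivAt_prim hf a t).deriv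

/-! ### the regularised absolute value -/

/-- second derivative of `th` -/
noncomputable def th2 (t : ℝ) : ℝ := 3 / 4 * max (1 - t ^ 2) 0

lemma continuous_th2 : Continuous th2 :=
  continuous_const.mul ((continuous_const.sub (continuous_id.pow 2)).max continuous_const)

lemma th2_nonneg (t : ℝ) : 0 ≤ th2 t := mul_nonneg (by norm_num) (le_max_right _ _)

/-- first derivative of `th` -/
noncomputable def th1 (t : ℝ) : ℝ := ∫ s in (0 : ℝ)..t, th2 s

/-- a `C²` convex function equal to `|t| / 2` for `|t| ≥ 1` -/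
noncomputable def th (t : ℝ) : ℝ := 3 / 16 + ∫ s in (0 : ℝ)..t, th1 s

lemma contDiff_th1 : ContDiff ℝ 1 th1 := by
  have h0 : ContDiff ℝ (0 : ℕ) th2 := by
    rw [Nat.cast_zero, contDiff_zero]; exact continuous_th2
  exact_mod_cast contDiff_prim h0 0

lemma contDiff_th : ContDiff ℝ 2 th := by
  have h0 : ContDiff ℝ (1 : ℕ) th1 := by exact_mod_cast contDiff_th1
  have h1 := contDiff_prim h0 0
  exact contDiff_const.add (by exact_mod_cast h1)

lemma hasDerivAt_th1 (t : ℝ) : HasDerivAt th1 (th2 t) t := hasDerivAt_prim continuous_th2 0 t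

lemma hasDerivAt_thf (t : ℝ) : HasDerivAt th (th1 t) t :=
  (hasDerivAt_prim contDiff_th1.continuous 0 t).const_add _

lemma deriv_th : deriv th = th1 := funext fun t => (hasDerivAt_thf t).deriv
lemma deriv_th1 : deriv th1 = th2 := funext fun t => (hasDerivAt_th1 t).deriv

lemma th1_neg (t : ℝ) : th1 (-t) = -th1 t := by
  have h : ∀ s, th2 (-s) = th2 s := fun s => by simp [th2]
  unfold th1
  have h1 := intervalIntegral.integral_comp_neg (a := (0 : ℝ)) (b := t) th2
  simp only [h, neg_zero] at h1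
  rw [h1, intervalIntegral.integral_symm]

lemma th_neg (t : ℝ) : th (-t) = th t := by
  unfold th
  have h1 := intervalIntegral.integral_comp_neg (a := (0 : ℝ)) (b := t) th1
  simp only [th1_neg, neg_zero] at h1
  rw [intervalIntegral.integral_neg] at h1
  rw [intervalIntegral.integral_symm, ← h1]
  ring

lemma th1_eq {t : ℝ} (h0 : 0 ≤ t) (h1 : t ≤ 1) : th1 t = 3 / 4 * (t - t ^ 3 / 3) := by
  unfold th1
  have h2 : ∫ s in (0 : ℝ)..t, th2 s = ∫ s in (0 : ℝ)..t, 3 / 4 * (1 - s ^ 2) := by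
    refine intervalIntegral.integral_congr fun s hs => ?_
    rw [uIcc_of_le h0] at hs
    show th2 s = _
    rw [th2, max_eq_left]
    have : s ^ 2 ≤ 1 := by nlinarith [hs.1, hs.2]
    linarith
  rw [h2, intervalIntegral.integral_const_mul, intervalIntegral.integral_sub (f := fun _ => 1)
    (g := fun x : ℝ => x ^ 2) (by simp) ((continuous_pow 2).intervalIntegrable _ _)]
  simp [integral_pow]
  ring

lemma th1_one {t : ℝ} (h1 : 1 ≤ t) : th1 t = 1 / 2 := by
  have h2 : th1 t = th1 1 + ∫ s in (1 : ℝ)..t, th2 s := by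
    unfold th1
    rw [intervalIntegral.integral_add_adjacent_intervals (continuous_th2.intervalIntegrable _ _)
      (continuous_th2.intervalIntegrable _ _)]
  have h3 : ∫ s in (1 : ℝ)..t, th2 s = 0 := by
    have : ∫ s in (1 : ℝ)..t, th2 s = ∫ s in (1 : ℝ)..t, 0 := by
      refine intervalIntegral.integral_congr fun s hs => ?_
      rw [uIcc_of_le h1] at hs
      show th2 s = 0
      rw [th2, max_eq_right, mul_zero]
      nlinarith [hs.1]
    rw [this]; simp
  rw [h2, h3, th1_eq zero_le_one le_rfl]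
  norm_num

lemma th1_mono : Monotone th1 := by
  refine monotone_of_deriv_nonneg (contDiff_th1.differentiable (by norm_num)) fun t => ?_
  rw [deriv_th1]; exact th2_nonneg t

lemma th1_le (t : ℝ) : th1 t ≤ 1 / 2 := by
  have h := th1_mono (le_max_left t 1)
  rwa [th1_one (le_max_right _ _)] at h

lemma le_th1 (t : ℝ) : -(1 / 2) ≤ th1 t := by
  have h := th1_le (-t)
  rw [th1_neg] at h; linarith

lemma th_one {t : ℝ} (h1 : 1 ≤ t) : th t = t / 2 := by
  have hc := contDiff_th1.continuous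
  have h2 : th t = th 1 + ∫ s in (1 : ℝ)..t, th1 s := by
    unfold th
    rw [add_assoc, intervalIntegral.integral_add_adjacent_intervals (hc.intervalIntegrable _ _)
      (hc.intervalIntegrable _ _)]
  have h3 : ∫ s in (1 : ℝ)..t, th1 s = (t - 1) / 2 := by
    have : ∫ s in (1 : ℝ)..t, th1 s = ∫ s in (1 : ℝ)..t, (1 / 2 : ℝ) := by
      refine intervalIntegral.integral_congr fun s hs => ?_
      rw [uIcc_of_le h1] at hs
      exact th1_one hs.1
    rw [this]; simp; ring
  have h4 : th 1 = 1 / 2 := by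
    unfold th
    have : ∫ s in (0 : ℝ)..1, th1 s = ∫ s in (0 : ℝ)..1, 3 / 4 * (s - s ^ 3 / 3) := by
      refine intervalIntegral.integral_congr fun s hs => ?_
      rw [uIcc_of_le zero_le_one] at hs
      exact th1_eq hs.1 hs.2
    rw [this, intervalIntegral.integral_const_mul, intervalIntegral.integral_sub
      (f := fun x : ℝ => x) (g := fun x : ℝ => x ^ 3 / 3)
      (continuous_id.intervalIntegrable _ _)
      (((continuous_pow 3).div_const 3).intervalIntegrable _ _),
      intervalIntegral.integral_div]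
    simp [integral_pow]
    norm_num
  rw [h2, h3, h4]; ring

lemma th_of_le {t : ℝ} (h1 : t ≤ -1) : th t = -t / 2 := by
  rw [← th_neg, th_one (by linarith)]

lemma th_lip {s t : ℝ} (h : s ≤ t) : |th t - th s| ≤ (t - s) / 2 := by
  have h1 : ∫ x in s..t, th1 x = th t - th s := by
    refine intervalIntegral.integral_eq_sub_of_hasDerivAt (fun x _ => hasDerivAt_thf x)
      (contDiff_th1.continuous.intervalIntegrable _ _)
  rw [← h1, ← Real.norm_eq_abs]
  have h2 := intervalIntegral.norm_integral_le_of_norm_le_const (a := s) (b := t) (C := 1 / 2)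
    (f := th1) fun x _ => by
      rw [Real.norm_eq_abs, abs_le]; exact ⟨le_th1 x, th1_le x⟩
  rw [abs_of_nonneg (sub_nonneg.2 h)] at h2
  linarith

/-- the regularised maximum -/
noncomputable def RM (a b : ℝ) : ℝ := (a + b) / 2 + th (a - b)

lemma RM_mono {a a' b b' : ℝ} (ha : a ≤ a') (hb : b ≤ b') : RM a b ≤ RM a' b' := by
  have h1 : RM a b ≤ RM a' b := by
    have := th_lip (sub_le_sub_right ha b)
    have h2 := (abs_le.1 this).1
    unfold RM; linarith
  have h2 : RM a' b ≤ RM a' b' := by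
    have := th_lip (sub_le_sub_left hb a')
    have h2 := (abs_le.1 this).2
    unfold RM; linarith
  exact h1.trans h2

lemma RM_left {a b : ℝ} (h : b + 1 ≤ a) : RM a b = a := by
  rw [RM, th_one (by linarith)]; ring

lemma RM_right {a b : ℝ} (h : a + 1 ≤ b) : RM a b = b := by
  rw [RM, th_of_le (by linarith)]; ring

lemma le_RM_right (a b : ℝ) : b ≤ RM a b := by
  rcases le_total a (b - 1) with h | h
  · rw [RM_right (by linarith)]
  · calc b = RM (b - 1) b := (RM_right (by linarith)).symm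
      _ ≤ RM a b := RM_mono h le_rfl

lemma le_RM_left (a b : ℝ) : a ≤ RM a b := by
  rcases le_total b (a - 1) with h | h
  · rw [RM_left (by linarith)]
  · calc a = RM a (a - 1) := (RM_left (by linarith)).symm
      _ ≤ RM a b := RM_mono le_rfl h

lemma RM_le (a b : ℝ) : RM a b ≤ max a b + 1 := by
  calc RM a b ≤ RM (max a b + 1) (max a b) :=
        RM_mono (by linarith [le_max_left a b]) (le_max_right a b)
    _ = max a b + 1 := RM_left le_rfl

lemma RM_sub (a b c : ℝ) : RM a b - c = RM (a - c) (b - c) := by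
  unfold RM
  rw [show a - c - (b - c) = a - b by ring]; ring

variable {n : ℕ}

/-- the Levi form of a regularised maximum -/
theorem lev_RM {f g : (Fin n → ℂ) → ℝ} {z β : Fin n → ℂ} (hf : ContDiffAt ℝ 2 f z)
    (hg : ContDiffAt ℝ 2 g z) (h1 : 0 ≤ lev f β z) (h2 : 0 ≤ lev g β z) :
    0 ≤ lev (fun x => RM (f x) (g x)) β z := by
  have e : (fun x => RM (f x) (g x)) = fun x => (1 / 2 * f x + 1 / 2 * g x) + th (f x - g x) := by
    funext x; unfold RM; ring
  have hd : ContDiffAt ℝ 2 (fun x => f x - g x) z := hf.sub hg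
  have hf2 : ContDiffAt ℝ 2 (fun x => 1 / 2 * f x) z := contDiffAt_const.mul hf
  have hg2 : ContDiffAt ℝ 2 (fun x => 1 / 2 * g x) z := contDiffAt_const.mul hg
  have ht : ContDiffAt ℝ 2 (fun x => th (f x - g x)) z := contDiff_th.contDiffAt.comp z hd
  rw [e, lev_add (hf2.add hg2) ht, lev_add hf2 hg2, lev_const_mul hf, lev_const_mul hg,
    lev_comp hd contDiff_th, lev_sub hf hg, deriv_th, deriv_th1]
  have h3 := le_th1 (f z - g z)
  have h4 := th1_le (f z - g z)
  have h5 := th2_nonneg (f z - g z)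
  have h6 : 0 ≤ th2 (f z - g z) * (fderiv ℝ (fun x => f x - g x) z β ^ 2 +
      fderiv ℝ (fun x => f x - g x) z (Complex.I • β) ^ 2) / 4 := by positivity
  nlinarith

lemma contDiffAt_RM {f g : (Fin n → ℂ) → ℝ} {z : Fin n → ℂ} (hf : ContDiffAt ℝ 2 f z)
    (hg : ContDiffAt ℝ 2 g z) : ContDiffAt ℝ 2 (fun x => RM (f x) (g x)) z :=
  ((hf.add hg).div_const 2).add (contDiff_th.contDiffAt.comp z (hf.sub hg))

/-! ### convex growth functions -/

lemma ceil_sub_one (t : ℝ) : ⌈t⌉₊ ≤ ⌈t - 1⌉₊ + 1 := by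
  rw [Nat.ceil_le]
  push_cast
  linarith [Nat.le_ceil (t - 1)]

theorem exists_growth (A : ℕ → ℝ) : ∃ χ : ℝ → ℝ, ContDiff ℝ 2 χ ∧
    (∀ t, 0 ≤ t → A ⌈t⌉₊ ≤ χ t) ∧ (∀ t, 0 ≤ t → A ⌈t⌉₊ ≤ deriv χ t) ∧
    (∀ t, 0 ≤ t → 0 ≤ χ t) ∧ (∀ t, 0 ≤ t → 0 ≤ deriv χ t) ∧ ∀ t, 0 ≤ deriv (deriv χ) t := by
  set B : ℕ → ℝ := fun k => ∑ i ∈ Finset.range (k + 1), |A i| with hB
  have hBm : Monotone B := by
    intro a b hab
    exact Finset.sum_le_sum_of_subset_of_nonneg
      (Finset.range_subset_range.2 (by omega)) fun _ _ _ => abs_nonneg _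
  have hAB : ∀ k, A k ≤ B k := fun k => (le_abs_self _).trans
    (Finset.single_le_sum (f := fun i => |A i|) (fun _ _ => abs_nonneg _)
      (Finset.mem_range.2 (Nat.lt_succ_self k)))
  have hB0 : ∀ k, 0 ≤ B k := fun k => Finset.sum_nonneg fun _ _ => abs_nonneg _
  obtain ⟨f, hf⟩ := exists_continuous_forall_mem_convex_of_local_const
    (t := fun x : ℝ => Ici (B (⌈x⌉₊ + 2))) (fun x => convex_Ici _) (fun x => by
      refine ⟨B (⌈x⌉₊ + 1 + 2), ?_⟩
      filter_upwards [Iio_mem_nhds (show x < x + 1 by linarith)] with y hy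
      refine hBm (Nat.add_le_add_right (Nat.ceil_le.2 ?_) 2)
      push_cast
      linarith [Nat.le_ceil x, mem_Iio.1 hy])
  have hfc : Continuous f := f.continuous
  have hf' : ∀ x, B (⌈x⌉₊ + 2) ≤ f x := hf
  have hf0 : ∀ x, 0 ≤ f x := fun x => (hB0 _).trans (hf' x)
  set χ1 : ℝ → ℝ := fun t => ∫ s in (-2 : ℝ)..t, f s with hχ1
  have hχ1c : ContDiff ℝ 1 χ1 := by
    have h0 : ContDiff ℝ (0 : ℕ) (f : ℝ → ℝ) := by
      rw [Nat.cast_zero, contDiff_zero]; exact hfc
    have h1 := contDiff_prim h0 (-2 : ℝ)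
    simpa using h1
  have hχ1' : deriv χ1 = f := deriv_prim hfc _
  -- lower bound of integrals over unit intervals
  have hunit : ∀ (h : ℝ → ℝ) (c a t : ℝ), Continuous h → a ≤ t - 1 → (∀ x, a ≤ x → 0 ≤ h x) →
      (∀ x ∈ Icc (t - 1) t, c ≤ h x) → c ≤ ∫ s in a..t, h s := by
    intro h c a t hc hat h0 h1
    have h2 : ∫ s in a..t, h s = (∫ s in a..(t - 1), h s) + ∫ s in (t - 1)..t, h s :=
      (intervalIntegral.integral_add_adjacent_intervals (hc.intervalIntegrable _ _)
        (hc.intervalIntegrable _ _)).symm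
    have h3 : 0 ≤ ∫ s in a..(t - 1), h s :=
      intervalIntegral.integral_nonneg hat fun x hx => h0 x hx.1
    have h4 : ∫ s in (t - 1)..t, c ≤ ∫ s in (t - 1)..t, h s :=
      intervalIntegral.integral_mono_on (by linarith) (by simp) (hc.intervalIntegrable _ _) h1
    rw [intervalIntegral.integral_const] at h4
    rw [h2]
    have : (t - (t - 1)) • c = c := by rw [smul_eq_mul]; ring
    rw [this] at h4
    linarith
  have hχ1b : ∀ t, -1 ≤ t → B (⌈t⌉₊ + 1) ≤ χ1 t := by
    intro t ht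
    refine hunit f _ _ t hfc (by linarith) (fun x _ => hf0 x) fun x hx => ?_
    refine le_trans (hBm ?_) (hf' x)
    have h1 := ceil_sub_one t
    have h2 : ⌈t - 1⌉₊ ≤ ⌈x⌉₊ := Nat.ceil_mono hx.1
    omega
  have hχ10 : ∀ t, -2 ≤ t → 0 ≤ χ1 t := fun t ht =>
    intervalIntegral.integral_nonneg ht fun x _ => hf0 x
  set χ : ℝ → ℝ := fun t => ∫ s in (-2 : ℝ)..t, χ1 s with hχ
  have hχc : ContDiff ℝ 2 χ := by
    have h0 : ContDiff ℝ (1 : ℕ) χ1 := by exact_mod_cast hχ1c
    have h1 := contDiff_prim h0 (-2 : ℝ)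
    have e : (((1 + 1 : ℕ) : WithTop ℕ∞)) = 2 := by norm_num
    rw [e] at h1
    exact h1
  have hχ' : deriv χ = χ1 := deriv_prim hχ1c.continuous _
  refine ⟨χ, hχc, ?_, ?_, ?_, ?_, ?_⟩
  · intro t ht
    refine hunit χ1 _ _ t hχ1c.continuous (by linarith) hχ10 fun x hx => ?_
    refine le_trans ((hAB _).trans (hBm ?_)) (hχ1b x (by linarith [hx.1]))
    have h1 := ceil_sub_one t
    have h2 : ⌈t - 1⌉₊ ≤ ⌈x⌉₊ := Nat.ceil_mono hx.1
    omega
  · intro t ht
    rw [hχ']
    exact ((hAB _).trans (hBm (Nat.le_succ _))).trans (hχ1b t (by linarith))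
  · intro t ht
    exact intervalIntegral.integral_nonneg (by linarith) fun x hx => hχ10 x hx.1
  · intro t ht
    rw [hχ']; exact hχ10 t (by linarith)
  · intro t
    rw [hχ', hχ1']; exact hf0 t

end Vale.Agent.P299.H91
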