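import Vale.Agent.P300.H435.L2.Sing

/-!
P299, package A-SKODA (helper91): the radial mollifier `rk ε` on `ℂⁿ` and its primitive `xk ε`,
`∂_ε rk ε = ∑ ∂_j ∂̄_j xk ε`.
-/

set_option linter.all false

open MeasureTheory Filter Topology Set
open scoped ENNReal NNReal ComplexConjugate ContDiff

namespace Vale.Agent.P299.H91

open Vale.Agent.P300.L2

variable {n : ℕ}

/-! ### profile functions -/

/-- the profile of the mollifier -/
noncomputable def bb (s : ℝ) : ℝ := Real.smoothTransition (1 - s)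

lemma contDiff_bb : ContDiff ℝ ∞ bb := by
  have : ContDiff ℝ ∞ Real.smoothTransition := Real.smoothTransition.contDiff
  exact this.comp (contDiff_const.sub contDiff_id)

lemma continuous_bb : Continuous bb := contDiff_bb.continuous

lemma bb_nonneg (s : ℝ) : 0 ≤ bb s := Real.smoothTransition.nonneg _

lemma bb_le_one (s : ℝ) : bb s ≤ 1 := Real.smoothTransition.le_one _

lemma bb_zero {s : ℝ} (h : 1 ≤ s) : bb s = 0 :=
  Real.smoothTransition.zero_of_nonpos (by linarith)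

lemma bb_pos {s : ℝ} (h : s < 1) : 0 < bb s :=
  Real.smoothTransition.pos_of_pos (by linarith)

/-- `aa' = -2 bb`, `aa = 0` on `[1, ∞)` -/
noncomputable def aa (s : ℝ) : ℝ := ∫ τ in s..1, 2 * bb τ

lemma hasDerivAt_aa (s : ℝ) : HasDerivAt aa (-(2 * bb s)) s := by
  have hc : Continuous fun τ => 2 * bb τ := continuous_const.mul continuous_bb
  exact intervalIntegral.integral_hasDerivAt_left (hc.intervalIntegrable _ _)
    (hc.stronglyMeasurableAtFilter _ _) hc.continuousAt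

lemma deriv_aa : deriv aa = fun s => -(2 * bb s) := funext fun s => (hasDerivAt_aa s).deriv

lemma contDiff_aa : ContDiff ℝ ∞ aa := by
  rw [contDiff_infty_iff_deriv]
  refine ⟨fun s => (hasDerivAt_aa s).differentiableAt, ?_⟩
  rw [deriv_aa]
  exact (contDiff_const.mul contDiff_bb).neg

lemma aa_zero {s : ℝ} (h : 1 ≤ s) : aa s = 0 := by
  unfold aa
  rw [intervalIntegral.integral_symm, neg_eq_zero]
  have : ∫ τ in (1 : ℝ)..s, 2 * bb τ = ∫ τ in (1 : ℝ)..s, 0 := by
    refine intervalIntegral.integral_congr fun τ hτ => ?_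
    rw [uIcc_of_le h] at hτ
    show 2 * bb τ = 0
    rw [bb_zero hτ.1, mul_zero]
  rw [this]; simp

lemma aa_nonneg (s : ℝ) : 0 ≤ aa s := by
  rcases le_total 1 s with h | h
  · rw [aa_zero h]
  · exact intervalIntegral.integral_nonneg h fun τ _ => mul_nonneg (by norm_num) (bb_nonneg τ)

/-! ### the square of the norm -/

/-- Euclidean square norm on `ℂⁿ` -/
noncomputable def nsq (z : Fin n → ℂ) : ℝ := ∑ j, ‖z j‖ ^ 2

lemma nsq_nonneg (z : Fin n → ℂ) : 0 ≤ nsq z := Finset.sum_nonneg fun _ _ => sq_nonneg _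

lemma contDiff_nsq : ContDiff ℝ ∞ (nsq : (Fin n → ℂ) → ℝ) := by
  refine ContDiff.sum fun j _ => ?_
  have h : ContDiff ℝ ∞ fun z : Fin n → ℂ => z j := contDiff_apply ℝ ℂ j
  exact h.norm_sq ℝ

lemma norm_sq_le_nsq (z : Fin n → ℂ) : ‖z‖ ^ 2 ≤ nsq z := by
  rcases isEmpty_or_nonempty (Fin n) with h | h
  · have : z = 0 := Subsingleton.elim _ _
    rw [this, norm_zero]; simp [nsq]
  · obtain ⟨j, hj⟩ : ∃ j, ‖z‖ = ‖z j‖ := by
      have h1 := Finite.exists_max fun j => ‖z j‖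
      obtain ⟨j, hj⟩ := h1
      refine ⟨j, le_antisymm ((pi_norm_le_iff_of_nonempty _).2 hj) (norm_le_pi_norm z j)⟩
    rw [hj]
    exact Finset.single_le_sum (f := fun j => ‖z j‖ ^ 2) (fun _ _ => sq_nonneg _)
      (Finset.mem_univ j)

lemma nsq_le (z : Fin n → ℂ) : nsq z ≤ n * ‖z‖ ^ 2 := by
  have : nsq z ≤ ∑ _j : Fin n, ‖z‖ ^ 2 := Finset.sum_le_sum fun j _ => by
    have := norm_le_pi_norm z j
    gcongr
  simpa using this

lemma nsq_neg (z : Fin n → ℂ) : nsq (-z) = nsq z := by simp [nsq]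

lemma nsq_sub_comm (z w : Fin n → ℂ) : nsq (z - w) = nsq (w - z) := by
  rw [← nsq_neg (z - w), neg_sub]

/-! ### the mollifier -/

/-- normalising constant -/
noncomputable def cN (n : ℕ) : ℝ := (∫ x : Fin n → ℂ, bb (nsq x))⁻¹

lemma continuous_bbn : Continuous fun x : Fin n → ℂ => bb (nsq x) :=
  continuous_bb.comp contDiff_nsq.continuous

lemma hasCompactSupport_bbn : HasCompactSupport fun x : Fin n → ℂ => bb (nsq x) := by
  refine HasCompactSupport.of_support_subset_isCompact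
    (isCompact_closedBall (0 : Fin n → ℂ) 1) fun x hx => ?_
  rw [Function.mem_support] at hx
  rw [mem_closedBall_zero_iff]
  by_contra h
  push Not at h
  refine hx (bb_zero ?_)
  have := norm_sq_le_nsq x
  nlinarith

lemma integral_bbn_pos : 0 < ∫ x : Fin n → ℂ, bb (nsq x) := by
  refine (integral_pos_iff_support_of_nonneg (fun x => bb_nonneg _)
    (continuous_bbn.integrable_of_hasCompactSupport hasCompactSupport_bbn)).2 ?_
  refine IsOpen.measure_pos _ ?_ ?_
  · exact continuous_bbn.isOpen_support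
  · refine ⟨0, ?_⟩
    rw [Function.mem_support]
    refine (bb_pos ?_).ne'
    simp [nsq]

lemma cN_pos : 0 < cN n := inv_pos.2 integral_bbn_pos

/-- the mollifier -/
noncomputable def rk (ε : ℝ) (x : Fin n → ℂ) : ℝ := cN n / ε ^ (2 * n) * bb (nsq x / ε ^ 2)

/-- the primitive of the mollifier in `ε` -/
noncomputable def xk (ε : ℝ) (x : Fin n → ℂ) : ℝ := cN n / ε ^ (2 * n) * ε * aa (nsq x / ε ^ 2)

lemma contDiff_rk (ε : ℝ) : ContDiff ℝ ∞ (rk ε : (Fin n → ℂ) → ℝ) :=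
  contDiff_const.mul (contDiff_bb.comp (contDiff_nsq.div_const _))

lemma contDiff_xk (ε : ℝ) : ContDiff ℝ ∞ (xk ε : (Fin n → ℂ) → ℝ) :=
  contDiff_const.mul (contDiff_aa.comp (contDiff_nsq.div_const _))

lemma rk_nonneg {ε : ℝ} (hε : 0 < ε) (x : Fin n → ℂ) : 0 ≤ rk ε x :=
  mul_nonneg (div_nonneg cN_pos.le (by positivity)) (bb_nonneg _)

lemma xk_nonneg {ε : ℝ} (hε : 0 < ε) (x : Fin n → ℂ) : 0 ≤ xk ε x :=
  mul_nonneg (mul_nonneg (div_nonneg cN_pos.le (by positivity)) hε.le) (aa_nonneg _)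

lemma one_le_div {ε : ℝ} (hε : 0 < ε) {x : Fin n → ℂ} (hx : ε ≤ ‖x‖) : 1 ≤ nsq x / ε ^ 2 := by
  rw [le_div_iff₀ (by positivity), one_mul]
  exact (pow_le_pow_left₀ hε.le hx 2).trans (norm_sq_le_nsq x)

lemma rk_zero {ε : ℝ} (hε : 0 < ε) {x : Fin n → ℂ} (hx : ε ≤ ‖x‖) : rk ε x = 0 := by
  rw [rk, bb_zero (one_le_div hε hx), mul_zero]

lemma xk_zero {ε : ℝ} (hε : 0 < ε) {x : Fin n → ℂ} (hx : ε ≤ ‖x‖) : xk ε x = 0 := by
  rw [xk, aa_zero (one_le_div hε hx), mul_zero]

lemma rk_neg (ε : ℝ) (x : Fin n → ℂ) : rk ε (-x) = rk ε x := by rw [rk, nsq_neg, ← rk]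

lemma hasCompactSupport_rk {ε : ℝ} (hε : 0 < ε) :
    HasCompactSupport (rk ε : (Fin n → ℂ) → ℝ) := by
  refine HasCompactSupport.of_support_subset_isCompact
    (isCompact_closedBall (0 : Fin n → ℂ) ε) fun x hx => ?_
  rw [mem_closedBall_zero_iff]
  by_contra h
  push Not at h
  exact hx (rk_zero hε h.le)

lemma hasCompactSupport_xk {ε : ℝ} (hε : 0 < ε) :
    HasCompactSupport (xk ε : (Fin n → ℂ) → ℝ) := by
  refine HasCompactSupport.of_support_subset_isCompact
    (isCompact_closedBall (0 : Fin n → ℂ) ε) fun x hx => ?_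
  rw [mem_closedBall_zero_iff]
  by_contra h
  push Not at h
  exact hx (xk_zero hε h.le)

lemma rk_scale {ε : ℝ} (hε : 0 < ε) (x : Fin n → ℂ) :
    rk ε (ε • x) = cN n / ε ^ (2 * n) * bb (nsq x) := by
  have h : nsq (ε • x) = ε ^ 2 * nsq x := by
    simp only [nsq, Pi.smul_apply, norm_smul, Real.norm_eq_abs, mul_pow, sq_abs, Finset.mul_sum]
  rw [rk, h, mul_div_assoc, mul_comm (ε ^ 2), div_mul_cancel₀ _ (by positivity)]

lemma finrank_Cn : Module.finrank ℝ (Fin n → ℂ) = 2 * n := by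
  rw [Module.finrank_pi_fintype]
  simp [Complex.finrank_real_complex, mul_comm]

lemma integral_rk {ε : ℝ} (hε : 0 < ε) : ∫ x : Fin n → ℂ, rk ε x = 1 := by
  have h := Measure.integral_comp_smul (μ := (volume : Measure (Fin n → ℂ))) (fun x => rk ε x) ε
  rw [finrank_Cn, abs_of_pos (by positivity)] at h
  have h1 : ∫ x : Fin n → ℂ, rk ε (ε • x) = (ε ^ (2 * n))⁻¹ := by
    have : (fun x : Fin n → ℂ => rk ε (ε • x)) =
        fun x => (cN n / ε ^ (2 * n)) * bb (nsq x) := funext fun x => rk_scale hε x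
    rw [this, integral_const_mul, cN, div_mul_eq_mul_div,
      inv_mul_cancel₀ integral_bbn_pos.ne', one_div]
  rw [h1, smul_eq_mul] at h
  have h2 : (ε ^ (2 * n))⁻¹ ≠ 0 := by positivity
  exact (mul_left_cancel₀ h2 (by rw [mul_one]; exact h)).symm

end Vale.Agent.P299.H91
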