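import Vale.Agent.P299.H91.Weak

/-!
P299, package A-SKODA (helper91), (T2): weak limits of plurisubharmonic functions on `Sheets`.
-/

set_option linter.all false

open MeasureTheory Filter Topology Set
open scoped ENNReal NNReal ComplexConjugate ContDiff

namespace Vale.Agent.P299.H91

open Vale.Agent.P300.L2 Vale.Agent.P300.L2.Sheets Metric

variable {n N : ℕ} {S : Sheets n N}

lemma aesm_real {X : (Fin n → ℂ) × ℕ → ℝ} (hX : S.CD 0 (fun q => (X q : ℂ))) :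
    AEStronglyMeasurable X S.μ := by
  have := (aestronglyMeasurable_of_CD hX).re
  simpa using this

lemma isFinite_restrict {K : Set (Fin n → ℂ)} (hK : IsCompact K) (hKV : K ⊆ S.V) :
    IsFiniteMeasure (S.μ.restrict {q | q.1 ∈ K}) := ⟨by
  rw [Measure.restrict_apply_univ]; exact μ_lt_top hK hKV⟩

lemma memLp_of_bound {X : (Fin n → ℂ) × ℕ → ℝ} (hX : AEMeasurable X S.μ)
    {K : Set (Fin n → ℂ)} (hK : IsCompact K) (hKV : K ⊆ S.V) {B : ℝ}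
    (hB : ∀ᵐ q ∂S.μ, q.1 ∈ K → |X q| ≤ B) : MemLp X 2 (S.μ.restrict {q | q.1 ∈ K}) := by
  haveI := isFinite_restrict (S := S) hK hKV
  have hm : MeasurableSet {q : (Fin n → ℂ) × ℕ | q.1 ∈ K} := measurable_fst hK.measurableSet
  refine MemLp.of_bound hX.aestronglyMeasurable.restrict B ?_
  filter_upwards [ae_restrict_of_ae hB, ae_restrict_mem hm] with q hq hqK
  exact hq hqK

lemma memLp_of_CD {X : (Fin n → ℂ) × ℕ → ℝ} (hX : S.CD 0 (fun q => (X q : ℂ)))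
    {K : Set (Fin n → ℂ)} (hK : IsCompact K) (hKV : K ⊆ S.V) :
    MemLp X 2 (S.μ.restrict {q | q.1 ∈ K}) := by
  obtain ⟨B, hB⟩ := exists_real_bound hX hK hKV
  refine memLp_of_bound (aesm_real hX).aemeasurable hK hKV (B := B) ?_
  filter_upwards [ae_mem_M (S := S)] with q hq hqK
  exact hB q hq hqK

lemma ae_of_compact {p : (Fin n → ℂ) → ℝ} {C : ℝ} {k0 : ℕ} (hp : Exh S.V p C k0)
    {P : (Fin n → ℂ) × ℕ → Prop}
    (h : ∀ K : Set (Fin n → ℂ), IsCompact K → K ⊆ S.V → ∀ᵐ q ∂S.μ, q.1 ∈ K → P q) :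
    ∀ᵐ q ∂S.μ, P q := by
  have h1 : ∀ᵐ q ∂S.μ, ∀ m : ℕ, q.1 ∈ {z | z ∈ S.V ∧ p z ≤ m} → P q :=
    ae_all_iff.2 fun m => h _ (hp.compact m) fun z hz => hz.1
  filter_upwards [h1, ae_mem_M (S := S)] with q hq hqM
  exact hq ⌈p q.1⌉₊ ⟨hqM.1, Nat.le_ceil _⟩

/-- `v` is the weak `L²_loc` limit of `u` along `U`. -/
structure IsWeakLim (S : Sheets n N) (U : Ultrafilter ℕ) (u : ℕ → (Fin n → ℂ) × ℕ → ℝ)
    (v : (Fin n → ℂ) × ℕ → ℝ) : Prop where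
  aem : AEMeasurable v S.μ
  memu : ∀ K : Set (Fin n → ℂ), IsCompact K → K ⊆ S.V →
    ∀ᶠ j in (U : Filter ℕ), MemLp (u j) 2 (S.μ.restrict {q | q.1 ∈ K})
  mem : ∀ K : Set (Fin n → ℂ), IsCompact K → K ⊆ S.V →
    MemLp v 2 (S.μ.restrict {q | q.1 ∈ K})
  lim : ∀ K : Set (Fin n → ℂ), IsCompact K → K ⊆ S.V →
    ∀ f : (Fin n → ℂ) × ℕ → ℝ, MemLp f 2 (S.μ.restrict {q | q.1 ∈ K}) →
      Tendsto (fun j => ∫ q in {q | q.1 ∈ K}, u j q * f q ∂S.μ) U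
        (𝓝 (∫ q in {q | q.1 ∈ K}, v q * f q ∂S.μ))

theorem exists_isWeakLim {p : (Fin n → ℂ) → ℝ} {C : ℝ} {k0 : ℕ} (hp : Exh S.V p C k0)
    (U : Ultrafilter ℕ) {u : ℕ → (Fin n → ℂ) × ℕ → ℝ} (hm : ∀ j, AEMeasurable (u j) S.μ)
    (hB : ∀ K : Set (Fin n → ℂ), IsCompact K → K ⊆ S.V → ∃ B : ℝ≥0∞, B ≠ ⊤ ∧
      ∀ᶠ j in (U : Filter ℕ), eLpNorm (u j) 2 (S.μ.restrict {q | q.1 ∈ K}) ≤ B) :
    ∃ v, IsWeakLim S U u v := by
  obtain ⟨v, h1, h2⟩ := exists_weak_loc hp U hm hB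
  refine ⟨v, h1, fun K hK hKV => ?_, fun K hK hKV => (h2 K hK hKV).1,
    fun K hK hKV => (h2 K hK hKV).2⟩
  obtain ⟨B, hB1, hB2⟩ := hB K hK hKV
  filter_upwards [hB2] with j hj
  exact ⟨(hm j).aestronglyMeasurable.restrict, lt_of_le_of_lt hj hB1.lt_top⟩

/-- bounds pass to the weak limit -/
theorem IsWeakLim.nonneg {U : Ultrafilter ℕ} {u : ℕ → (Fin n → ℂ) × ℕ → ℝ}
    {v : (Fin n → ℂ) × ℕ → ℝ} (h : IsWeakLim S U u v) {K : Set (Fin n → ℂ)} (hK : IsCompact K)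
    (hKV : K ⊆ S.V) {ψ : (Fin n → ℂ) × ℕ → ℝ} (hψ : S.CD 0 (fun q => (ψ q : ℂ))) {c : ℝ}
    (hle : ∀ᶠ j in (U : Filter ℕ), ∀ᵐ q ∂S.μ, q.1 ∈ K → 0 ≤ ψ q + c * u j q) :
    ∀ᵐ q ∂S.μ, q.1 ∈ K → 0 ≤ ψ q + c * v q := by
  have hm : MeasurableSet {q : (Fin n → ℂ) × ℕ | q.1 ∈ K} := measurable_fst hK.measurableSet
  set ν := S.μ.restrict {q : (Fin n → ℂ) × ℕ | q.1 ∈ K} with hν
  have hψ2 := memLp_of_CD hψ hK hKV
  have hv := h.mem K hK hKV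
  set f : (Fin n → ℂ) × ℕ → ℝ := fun q => max (-(ψ q + c * v q)) 0 with hf
  have hf2 : MemLp f 2 ν := ((hψ2.add (hv.const_mul c)).neg).pos_part
  have i1 : Integrable (fun q => ψ q * f q) ν := hψ2.integrable_mul hf2
  have i2 : Integrable (fun q => v q * f q) ν := hv.integrable_mul hf2
  have hlim := (h.lim K hK hKV f hf2).const_mul c |>.const_add (∫ q, ψ q * f q ∂ν)
  have hge : 0 ≤ (∫ q, ψ q * f q ∂ν) + c * ∫ q, v q * f q ∂ν := by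
    refine ge_of_tendsto hlim ?_
    filter_upwards [hle, h.memu K hK hKV] with j hj hj2
    have i3 : Integrable (fun q => u j q * f q) ν := hj2.integrable_mul hf2
    rw [← integral_const_mul, ← integral_add i1 (i3.const_mul c)]
    refine integral_nonneg_of_ae ?_
    filter_upwards [ae_restrict_of_ae hj, ae_restrict_mem hm] with q hq hqK
    have h1 := hq hqK
    have h2 : 0 ≤ f q := le_max_right _ _
    show 0 ≤ ψ q * f q + c * (u j q * f q)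
    nlinarith [mul_nonneg h1 h2]
  have heq : (∫ q, ψ q * f q ∂ν) + c * ∫ q, v q * f q ∂ν = -∫ q, f q ^ 2 ∂ν := by
    rw [← integral_const_mul, ← integral_add i1 (i2.const_mul c), ← integral_neg]
    refine integral_congr_ae (Eventually.of_forall fun q => ?_)
    show ψ q * f q + c * (v q * f q) = -(f q ^ 2)
    by_cases hq : 0 ≤ -(ψ q + c * v q)
    · have : f q = -(ψ q + c * v q) := max_eq_left hq
      rw [this]; ring
    · have : f q = 0 := max_eq_right (le_of_not_ge hq)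
      rw [this]; ring
  have h0 : ∫ q, f q ^ 2 ∂ν = 0 :=
    le_antisymm (by linarith) (integral_nonneg fun q => sq_nonneg (f q))
  have h1 := (integral_eq_zero_iff_of_nonneg (fun q => sq_nonneg (f q)) hf2.integrable_sq).1 h0
  refine (ae_restrict_iff' hm).1 ?_
  filter_upwards [h1] with q hq
  have hq' : f q ^ 2 = 0 := hq
  have hq2 : f q = 0 := pow_eq_zero_iff (two_ne_zero) |>.1 hq'
  have hq3 : -(ψ q + c * v q) ≤ f q := le_max_left _ _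
  linarith

theorem IsWeakLim.le {p : (Fin n → ℂ) → ℝ} {C : ℝ} {k0 : ℕ} (hp : Exh S.V p C k0)
    {U : Ultrafilter ℕ} {u : ℕ → (Fin n → ℂ) × ℕ → ℝ}
    {v : (Fin n → ℂ) × ℕ → ℝ} (h : IsWeakLim S U u v)
    {φ : (Fin n → ℂ) × ℕ → ℝ} (hφ : S.CD 0 (fun q => (φ q : ℂ)))
    (hle : ∀ K : Set (Fin n → ℂ), IsCompact K → K ⊆ S.V →
      ∀ᶠ j in (U : Filter ℕ), ∀ᵐ q ∂S.μ, q.1 ∈ K → u j q ≤ φ q) :
    ∀ᵐ q ∂S.μ, v q ≤ φ q := by
  refine ae_of_compact hp fun K hK hKV => ?_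
  have h1 := h.nonneg hK hKV hφ (c := -1) (by
    filter_upwards [hle K hK hKV] with j hj
    filter_upwards [hj] with q hq hqK
    have := hq hqK
    linarith)
  filter_upwards [h1] with q hq hqK
  have := hq hqK
  linarith

theorem IsWeakLim.ge {p : (Fin n → ℂ) → ℝ} {C : ℝ} {k0 : ℕ} (hp : Exh S.V p C k0)
    {U : Ultrafilter ℕ} {u : ℕ → (Fin n → ℂ) × ℕ → ℝ}
    {v : (Fin n → ℂ) × ℕ → ℝ} (h : IsWeakLim S U u v)
    {φ : (Fin n → ℂ) × ℕ → ℝ} (hφ : S.CD 0 (fun q => (φ q : ℂ)))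
    (hle : ∀ K : Set (Fin n → ℂ), IsCompact K → K ⊆ S.V →
      ∀ᶠ j in (U : Filter ℕ), ∀ᵐ q ∂S.μ, q.1 ∈ K → φ q ≤ u j q) :
    ∀ᵐ q ∂S.μ, φ q ≤ v q := by
  refine ae_of_compact hp fun K hK hKV => ?_
  have hφ' : S.CD 0 (fun q => ((-φ q : ℝ) : ℂ)) :=
    (CD.mul (CD.const (-1)) hφ).congr fun q _ => by push_cast; ring
  have h1 := h.nonneg hK hKV hφ' (c := 1) (by
    filter_upwards [hle K hK hKV] with j hj
    filter_upwards [hj] with q hq hqK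
    have := hq hqK
    linarith)
  filter_upwards [h1] with q hq hqK
  have := hq hqK
  linarith

lemma integral_levi_restrict {w κ : (Fin n → ℂ) × ℕ → ℝ} {K : Set (Fin n → ℂ)}
    (hK : IsCompact K) (h0 : ∀ q : (Fin n → ℂ) × ℕ, q.1 ∉ K → κ q = 0) (β : Fin n → ℂ) :
    ∫ q, w q * S.levi κ β q ∂S.μ = ∫ q in {q | q.1 ∈ K}, w q * S.levi κ β q ∂S.μ := by
  have hm : MeasurableSet {q : (Fin n → ℂ) × ℕ | q.1 ∈ K} := measurable_fst hK.measurableSet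
  rw [← integral_indicator hm]
  refine integral_congr_ae ?_
  filter_upwards [ae_mem_M (S := S)] with q hq
  by_cases h : q.1 ∈ K
  · rw [indicator_of_mem (show q ∈ {q : (Fin n → ℂ) × ℕ | q.1 ∈ K} from h)]
  · rw [indicator_of_notMem (s := {q : (Fin n → ℂ) × ℕ | q.1 ∈ K}) h]
    show w q * S.levi κ β q = 0
    rw [levi_supp hK.isClosed h0 β h hq, mul_zero]

/-- plurisubharmonicity passes to the weak limit -/
theorem IsWeakLim.dpsh {U : Ultrafilter ℕ} {u : ℕ → (Fin n → ℂ) × ℕ → ℝ}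
    {v : (Fin n → ℂ) × ℕ → ℝ} (h : IsWeakLim S U u v)
    {g : (Fin n → ℂ) × ℕ → ℝ} (hg : S.CD 0 (fun q => (g q : ℂ)))
    (hpos : ∀ κ : (Fin n → ℂ) × ℕ → ℝ, S.IsTest (fun q => (κ q : ℂ)) → (∀ q, 0 ≤ κ q) →
      ∀ β : Fin n → ℂ, ∀ δ : ℝ, 0 < δ → ∀ᶠ j in (U : Filter ℕ),
        -δ ≤ ∫ q, (u j q - g q) * S.levi κ β q ∂S.μ) :
    DPsh S (fun q => v q - g q) := by
  refine ⟨fun K hK hKV => ?_, fun κ hκ hκ0 β => ?_⟩
  · haveI := isFinite_restrict (S := S) hK hKV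
    exact ((h.mem K hK hKV).sub (memLp_of_CD hg hK hKV)).integrable (by norm_num)
  · obtain ⟨hc, K, hK, hKV, h0⟩ := id hκ
    have h0' : ∀ q : (Fin n → ℂ) × ℕ, q.1 ∉ K → κ q = 0 := fun q hq =>
      Complex.ofReal_eq_zero.1 (h0 q hq)
    have hL := memLp_of_CD (levi_CD hc β) hK hKV
    have i1 : Integrable (fun q => g q * S.levi κ β q) (S.μ.restrict {q | q.1 ∈ K}) :=
      (memLp_of_CD hg hK hKV).integrable_mul hL
    have i2 : Integrable (fun q => v q * S.levi κ β q) (S.μ.restrict {q | q.1 ∈ K}) :=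
      (h.mem K hK hKV).integrable_mul hL
    have e1 : ∀ w : (Fin n → ℂ) × ℕ → ℝ,
        Integrable (fun q => w q * S.levi κ β q) (S.μ.restrict {q | q.1 ∈ K}) →
        ∫ q, (w q - g q) * S.levi κ β q ∂S.μ =
        (∫ q in {q | q.1 ∈ K}, w q * S.levi κ β q ∂S.μ) -
          ∫ q in {q | q.1 ∈ K}, g q * S.levi κ β q ∂S.μ := by
      intro w hw
      rw [integral_levi_restrict hK h0', ← integral_sub hw i1]
      refine integral_congr_ae (Eventually.of_forall fun q => ?_)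
      show (w q - g q) * S.levi κ β q = _
      ring
    rw [e1 v i2]
    have hlim := (h.lim K hK hKV _ hL).sub_const (∫ q in {q | q.1 ∈ K}, g q * S.levi κ β q ∂S.μ)
    refine le_of_forall_pos_sub_le fun δ hδ => ?_
    rw [zero_sub]
    refine ge_of_tendsto hlim ?_
    filter_upwards [hpos κ hκ hκ0 β δ hδ, h.memu K hK hKV] with j hj hj2
    rwa [e1 (u j) (hj2.integrable_mul hL)] at hj

/-- **(T2)** -/
theorem exists_limit {p : (Fin n → ℂ) → ℝ} {C : ℝ} {k0 : ℕ} (hp : Exh S.V p C k0)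
    {u : ℕ → (Fin n → ℂ) × ℕ → ℝ} (hm : ∀ j, AEMeasurable (u j) S.μ)
    (hB : ∀ K : Set (Fin n → ℂ), IsCompact K → K ⊆ S.V → ∃ B : ℝ≥0∞, B ≠ ⊤ ∧
      ∀ᶠ j in atTop, eLpNorm (u j) 2 (S.μ.restrict {q | q.1 ∈ K}) ≤ B)
    {g : (Fin n → ℂ) × ℕ → ℝ} (hg : S.CD 0 (fun q => (g q : ℂ)))
    (hpos : ∀ κ : (Fin n → ℂ) × ℕ → ℝ, S.IsTest (fun q => (κ q : ℂ)) → (∀ q, 0 ≤ κ q) →
      ∀ β : Fin n → ℂ, ∀ δ : ℝ, 0 < δ → ∀ᶠ j in atTop,
        -δ ≤ ∫ q, (u j q - g q) * S.levi κ β q ∂S.μ) :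
    ∃ v : (Fin n → ℂ) × ℕ → ℝ, IsWeakLim S (hyperfilter ℕ) u v ∧ DPsh S (fun q => v q - g q) ∧
      (∀ φ : (Fin n → ℂ) × ℕ → ℝ, S.CD 0 (fun q => (φ q : ℂ)) →
        (∀ K : Set (Fin n → ℂ), IsCompact K → K ⊆ S.V →
          ∀ᶠ j in atTop, ∀ᵐ q ∂S.μ, q.1 ∈ K → u j q ≤ φ q) → ∀ᵐ q ∂S.μ, v q ≤ φ q) ∧
      (∀ φ : (Fin n → ℂ) × ℕ → ℝ, S.CD 0 (fun q => (φ q : ℂ)) →
        (∀ K : Set (Fin n → ℂ), IsCompact K → K ⊆ S.V →
          ∀ᶠ j in atTop, ∀ᵐ q ∂S.μ, q.1 ∈ K → φ q ≤ u j q) → ∀ᵐ q ∂S.μ, φ q ≤ v q) := by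
  have hU : ∀ {P : ℕ → Prop}, (∀ᶠ j in atTop, P j) →
      ∀ᶠ j in ((hyperfilter ℕ : Ultrafilter ℕ) : Filter ℕ), P j := fun h => Nat.hyperfilter_le_atTop h
  obtain ⟨v, hv⟩ := exists_isWeakLim hp (hyperfilter ℕ) hm (fun K hK hKV => by
    obtain ⟨B, hB1, hB2⟩ := hB K hK hKV
    exact ⟨B, hB1, hU hB2⟩)
  refine ⟨v, hv, hv.dpsh hg fun κ hκ hκ0 β δ hδ => hU (hpos κ hκ hκ0 β δ hδ),
    fun φ hφ h => hv.le hp hφ fun K hK hKV => hU (h K hK hKV),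
    fun φ hφ h => hv.ge hp hφ fun K hK hKV => hU (h K hK hKV)⟩

end Vale.Agent.P299.H91
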