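import Vale.Agent.P299.H91.Sh

/-!
P299, package A-SKODA (helper91): plurisubharmonicity (in the sense of distributions, with smooth
test functions) is a local property.
-/

set_option linter.all false

open MeasureTheory Filter Topology Set
open scoped ENNReal NNReal ComplexConjugate ContDiff

namespace Vale.Agent.P299.H91

open Vale.Agent.P300.L2 Vale.Agent.P300.L2.Sheets Metric

variable {n N : ℕ} {S : Sheets n N}

/-- a smooth partition of unity over a compact set -/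
theorem exists_partition {n : ℕ} {V K : Set (Fin n → ℂ)} (hK : IsCompact K) (hKV : K ⊆ V)
    (U : (Fin n → ℂ) → Set (Fin n → ℂ)) (hU : ∀ z ∈ V, IsOpen (U z) ∧ z ∈ U z) :
    ∃ (t : Finset (Fin n → ℂ)) (χ : t → (Fin n → ℂ) → ℝ), (∀ a ∈ t, a ∈ V) ∧
      (∀ a, ContDiff ℝ ((⊤ : ℕ∞) : WithTop ℕ∞) (χ a)) ∧ (∀ a : t, tsupport (χ a) ⊆ U a) ∧
      (∀ a z, 0 ≤ χ a z) ∧ ∀ z ∈ K, ∑ a, χ a z = 1 := by
  obtain ⟨t, htK, htU⟩ := hK.elim_nhds_subcover U
    (fun z hz => (hU z (hKV hz)).1.mem_nhds (hU z (hKV hz)).2)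
  obtain ⟨f, hf⟩ := SmoothPartitionOfUnity.exists_isSubordinate
    (modelWithCornersSelf ℝ (Fin n → ℂ)) hK.isClosed (fun a : t => U a)
    (fun a => (hU a (hKV (htK a a.2))).1) (by
      intro z hz
      obtain ⟨a, ha, hza⟩ := Set.mem_iUnion₂.1 (htU hz)
      exact Set.mem_iUnion.2 ⟨⟨a, ha⟩, hza⟩)
  refine ⟨t, fun a z => f a z, fun a ha => hKV (htK a ha), fun a => ?_, fun a => hf a,
    fun a z => f.nonneg a z, ?_⟩
  · exact (f a).contMDiff.contDiff
  · intro z hz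
    have h2 := f.sum_eq_one hz
    rwa [finsum_eq_sum_of_fintype] at h2

lemma lev_sum {ι : Type*} (t : Finset ι) {f : ι → (Fin n → ℂ) → ℝ} {z : Fin n → ℂ}
    (hf : ∀ i ∈ t, ContDiffAt ℝ 2 (f i) z) (β : Fin n → ℂ) :
    lev (fun y => ∑ i ∈ t, f i y) β z = ∑ i ∈ t, lev (f i) β z := by
  classical
  induction t using Finset.induction_on with
  | empty => simpa using lev_const 0 β z
  | insert a t ha ih =>
    have h1 : (fun y => ∑ i ∈ insert a t, f i y) = fun y => f a y + ∑ i ∈ t, f i y := by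
      funext y; rw [Finset.sum_insert ha]
    rw [h1, lev_add (hf a (Finset.mem_insert_self _ _))
      (ContDiffAt.sum fun i hi => hf i (Finset.mem_insert_of_mem hi)),
      ih fun i hi => hf i (Finset.mem_insert_of_mem hi), Finset.sum_insert ha]

lemma integrable_mul_lev {W : Set (Fin n → ℂ)} {v : (Fin n → ℂ) → ℝ}
    (hv : LocallyIntegrableOn v W) {χ : (Fin n → ℂ) → ℝ}
    (h1 : ContDiff ℝ ((⊤ : ℕ∞) : WithTop ℕ∞) χ) (h2 : HasCompactSupport χ) (h3 : tsupport χ ⊆ W)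
    (β : Fin n → ℂ) : Integrable (fun z => v z * lev χ β z) := by
  have hi : IntegrableOn v (tsupport χ) := hv.integrableOn_compact_subset h3 h2
  obtain ⟨B, hB⟩ := (h2 : IsCompact (tsupport χ)).exists_bound_of_continuousOn
    (continuous_lev h1 β).continuousOn
  have h4 : IntegrableOn (fun z => v z * lev χ β z) (tsupport χ) := by
    refine Integrable.mono' (hi.abs.const_mul B)
      (hi.1.mul (continuous_lev h1 β).aestronglyMeasurable.restrict) ?_
    filter_upwards [ae_restrict_mem (isClosed_tsupport χ).measurableSet] with z hz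
    rw [Real.norm_eq_abs, abs_mul, mul_comm]
    exact mul_le_mul_of_nonneg_right (hB z hz) (abs_nonneg _)
  refine (integrableOn_iff_integrable_of_support_subset ?_).1 h4
  intro z hz
  by_contra h
  exact hz (by show v z * lev χ β z = 0; rw [lev_support h, mul_zero])

/-- locality on open subsets of `ℂⁿ` -/
theorem DPshOn.of_local {W : Set (Fin n → ℂ)} {v : (Fin n → ℂ) → ℝ}
    (hv : LocallyIntegrableOn v W)
    (h : ∀ z ∈ W, ∃ U : Set (Fin n → ℂ), IsOpen U ∧ z ∈ U ∧ U ⊆ W ∧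
      ∀ χ : (Fin n → ℂ) → ℝ, ContDiff ℝ ((⊤ : ℕ∞) : WithTop ℕ∞) χ → HasCompactSupport χ →
        tsupport χ ⊆ U → (∀ z, 0 ≤ χ z) → ∀ β, 0 ≤ ∫ z, v z * lev χ β z) : DPshOn W v := by
  refine ⟨hv, fun χ h1 h2 h3 h4 β => ?_⟩
  choose! U hU1 hU2 hU3 hU4 using h
  obtain ⟨t, ρ, ht, hρ1, hρ2, hρ3, hρ4⟩ := exists_partition (h2 : IsCompact (tsupport χ)) h3 U
    fun z hz => ⟨hU1 z hz, hU2 z hz⟩
  set f : t → (Fin n → ℂ) → ℝ := fun a y => ρ a y * χ y with hf
  have f1 : ∀ a, ContDiff ℝ ((⊤ : ℕ∞) : WithTop ℕ∞) (f a) := fun a => (hρ1 a).mul h1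
  have f2 : ∀ a, HasCompactSupport (f a) := fun a => h2.mul_left
  have f3 : ∀ a, tsupport (f a) ⊆ U a := fun a =>
    (tsupport_mul_subset_left (f := ρ a) (g := χ)).trans (hρ2 a)
  have f4 : ∀ a z, 0 ≤ f a z := fun a z => mul_nonneg (hρ3 a z) (h4 z)
  have f5 : ∀ a, tsupport (f a) ⊆ W := fun a => (f3 a).trans (hU3 a (ht a a.2))
  have hsum : χ = fun y => ∑ a ∈ Finset.univ, f a y := by
    funext y
    by_cases hy : y ∈ tsupport χ
    · rw [← Finset.sum_mul, hρ4 y hy, one_mul]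
    · have : χ y = 0 := image_eq_zero_of_notMem_tsupport hy
      simp [hf, this]
  have e1 : ∀ z, v z * lev χ β z = ∑ a, v z * lev (f a) β z := fun z => by
    rw [← Finset.mul_sum]
    congr 1
    conv_lhs => rw [hsum]
    exact lev_sum _ (fun i _ => contDiffAt_two (f1 i) z) β
  simp_rw [e1]
  rw [integral_finset_sum _ fun a _ => integrable_mul_lev hv (f1 a) (f2 a) (f5 a) β]
  exact Finset.sum_nonneg fun a _ => hU4 a (ht a a.2) (f a) (f1 a) (f2 a) (f3 a) (f4 a) β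

/-- **Locality of plurisubharmonicity.** -/
theorem LPsh.of_local {v : (Fin n → ℂ) × ℕ → ℝ}
    (hloc : ∀ C : Set (Fin n → ℂ), IsCompact C → C ⊆ S.V → IntegrableOn v {q | q.1 ∈ C} S.μ)
    (h : ∀ q ∈ S.M, ∃ (W : Set (Fin n → ℂ)) (s : (Fin n → ℂ) → ℕ), S.IsSection W s ∧ q.1 ∈ W ∧
      s q.1 = q.2 ∧ ∀ χ : (Fin n → ℂ) → ℝ, ContDiff ℝ ((⊤ : ℕ∞) : WithTop ℕ∞) χ →
        HasCompactSupport χ → tsupport χ ⊆ W → (∀ z, 0 ≤ χ z) →
        ∀ β : Fin n → ℂ, 0 ≤ ∫ z, v (z, s z) * lev χ β z) : LPsh S v := by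
  refine ⟨hloc, fun W s hs => ?_⟩
  have hli : LocallyIntegrableOn (fun z => v (z, s z)) W := by
    rw [locallyIntegrableOn_iff hs.isOpen.isLocallyClosed]
    intro C hCW hC
    exact section_integrableOn hs hC hCW (hloc C hC (hCW.trans hs.subset))
  refine DPshOn.of_local hli fun z hz => ?_
  obtain ⟨W1, s1, hs1, hz1, he, h1⟩ := h (z, s z) (hs.mem_M hz)
  obtain ⟨t, ht, hto, hzt⟩ := _root_.mem_nhds_iff.1 (hs.germ hs1 hz hz1 he.symm)
  refine ⟨t ∩ (W ∩ W1), hto.inter (hs.isOpen.inter hs1.isOpen), ⟨hzt, hz, hz1⟩,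
    fun y hy => hy.2.1, fun χ c1 c2 c3 c4 β => ?_⟩
  have h2 := h1 χ c1 c2 (fun y hy => (c3 hy).2.2) c4 β
  have h3 : ∫ y, v (y, s y) * lev χ β y = ∫ y, v (y, s1 y) * lev χ β y := by
    refine integral_congr_ae (Eventually.of_forall fun y => ?_)
    show v (y, s y) * lev χ β y = v (y, s1 y) * lev χ β y
    by_cases hy : y ∈ tsupport χ
    · have : s y = s1 y := ht (c3 hy).1
      rw [this]
    · rw [lev_support hy, mul_zero, mul_zero]
  rw [h3]
  exact h2

end Vale.Agent.P299.H91
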