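import Vale.Agent.P299.H91.Conv

/-!
P299, package A-SKODA (helper91): `∂_ε rk ε = ∑_j ∂_j ∂̄_j xk ε`; distributional
plurisubharmonic functions; their mollifications are smooth, plurisubharmonic and monotone in `ε`.
-/

set_option linter.all false

open MeasureTheory Filter Topology Set
open scoped ENNReal NNReal ComplexConjugate ContDiff

namespace Vale.Agent.P299.H91

open Vale.Agent.P300.L2

variable {n : ℕ}

lemma two_le_inf : (2 : WithTop ℕ∞) ≤ ((⊤ : ℕ∞) : WithTop ℕ∞) :=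
  WithTop.coe_le_coe.2 le_top

/-! ### `nsq` -/

lemma hasFDerivAt_nsq (x : Fin n → ℂ) : ∃ L : (Fin n → ℂ) →L[ℝ] ℝ,
    HasFDerivAt (nsq : (Fin n → ℂ) → ℝ) L x ∧
      ∀ u, L u = ∑ j, 2 * ((x j).re * (u j).re + (x j).im * (u j).im) := by
  have h : ∀ j, ∃ L : (Fin n → ℂ) →L[ℝ] ℝ, HasFDerivAt (fun z : Fin n → ℂ => ‖z j‖ ^ 2) L x ∧
      ∀ u, L u = 2 * ((x j).re * (u j).re + (x j).im * (u j).im) := by
    intro j
    have h1 : HasFDerivAt (fun z : Fin n → ℂ => (z j).re)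
        (Complex.reCLM.comp (ContinuousLinearMap.proj (R := ℝ) (φ := fun _ => ℂ) j)) x :=
      (Complex.reCLM.comp (ContinuousLinearMap.proj (R := ℝ) (φ := fun _ => ℂ) j)).hasFDerivAt
    have h2 : HasFDerivAt (fun z : Fin n → ℂ => (z j).im)
        (Complex.imCLM.comp (ContinuousLinearMap.proj (R := ℝ) (φ := fun _ => ℂ) j)) x :=
      (Complex.imCLM.comp (ContinuousLinearMap.proj (R := ℝ) (φ := fun _ => ℂ) j)).hasFDerivAt
    have h3 := (h1.mul h1).add (h2.mul h2)
    refine ⟨_, h3.congr_of_eventuallyEq (Eventually.of_forall fun z => ?_), fun u => ?_⟩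
    · show ‖z j‖ ^ 2 = (z j).re * (z j).re + (z j).im * (z j).im
      rw [← Complex.normSq_eq_norm_sq, Complex.normSq_apply]
    · simp only [add_apply, smul_apply, smul_eq_mul, ContinuousLinearMap.comp_apply,
        ContinuousLinearMap.proj_apply, Complex.reCLM_apply, Complex.imCLM_apply]
      ring
  choose L hL hL' using h
  refine ⟨∑ j, L j, ?_, fun u => ?_⟩
  · have := HasFDerivAt.fun_sum (u := Finset.univ) fun j _ => hL j
    exact this
  · rw [ContinuousLinearMap.sum_apply]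
    exact Finset.sum_congr rfl fun j _ => hL' j u

lemma fderiv_nsq (x u : Fin n → ℂ) :
    fderiv ℝ nsq x u = ∑ j, 2 * ((x j).re * (u j).re + (x j).im * (u j).im) := by
  obtain ⟨L, h1, h2⟩ := hasFDerivAt_nsq x
  rw [h1.fderiv, h2]

lemma D2_nsq (x u v : Fin n → ℂ) :
    D2 nsq x u v = ∑ j, 2 * ((v j).re * (u j).re + (v j).im * (u j).im) := by
  have h1 : (fun y => fderiv ℝ nsq y u) =
      fun y : Fin n → ℂ => ∑ j, 2 * ((y j).re * (u j).re + (y j).im * (u j).im) :=
    funext fun y => fderiv_nsq y u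
  have h2 : IsLinearMap ℝ fun y : Fin n → ℂ =>
      ∑ j, 2 * ((y j).re * (u j).re + (y j).im * (u j).im) := by
    constructor
    · intro a b
      rw [← Finset.sum_add_distrib]
      refine Finset.sum_congr rfl fun j _ => ?_
      simp only [Pi.add_apply, Complex.add_re, Complex.add_im]; ring
    · intro c a
      rw [smul_eq_mul, Finset.mul_sum]
      refine Finset.sum_congr rfl fun j _ => ?_
      simp only [Pi.smul_apply, Complex.smul_re, Complex.smul_im, smul_eq_mul]; ring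
  unfold D2
  rw [h1]
  have h3 := (LinearMap.toContinuousLinearMap (h2.mk' _)).hasFDerivAt (x := x)
  have h4 : HasFDerivAt (fun y : Fin n → ℂ =>
      ∑ j, 2 * ((y j).re * (u j).re + (y j).im * (u j).im))
      (LinearMap.toContinuousLinearMap (h2.mk' _)) x := h3
  rw [h4.fderiv]
  rfl

lemma fderiv_nsq_single (x : Fin n → ℂ) (j : Fin n) :
    (fderiv ℝ nsq x (Pi.single j 1)) ^ 2 +
      (fderiv ℝ nsq x (Complex.I • (Pi.single j 1 : Fin n → ℂ))) ^ 2 = 4 * ‖x j‖ ^ 2 := by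
  have h1 : fderiv ℝ nsq x (Pi.single j 1) = 2 * (x j).re := by
    rw [fderiv_nsq, Finset.sum_eq_single j]
    · simp
    · intro i _ hi; simp [Pi.single_eq_of_ne hi]
    · intro h; exact absurd (Finset.mem_univ j) h
  have h2 : fderiv ℝ nsq x (Complex.I • (Pi.single j 1 : Fin n → ℂ)) = 2 * (x j).im := by
    rw [fderiv_nsq, Finset.sum_eq_single j]
    · simp
    · intro i _ hi; simp [Pi.single_eq_of_ne hi]
    · intro h; exact absurd (Finset.mem_univ j) h
  rw [h1, h2, ← Complex.normSq_eq_norm_sq, Complex.normSq_apply]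
  ring

lemma lev_nsq_single (x : Fin n → ℂ) (j : Fin n) : lev nsq (Pi.single j 1) x = 1 := by
  rw [lev_eq (contDiff_nsq.contDiffAt.of_le two_le_inf), D2_nsq, D2_nsq, Finset.sum_eq_single j,
    Finset.sum_eq_single j]
  · simp; norm_num
  · intro i _ hi; simp [Pi.single_eq_of_ne hi]
  · intro h; exact absurd (Finset.mem_univ j) h
  · intro i _ hi; simp [Pi.single_eq_of_ne hi]
  · intro h; exact absurd (Finset.mem_univ j) h

/-- the derivative of the mollifier with respect to `ε` -/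
noncomputable def gk (ε : ℝ) (x : Fin n → ℂ) : ℝ :=
  -(2 * cN n / ε ^ (2 * n + 1)) * (n * bb (nsq x / ε ^ 2) +
    nsq x / ε ^ 2 * deriv bb (nsq x / ε ^ 2))

lemma hasDerivAt_bb (s : ℝ) : HasDerivAt bb (deriv bb s) s :=
  (contDiff_bb.differentiable (by simp) s).hasDerivAt

theorem hasDerivAt_rk {ε : ℝ} (hε : 0 < ε) (x : Fin n → ℂ) :
    HasDerivAt (fun ε => rk ε x) (gk ε x) ε := by
  have h1 : HasDerivAt (fun ε : ℝ => cN n / ε ^ (2 * n)) (-(2 * n * cN n / ε ^ (2 * n + 1))) ε := by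
    have h2 : HasDerivAt (fun ε : ℝ => ε ^ (2 * n)) (((2 * n : ℕ) : ℝ) * ε ^ (2 * n - 1)) ε :=
      hasDerivAt_pow _ _
    have h3 := (hasDerivAt_const ε (cN n)).div h2 (by positivity)
    refine h3.congr_deriv ?_
    rcases Nat.eq_zero_or_pos n with h | h
    · subst h; simp
    · obtain ⟨m, hm⟩ : ∃ m, 2 * n = m + 1 := ⟨2 * n - 1, by omega⟩
      have h2n : (2 * (n : ℝ)) = m + 1 := by exact_mod_cast hm
      rw [hm, Nat.add_sub_cancel, h2n]
      push_cast
      field_simp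
      ring
  have h4 : HasDerivAt (fun ε : ℝ => nsq x / ε ^ 2) (-(2 * nsq x / ε ^ 3)) ε := by
    have h2 : HasDerivAt (fun ε : ℝ => ε ^ 2) (((2 : ℕ) : ℝ) * ε ^ (2 - 1)) ε :=
      hasDerivAt_pow _ _
    have h3 := (hasDerivAt_const ε (nsq x)).div h2 (by positivity)
    refine h3.congr_deriv ?_
    push_cast
    field_simp
    ring
  have h5 := h1.mul ((hasDerivAt_bb (nsq x / ε ^ 2)).comp ε h4)
  refine h5.congr_deriv ?_
  simp only [Function.comp]
  rw [gk]
  field_simp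
  ring

lemma hasDerivAt_th {ε : ℝ} (hε : 0 < ε) (c t : ℝ) :
    HasDerivAt (fun t => c * aa (t / ε ^ 2)) (c * (-(2 * bb (t / ε ^ 2)) * (1 / ε ^ 2))) t := by
  have h1 : HasDerivAt (fun t : ℝ => t / ε ^ 2) (1 / ε ^ 2) t := (hasDerivAt_id t).div_const _
  exact ((hasDerivAt_aa (t / ε ^ 2)).comp t h1).const_mul c

lemma hasDerivAt_th2 {ε : ℝ} (hε : 0 < ε) (c t : ℝ) :
    HasDerivAt (fun t => c * (-(2 * bb (t / ε ^ 2)) * (1 / ε ^ 2)))
      (c * (-(2 * (deriv bb (t / ε ^ 2) * (1 / ε ^ 2))) * (1 / ε ^ 2))) t := by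
  have h1 : HasDerivAt (fun t : ℝ => t / ε ^ 2) (1 / ε ^ 2) t := (hasDerivAt_id t).div_const _
  exact ((((hasDerivAt_bb (t / ε ^ 2)).comp t h1).const_mul 2).neg.mul_const _).const_mul c

/-- the key identity -/
theorem sum_lev_xk {ε : ℝ} (hε : 0 < ε) (x : Fin n → ℂ) :
    ∑ j, lev (xk ε) (Pi.single j 1) x = gk ε x := by
  set c : ℝ := cN n / ε ^ (2 * n) * ε with hc
  set θ : ℝ → ℝ := fun t => c * aa (t / ε ^ 2) with hθ
  have hθs : ContDiff ℝ 2 θ := by
    have : ContDiff ℝ ∞ θ := contDiff_const.mul (contDiff_aa.comp (contDiff_id.div_const _))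
    exact this.of_le two_le_inf
  have h1 : (xk ε : (Fin n → ℂ) → ℝ) = fun x => θ (nsq x) := rfl
  have hd : deriv θ = fun t => c * (-(2 * bb (t / ε ^ 2)) * (1 / ε ^ 2)) :=
    funext fun t => (hasDerivAt_th hε c t).deriv
  have hdd : ∀ t, deriv (deriv θ) t =
      c * (-(2 * (deriv bb (t / ε ^ 2) * (1 / ε ^ 2))) * (1 / ε ^ 2)) := by
    intro t
    rw [hd]; exact (hasDerivAt_th2 hε c t).deriv
  have h2 : ∀ j, lev (xk ε) (Pi.single j 1) x =
      deriv θ (nsq x) + deriv (deriv θ) (nsq x) * ‖x j‖ ^ 2 := by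
    intro j
    rw [h1, lev_comp (contDiff_nsq.contDiffAt.of_le two_le_inf) hθs, lev_nsq_single, mul_one,
      fderiv_nsq_single]
    ring
  simp only [h2]
  rw [Finset.sum_add_distrib, ← Finset.mul_sum, hdd, hd, Finset.sum_const, Finset.card_univ,
    Fintype.card_fin, nsmul_eq_mul]
  rw [show ∑ j, ‖x j‖ ^ 2 = nsq x from rfl, gk, hc]
  field_simp
  ring

end Vale.Agent.P299.H91
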