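import Vale.Agent.P299.H91.Mono

/-!
P299, package A-SKODA (helper91): distributional plurisubharmonic functions on open sets of `ℂⁿ`
and their mollifications.
-/

set_option linter.all false

open MeasureTheory Filter Topology Set
open scoped ENNReal NNReal ComplexConjugate ContDiff

namespace Vale.Agent.P299.H91

open Vale.Agent.P300.L2 Metric

variable {n : ℕ} {W : Set (Fin n → ℂ)} {v : (Fin n → ℂ) → ℝ}

/-- distributional plurisubharmonic functions -/
structure DPshOn (W : Set (Fin n → ℂ)) (v : (Fin n → ℂ) → ℝ) : Prop where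
  loc : LocallyIntegrableOn v W
  pos : ∀ χ : (Fin n → ℂ) → ℝ, ContDiff ℝ ((⊤ : ℕ∞) : WithTop ℕ∞) χ → HasCompactSupport χ →
    tsupport χ ⊆ W → (∀ z, 0 ≤ χ z) → ∀ β, 0 ≤ ∫ z, v z * lev χ β z

lemma DPshOn.mono {W' : Set (Fin n → ℂ)} (h : DPshOn W v) (hW : W' ⊆ W) : DPshOn W' v :=
  ⟨h.loc.mono_set hW, fun χ h1 h2 h3 => h.pos χ h1 h2 (h3.trans hW)⟩

/-- truncation -/
noncomputable def tr (z0 : Fin n → ℂ) (R : ℝ) (v : (Fin n → ℂ) → ℝ) : (Fin n → ℂ) → ℝ :=
  (closedBall z0 R).indicator v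

lemma tr_eq {z0 z : Fin n → ℂ} {R : ℝ} (hz : z ∈ closedBall z0 R) : tr z0 R v z = v z :=
  indicator_of_mem hz v

lemma tr_integrable (hv : LocallyIntegrableOn v W) {z0 : Fin n → ℂ} {R : ℝ}
    (hR : closedBall z0 R ⊆ W) : Integrable (tr z0 R v) := by
  have h1 : IntegrableOn v (closedBall z0 R) :=
    hv.integrableOn_compact_subset hR (isCompact_closedBall z0 R)
  exact h1.integrable_indicator measurableSet_closedBall

lemma Cv_tr {k : (Fin n → ℂ) → ℝ} {ε R : ℝ} (hk : ∀ x, ε ≤ ‖x‖ → k x = 0) {z0 z : Fin n → ℂ}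
    (hz : z ∈ closedBall z0 (R - ε)) : Cv k v z = Cv k (tr z0 R v) z := by
  unfold Cv
  refine integral_congr_ae (Eventually.of_forall fun ζ => ?_)
  show k (z - ζ) * v ζ = k (z - ζ) * tr z0 R v ζ
  by_cases h : ζ ∈ closedBall z0 R
  · rw [tr_eq h]
  · have h1 : ε ≤ ‖z - ζ‖ := by
      rw [mem_closedBall, dist_eq_norm] at h hz
      push Not at h
      have h2 : ‖ζ - z0‖ ≤ ‖z - ζ‖ + ‖z - z0‖ := by
        have : ζ - z0 = -(z - ζ) + (z - z0) := by abel
        rw [this]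
        exact (norm_add_le _ _).trans (by rw [norm_neg])
      linarith
    rw [hk _ h1, zero_mul, zero_mul]

lemma exists_bigger (hW : IsOpen W) {z : Fin n → ℂ} {ε : ℝ} (hε : 0 ≤ ε)
    (h : closedBall z ε ⊆ W) : ∃ R, ε < R ∧ closedBall z R ⊆ W := by
  obtain ⟨δ, hδ, h1⟩ := (isCompact_closedBall z ε).exists_cthickening_subset_open hW h
  refine ⟨δ + ε, by linarith, ?_⟩
  rwa [cthickening_closedBall hδ.le hε] at h1

/-- mollification -/
noncomputable def mo (ε : ℝ) (v : (Fin n → ℂ) → ℝ) (z : Fin n → ℂ) : ℝ := Cv (rk ε) v z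

lemma mo_near {ε R : ℝ} (hε : 0 < ε) (hR : ε < R) (z : Fin n → ℂ) :
    mo ε v =ᶠ[𝓝 z] Cv (rk ε) (tr z R v) := by
  filter_upwards [closedBall_mem_nhds z (sub_pos.2 hR)] with y hy
  exact Cv_tr (fun x hx => rk_zero hε hx) hy

theorem mo_contDiffAt (hW : IsOpen W) (hv : LocallyIntegrableOn v W) {z : Fin n → ℂ} {ε : ℝ}
    (hε : 0 < ε) (h : closedBall z ε ⊆ W) :
    ContDiffAt ℝ ((⊤ : ℕ∞) : WithTop ℕ∞) (mo ε v) z := by
  obtain ⟨R, hR, hRW⟩ := exists_bigger hW hε.le h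
  refine ContDiffAt.congr_of_eventuallyEq ?_ (mo_near hε hR z)
  exact (Cv_contDiff (contDiff_rk ε) (hasCompactSupport_rk hε)
    (tr_integrable hv hRW).locallyIntegrable).contDiffAt

lemma lev_support {k : (Fin n → ℂ) → ℝ} {β x : Fin n → ℂ} (hx : x ∉ tsupport k) :
    lev k β x = 0 := by
  have h1 : k =ᶠ[𝓝 x] fun _ => 0 := notMem_tsupport_iff_eventuallyEq.1 hx
  rw [lev_congr h1, lev_const]

lemma contDiffAt_two {k : (Fin n → ℂ) → ℝ} (hk : ContDiff ℝ ((⊤ : ℕ∞) : WithTop ℕ∞) k)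
    (x : Fin n → ℂ) : ContDiffAt ℝ 2 k x := hk.contDiffAt.of_le two_le_inf

lemma lev_eq' {k : (Fin n → ℂ) → ℝ} (hk : ContDiff ℝ ((⊤ : ℕ∞) : WithTop ℕ∞) k)
    (β : Fin n → ℂ) : (fun x => lev k β x) =
      fun x => (D2 k x β β + D2 k x (Complex.I • β) (Complex.I • β)) / 4 :=
  funext fun x => lev_eq (contDiffAt_two hk x) β

lemma continuous_lev {k : (Fin n → ℂ) → ℝ} (hk : ContDiff ℝ ((⊤ : ℕ∞) : WithTop ℕ∞) k)
    (β : Fin n → ℂ) : Continuous fun x => lev k β x := by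
  rw [lev_eq' hk]
  exact ((continuous_D2 hk _ _).add (continuous_D2 hk _ _)).div_const _

lemma hasCompactSupport_lev {k : (Fin n → ℂ) → ℝ} (hs : HasCompactSupport k) (β : Fin n → ℂ) :
    HasCompactSupport fun x => lev k β x := by
  refine HasCompactSupport.of_support_subset_isCompact hs fun x hx => ?_
  by_contra h
  exact hx (lev_support h)

theorem lev_Cv {k v : (Fin n → ℂ) → ℝ} (hk : ContDiff ℝ ((⊤ : ℕ∞) : WithTop ℕ∞) k)
    (hs : HasCompactSupport k) (hv : LocallyIntegrable v) (β z : Fin n → ℂ) :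
    lev (Cv k v) β z = Cv (fun x => lev k β x) v z := by
  rw [lev_eq (contDiffAt_two (Cv_contDiff hk hs hv) z), D2_Cv hk hs hv, D2_Cv hk hs hv,
    lev_eq' hk]
  unfold Cv
  rw [← integral_add (Cv_integrable (continuous_D2 hk _ _) (hasCompactSupport_D2 hs _ _) hv z)
    (Cv_integrable (continuous_D2 hk _ _) (hasCompactSupport_D2 hs _ _) hv z), ← integral_div]
  refine integral_congr_ae (Eventually.of_forall fun ζ => ?_)
  show _ = _ * _
  ring

lemma tsupport_rk {ε : ℝ} (hε : 0 < ε) :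
    tsupport (rk ε : (Fin n → ℂ) → ℝ) ⊆ closedBall 0 ε := by
  refine closure_minimal (fun x hx => ?_) isClosed_closedBall
  rw [mem_closedBall_zero_iff]
  by_contra h
  push Not at h
  exact hx (rk_zero hε h.le)

lemma tsupport_xk {ε : ℝ} (hε : 0 < ε) :
    tsupport (xk ε : (Fin n → ℂ) → ℝ) ⊆ closedBall 0 ε := by
  refine closure_minimal (fun x hx => ?_) isClosed_closedBall
  rw [mem_closedBall_zero_iff]
  by_contra h
  push Not at h
  exact hx (xk_zero hε h.le)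

/-- a test function centred at `z` -/
structure Bump (k : (Fin n → ℂ) → ℝ) (ε : ℝ) : Prop where
  smooth : ContDiff ℝ ((⊤ : ℕ∞) : WithTop ℕ∞) k
  supp : tsupport k ⊆ closedBall 0 ε
  nonneg : ∀ x, 0 ≤ k x

lemma bump_rk {ε : ℝ} (hε : 0 < ε) : Bump (n := n) (rk ε) ε :=
  ⟨contDiff_rk ε, tsupport_rk hε, rk_nonneg hε⟩

lemma bump_xk {ε : ℝ} (hε : 0 < ε) : Bump (n := n) (xk ε) ε :=
  ⟨contDiff_xk ε, tsupport_xk hε, xk_nonneg hε⟩

lemma Bump.reflect {k : (Fin n → ℂ) → ℝ} {ε : ℝ} (h : Bump k ε) (z : Fin n → ℂ) :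
    ContDiff ℝ ((⊤ : ℕ∞) : WithTop ℕ∞) (fun ζ => k (z - ζ)) ∧
      tsupport (fun ζ => k (z - ζ)) ⊆ closedBall z ε := by
  refine ⟨h.smooth.comp (contDiff_const.sub contDiff_id), ?_⟩
  refine closure_minimal (fun x hx => ?_) isClosed_closedBall
  have h1 := h.supp (subset_tsupport _ hx)
  rwa [mem_closedBall_zero_iff, ← dist_eq_norm, dist_comm, ← mem_closedBall] at h1

/-- positivity against reflected bumps -/
lemma DPshOn.bump (h : DPshOn W v) {k : (Fin n → ℂ) → ℝ} {ε : ℝ} (hk : Bump k ε)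
    {z : Fin n → ℂ} (hz : closedBall z ε ⊆ W) (β : Fin n → ℂ) :
    0 ≤ ∫ ζ, lev k β (z - ζ) * v ζ := by
  obtain ⟨h1, h2⟩ := hk.reflect z
  have h3 := h.pos _ h1 (HasCompactSupport.of_support_subset_isCompact
    (isCompact_closedBall z ε) ((subset_tsupport _).trans h2)) (h2.trans hz)
    (fun ζ => hk.nonneg _) β
  refine h3.trans (le_of_eq (integral_congr_ae (Eventually.of_forall fun ζ => ?_)))
  show v ζ * lev (fun ζ => k (z - ζ)) β ζ = lev k β (z - ζ) * v ζ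
  rw [lev_reflect (contDiffAt_two hk.smooth _)]
  ring

lemma lev_zero_of_norm {k : (Fin n → ℂ) → ℝ} {ε : ℝ} (hk : Bump k ε) {ε' : ℝ} (hε' : ε < ε')
    {β x : Fin n → ℂ} (hx : ε' ≤ ‖x‖) : lev k β x = 0 := by
  refine lev_support fun h => ?_
  have := hk.supp h
  rw [mem_closedBall_zero_iff] at this
  linarith

/-- mollifications of distributional psh functions are psh -/
theorem DPshOn.lev_mo (hW : IsOpen W) (h : DPshOn W v) {z : Fin n → ℂ} {ε : ℝ} (hε : 0 < ε)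
    (hz : closedBall z ε ⊆ W) (β : Fin n → ℂ) : 0 ≤ lev (mo ε v) β z := by
  obtain ⟨R, hR, hRW⟩ := exists_bigger hW hε.le hz
  rw [lev_congr (mo_near hε hR z), lev_Cv (contDiff_rk ε) (hasCompactSupport_rk hε)
    (tr_integrable h.loc hRW).locallyIntegrable]
  have h1 := h.bump (bump_rk hε) hz β
  have h2 : (∫ ζ, lev (rk ε) β (z - ζ) * v ζ) = Cv (fun x => lev (rk ε) β x) v z := rfl
  rw [h2] at h1
  rwa [← Cv_tr (ε := R) (R := R) (z0 := z)
    (fun x hx => lev_zero_of_norm (bump_rk hε) hR hx) (by simp)]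

end Vale.Agent.P299.H91
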