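import Vale.Agent.P299.H91.Psh

/-!
P299, package A-SKODA (helper91): monotonicity in `ε` and a.e. convergence of the mollifications.
-/

set_option linter.all false

open MeasureTheory Filter Topology Set
open scoped ENNReal NNReal ComplexConjugate ContDiff

namespace Vale.Agent.P299.H91

open Vale.Agent.P300.L2 Metric

variable {n : ℕ} {W : Set (Fin n → ℂ)} {v : (Fin n → ℂ) → ℝ}

/-! ### bounds of the kernel -/

lemma deriv_bb_zero {s : ℝ} (hs : 1 ≤ s) : deriv bb s = 0 := by
  have hc : Continuous (deriv bb) := contDiff_bb.continuous_deriv (by simp)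
  have h1 : ∀ t, 1 < t → deriv bb t = 0 := by
    intro t ht
    have : bb =ᶠ[𝓝 t] fun _ => 0 := by
      filter_upwards [lt_mem_nhds ht] with y hy using bb_zero hy.le
    rw [this.deriv_eq]; simp
  rcases hs.lt_or_eq with h | h
  · exact h1 s h
  · subst h
    have h2 : Tendsto (deriv bb) (𝓝[>] 1) (𝓝 (deriv bb 1)) :=
      (hc.tendsto 1).mono_left nhdsWithin_le_nhds
    have h3 : Tendsto (deriv bb) (𝓝[>] 1) (𝓝 0) := by
      refine tendsto_const_nhds.congr' ?_
      filter_upwards [self_mem_nhdsWithin] with t ht using (h1 t ht).symm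
    exact tendsto_nhds_unique h2 h3

lemma exists_deriv_bb_bound : ∃ B : ℝ, 0 ≤ B ∧ ∀ s, 0 ≤ s → |deriv bb s| ≤ B := by
  have hc : Continuous (deriv bb) := contDiff_bb.continuous_deriv (by simp)
  obtain ⟨B, hB⟩ := (isCompact_Icc (a := (0 : ℝ)) (b := 1)).exists_bound_of_continuousOn
    hc.continuousOn
  refine ⟨max B 0, le_max_right _ _, fun s hs => ?_⟩
  rcases le_total s 1 with h | h
  · exact (hB s ⟨hs, h⟩).trans (le_max_left _ _)
  · rw [deriv_bb_zero h, abs_zero]; exact le_max_right _ _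

lemma gk_zero {ε : ℝ} (hε : 0 < ε) {x : Fin n → ℂ} (hx : ε ≤ ‖x‖) : gk ε x = 0 := by
  rw [gk, bb_zero (one_le_div hε hx), deriv_bb_zero (one_le_div hε hx)]
  ring

lemma exists_gk_bound {a : ℝ} (ha : 0 < a) : ∃ B : ℝ, 0 ≤ B ∧ ∀ ε, a ≤ ε → ∀ x : Fin n → ℂ,
    |gk ε x| ≤ B := by
  obtain ⟨B, hB0, hB⟩ := exists_deriv_bb_bound
  have hc := cN_pos (n := n)
  refine ⟨2 * cN n / a ^ (2 * n + 1) * (n + B), by positivity, fun ε hε x => ?_⟩
  have hε0 : 0 < ε := ha.trans_le hε
  rcases le_total 1 (nsq x / ε ^ 2) with h | h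
  · rw [gk, bb_zero h, deriv_bb_zero h]
    simp only [mul_zero, add_zero, abs_zero]
    positivity
  · have h0 : 0 ≤ nsq x / ε ^ 2 := div_nonneg (nsq_nonneg x) (by positivity)
    rw [gk, abs_mul, abs_neg, abs_of_nonneg (by positivity)]
    have h1 : 2 * cN n / ε ^ (2 * n + 1) ≤ 2 * cN n / a ^ (2 * n + 1) := by gcongr
    have h2 : |(n : ℝ) * bb (nsq x / ε ^ 2) + nsq x / ε ^ 2 * deriv bb (nsq x / ε ^ 2)| ≤
        n + B := by
      refine (abs_add_le _ _).trans (add_le_add ?_ ?_)
      · rw [abs_of_nonneg (mul_nonneg (by positivity) (bb_nonneg _))]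
        exact mul_le_of_le_one_right (by positivity) (bb_le_one _)
      · rw [abs_mul, abs_of_nonneg h0]
        calc nsq x / ε ^ 2 * |deriv bb (nsq x / ε ^ 2)| ≤ 1 * B := by
              gcongr
              exact hB _ h0
          _ = B := one_mul B
    calc _ ≤ 2 * cN n / a ^ (2 * n + 1) * (n + B) := by gcongr

lemma continuous_gk (ε : ℝ) : Continuous (gk ε : (Fin n → ℂ) → ℝ) := by
  have hc : Continuous (deriv bb) := contDiff_bb.continuous_deriv (by simp)
  have h1 : Continuous fun x : Fin n → ℂ => nsq x / ε ^ 2 := contDiff_nsq.continuous.div_const _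
  exact continuous_const.mul ((continuous_const.mul (continuous_bb.comp h1)).add
    (h1.mul (hc.comp h1)))

/-! ### the derivative of the mollification in `ε` -/

lemma integrable_kernel_mul {k : (Fin n → ℂ) → ℝ} (hk : Continuous k) {R : ℝ} {z : Fin n → ℂ}
    (h0 : ∀ x, R ≤ ‖x‖ → k x = 0) (hv : IntegrableOn v (closedBall z R)) :
    Integrable fun ζ => k (z - ζ) * v ζ := by
  have h1 : (fun ζ => k (z - ζ) * v ζ) = fun ζ => k (z - ζ) * tr z R v ζ := by
    funext ζ
    by_cases h : ζ ∈ closedBall z R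
    · rw [tr_eq h]
    · rw [mem_closedBall, dist_comm, dist_eq_norm] at h
      push Not at h
      rw [h0 _ h.le, zero_mul, zero_mul]
  rw [h1]
  have h2 : Integrable (tr z R v) := hv.integrable_indicator measurableSet_closedBall
  have hcs : HasCompactSupport k := HasCompactSupport.of_support_subset_isCompact
    (isCompact_closedBall (0 : Fin n → ℂ) R) fun x hx => by
      rw [mem_closedBall_zero_iff]
      by_contra h
      push Not at h
      exact hx (h0 x h.le)
  exact Cv_integrable hk hcs h2.locallyIntegrable z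

theorem hasDerivAt_mo (hW : IsOpen W) (hv : LocallyIntegrableOn v W) {z : Fin n → ℂ} {ε : ℝ}
    (hε : 0 < ε) (h : closedBall z ε ⊆ W) :
    HasDerivAt (fun ε => mo ε v z) (∫ ζ, gk ε (z - ζ) * v ζ) ε := by
  obtain ⟨R, hR, hRW⟩ := exists_bigger hW hε.le h
  obtain ⟨B, hB0, hB⟩ := exists_gk_bound (n := n) (half_pos hε)
  have hvR : IntegrableOn v (closedBall z R) :=
    hv.integrableOn_compact_subset hRW (isCompact_closedBall z R)
  have hs : Ioo (ε / 2) R ∈ 𝓝 ε := Ioo_mem_nhds (by linarith) hR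
  have key := hasDerivAt_integral_of_dominated_loc_of_deriv_le (μ := volume)
    (F := fun ε ζ => rk ε (z - ζ) * v ζ) (F' := fun ε ζ => gk ε (z - ζ) * v ζ)
    (bound := fun ζ => B * (closedBall z R).indicator (fun ζ => |v ζ|) ζ) (x₀ := ε) hs
    ?_ ?_ ?_ ?_ ?_ ?_
  · exact key.2
  · filter_upwards [hs] with e he
    exact (integrable_kernel_mul (contDiff_rk e).continuous (R := R)
      (fun x hx => rk_zero (by linarith [he.1]) (he.2.le.trans hx)) hvR).aestronglyMeasurable
  · exact integrable_kernel_mul (contDiff_rk ε).continuous (R := R)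
      (fun x hx => rk_zero hε (hR.le.trans hx)) hvR
  · exact (integrable_kernel_mul (continuous_gk ε) (R := R)
      (fun x hx => gk_zero hε (hR.le.trans hx)) hvR).aestronglyMeasurable
  · refine Eventually.of_forall fun ζ e he => ?_
    have he0 : 0 < e := by linarith [he.1]
    rw [Real.norm_eq_abs, abs_mul]
    by_cases hz : ζ ∈ closedBall z R
    · rw [indicator_of_mem hz]
      exact mul_le_mul_of_nonneg_right (hB e he.1.le _) (abs_nonneg _)
    · rw [indicator_of_notMem hz, mul_zero]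
      rw [mem_closedBall, dist_comm, dist_eq_norm] at hz
      push Not at hz
      rw [gk_zero he0 (by linarith [he.2]), abs_zero, zero_mul]
  · exact ((integrable_indicator_iff measurableSet_closedBall).2 hvR.abs).const_mul B
  · refine Eventually.of_forall fun ζ e he => ?_
    exact (hasDerivAt_rk (by linarith [he.1]) (z - ζ)).mul_const (v ζ)

theorem DPshOn.deriv_nonneg (h : DPshOn W v) (hW : IsOpen W) {z : Fin n → ℂ} {ε : ℝ}
    (hε : 0 < ε) (hz : closedBall z ε ⊆ W) : 0 ≤ ∫ ζ, gk ε (z - ζ) * v ζ := by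
  obtain ⟨R, hR, hRW⟩ := exists_bigger hW hε.le hz
  have hvR : IntegrableOn v (closedBall z R) :=
    h.loc.integrableOn_compact_subset hRW (isCompact_closedBall z R)
  have h1 : ∀ ζ, gk ε (z - ζ) * v ζ = ∑ j, lev (xk ε) (Pi.single j 1) (z - ζ) * v ζ := by
    intro ζ
    rw [← Finset.sum_mul, sum_lev_xk hε]
  simp only [h1]
  rw [integral_finsetSum]
  · exact Finset.sum_nonneg fun j _ => h.bump (bump_xk hε) hz _
  · intro j _
    exact integrable_kernel_mul (continuous_lev (contDiff_xk ε) _) (R := R)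
      (fun x hx => lev_zero_of_norm (bump_xk hε) hR hx) hvR

/-- the mollifications decrease as `ε` decreases -/
theorem DPshOn.mo_mono (h : DPshOn W v) (hW : IsOpen W) {z : Fin n → ℂ} {ε ε' : ℝ}
    (hε : 0 < ε) (hεε : ε ≤ ε') (hz : closedBall z ε' ⊆ W) : mo ε v z ≤ mo ε' v z := by
  have hd : ∀ e ∈ Icc ε ε', HasDerivAt (fun ε => mo ε v z) (∫ ζ, gk e (z - ζ) * v ζ) e :=
    fun e he => hasDerivAt_mo hW h.loc (hε.trans_le he.1)
      ((closedBall_subset_closedBall he.2).trans hz)
  have h1 : MonotoneOn (fun ε => mo ε v z) (Icc ε ε') := by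
    refine monotoneOn_of_deriv_nonneg (convex_Icc ε ε')
      (fun e he => (hd e he).continuousAt.continuousWithinAt) ?_ ?_
    · intro e he
      rw [interior_Icc] at he
      exact (hd e (Ioo_subset_Icc_self he)).differentiableAt.differentiableWithinAt
    · intro e he
      rw [interior_Icc] at he
      rw [(hd e (Ioo_subset_Icc_self he)).deriv]
      exact h.deriv_nonneg hW (hε.trans he.1)
        ((closedBall_subset_closedBall he.2.le).trans hz)
  exact h1 (left_mem_Icc.2 hεε) (right_mem_Icc.2 hεε) hεε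

/-! ### convergence almost everywhere -/

lemma rk_le {ε : ℝ} (hε : 0 < ε) (x : Fin n → ℂ) : rk ε x ≤ cN n / ε ^ (2 * n) := by
  have hc := cN_pos (n := n)
  exact mul_le_of_le_one_right (by positivity) (bb_le_one _)

lemma mo_sub {ε : ℝ} (hε : 0 < ε) {z : Fin n → ℂ} (hv : IntegrableOn v (closedBall z ε)) (c : ℝ) :
    mo ε v z - c = ∫ ζ, rk ε (z - ζ) * (v ζ - c) := by
  have h1 : Integrable fun ζ => rk ε (z - ζ) * v ζ :=
    integrable_kernel_mul (contDiff_rk ε).continuous (R := ε) (fun x hx => rk_zero hε hx) hv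
  have h2 : Integrable fun ζ => rk ε (z - ζ) * c := by
    have h3 : Integrable (rk ε : (Fin n → ℂ) → ℝ) :=
      (contDiff_rk (n := n) ε).continuous.integrable_of_hasCompactSupport
      (hasCompactSupport_rk hε)
    exact (h3.comp_sub_left z).mul_const c
  have h3 : ∫ ζ, rk ε (z - ζ) * c = c := by
    have h5 := integral_sub_left_eq_self (fun x : Fin n → ℂ => rk ε x) volume z
    rw [integral_mul_const, h5, integral_rk hε, one_mul]
  have h4 : ∫ ζ, rk ε (z - ζ) * (v ζ - c) = ∫ ζ, (rk ε (z - ζ) * v ζ - rk ε (z - ζ) * c) := by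
    refine integral_congr_ae (Eventually.of_forall fun ζ => ?_)
    show _ * _ = _
    ring
  rw [h4, integral_sub h1 h2, h3]
  rfl

lemma abs_mo_sub_le {ε : ℝ} (hε : 0 < ε) {z : Fin n → ℂ}
    (hv : IntegrableOn v (closedBall z ε)) (c : ℝ) :
    |mo ε v z - c| ≤ cN n * (volume (ball (0 : Fin n → ℂ) 1)).toReal *
      ⨍ y in closedBall z ε, ‖v y - c‖ := by
  have hc := cN_pos (n := n)
  rw [mo_sub hε hv]
  have hfin : (volume : Measure (Fin n → ℂ)) (closedBall z ε) ≠ ⊤ :=
    (isCompact_closedBall z ε).measure_lt_top.ne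
  have hcst : IntegrableOn (fun _ => c) (closedBall z ε) volume := integrableOn_const hfin
  have hi : IntegrableOn (fun ζ => ‖v ζ - c‖) (closedBall z ε) := (hv.sub hcst).norm
  have h1 : |∫ ζ, rk ε (z - ζ) * (v ζ - c)| ≤ ∫ ζ, |rk ε (z - ζ) * (v ζ - c)| :=
    abs_integral_le_integral_abs
  have h2 : ∫ ζ, |rk ε (z - ζ) * (v ζ - c)| ≤
      ∫ ζ in closedBall z ε, cN n / ε ^ (2 * n) * ‖v ζ - c‖ := by
    rw [← integral_indicator measurableSet_closedBall]
    refine integral_mono_of_nonneg (Eventually.of_forall fun ζ => abs_nonneg _)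
      ((integrable_indicator_iff measurableSet_closedBall).2 (hi.const_mul _))
      (Eventually.of_forall fun ζ => ?_)
    show |_| ≤ _
    by_cases hz : ζ ∈ closedBall z ε
    · rw [indicator_of_mem hz, abs_mul, abs_of_nonneg (rk_nonneg hε _), ← Real.norm_eq_abs (v ζ - c)]
      exact mul_le_mul_of_nonneg_right (rk_le hε _) (norm_nonneg _)
    · rw [indicator_of_notMem hz]
      rw [mem_closedBall, dist_comm, dist_eq_norm] at hz
      push Not at hz
      rw [rk_zero hε hz.le, zero_mul, abs_zero]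
  refine (h1.trans h2).trans (le_of_eq ?_)
  rw [integral_const_mul, setAverage_eq, smul_eq_mul, Measure.real,
    Measure.addHaar_closedBall _ _ hε.le, finrank_Cn, ENNReal.toReal_mul,
    ENNReal.toReal_ofReal (by positivity)]
  have hb : (volume (ball (0 : Fin n → ℂ) 1)).toReal ≠ 0 :=
    (ENNReal.toReal_pos (measure_ball_pos volume _ one_pos).ne' measure_ball_lt_top.ne).ne'
  field_simp

theorem mo_tendsto_ae_of_integrable (hv : LocallyIntegrable v) :
    ∀ᵐ z, Tendsto (fun ε => mo ε v z) (𝓝[>] 0) (𝓝 (v z)) := by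
  have h := IsUnifLocDoublingMeasure.ae_tendsto_average_norm_sub
    (μ := (volume : Measure (Fin n → ℂ))) hv 1
  filter_upwards [h] with z hz
  have h1 := hz (l := 𝓝[>] (0 : ℝ)) (fun _ => z) (fun ε => ε) tendsto_id (by
    filter_upwards [self_mem_nhdsWithin] with ε hε
    rw [one_mul]
    exact mem_closedBall_self (le_of_lt hε))
  rw [tendsto_iff_dist_tendsto_zero]
  have h2 : Tendsto (fun ε : ℝ => cN n * (volume (ball (0 : Fin n → ℂ) 1)).toReal *
      ⨍ y in closedBall z ε, ‖v y - v z‖) (𝓝[>] 0) (𝓝 0) := by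
    have := h1.const_mul (cN n * (volume (ball (0 : Fin n → ℂ) 1)).toReal)
    rwa [mul_zero] at this
  refine squeeze_zero' (Eventually.of_forall fun _ => dist_nonneg) ?_ h2
  filter_upwards [self_mem_nhdsWithin] with ε hε
  rw [Real.dist_eq]
  exact abs_mo_sub_le hε (hv.integrableOn_isCompact (isCompact_closedBall z ε)) _

theorem mo_tendsto_ae (hW : IsOpen W) (hv : LocallyIntegrableOn v W) :
    ∀ᵐ z, z ∈ W → Tendsto (fun ε => mo ε v z) (𝓝[>] 0) (𝓝 (v z)) := by
  have h : ∀ z0 ∈ W, ∃ R : ℝ, 0 < R ∧ closedBall z0 R ⊆ W := by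
    intro z0 hz
    obtain ⟨R, hR, h⟩ := Metric.nhds_basis_closedBall.mem_iff.1 (hW.mem_nhds hz)
    exact ⟨R, hR, h⟩
  choose! R hR hRW using h
  obtain ⟨t, htW, htc, ht⟩ := TopologicalSpace.countable_cover_nhdsWithin
    (f := fun z0 => ball z0 (R z0)) (s := W)
    fun z0 hz0 => mem_nhdsWithin_of_mem_nhds (ball_mem_nhds z0 (hR z0 hz0))
  have h1 : ∀ z0 ∈ t, ∀ᵐ z, z ∈ ball z0 (R z0) →
      Tendsto (fun ε => mo ε v z) (𝓝[>] 0) (𝓝 (v z)) := by
    intro z0 hz0
    filter_upwards [mo_tendsto_ae_of_integrable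
      (tr_integrable hv (hRW z0 (htW hz0))).locallyIntegrable] with z hz hzb
    rw [tr_eq (ball_subset_closedBall hzb)] at hz
    refine hz.congr' ?_
    have h2 : 0 < R z0 - dist z z0 := sub_pos.2 (mem_ball.1 hzb)
    filter_upwards [Ioo_mem_nhdsGT h2] with ε hε
    refine (Cv_tr (fun x hx => rk_zero hε.1 hx) ?_).symm
    rw [mem_closedBall]; linarith [hε.2]
  filter_upwards [(ae_ball_iff htc).2 h1] with z hz hzW
  obtain ⟨z0, hz0, hzb⟩ := mem_iUnion₂.1 (ht hzW)
  exact hz z0 hz0 hzb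

end Vale.Agent.P299.H91
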