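import Vale.Agent.P299.H91.Glue

/-!
P299, package A-SKODA (helper91): distributional plurisubharmonic functions on `Sheets`.
-/

set_option linter.all false

open MeasureTheory Filter Topology Set
open scoped ENNReal NNReal ComplexConjugate ContDiff

namespace Vale.Agent.P299.H91

open Vale.Agent.P300.L2 Vale.Agent.P300.L2.Sheets Metric

variable {n N : ℕ} {S : Sheets n N} {v : (Fin n → ℂ) × ℕ → ℝ}

/-- the Levi form along a section -/
lemma levi_section {W : Set (Fin n → ℂ)} {s : (Fin n → ℂ) → ℕ} (hs : S.IsSection W s)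
    {z : Fin n → ℂ} (hz : z ∈ W) (Φ : (Fin n → ℂ) × ℕ → ℝ) (β : Fin n → ℂ) :
    S.levi Φ β (z, s z) = lev (fun z => Φ (z, s z)) β z := by
  unfold Sheets.levi lev
  congr 1
  refine Finset.sum_congr rfl fun j _ => Finset.sum_congr rfl fun k _ => ?_
  rw [D_apply hs hz]
  congr 2
  refine dz_congr ?_
  filter_upwards [hs.isOpen.mem_nhds hz] with y hy
  exact Db_apply hs hy

/-- integrals over the total space of functions supported on a section -/
lemma integral_section {W : Set (Fin n → ℂ)} {s : (Fin n → ℂ) → ℕ} (hs : S.IsSection W s)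
    {f : (Fin n → ℂ) × ℕ → ℝ} (hf : Integrable f S.μ) {g : (Fin n → ℂ) → ℝ}
    (h1 : ∀ z ∈ W, f (z, s z) = g z) (h2 : ∀ q ∈ S.M, ¬ (q.1 ∈ W ∧ q.2 = s q.1) → f q = 0)
    (h3 : ∀ z, z ∉ W → g z = 0) : ∫ q, f q ∂S.μ = ∫ z, g z := by
  rw [sm_integral_real hf, ← setIntegral_eq_integral_of_forall_compl_eq_zero (s := S.V) (f := g)]
  · refine setIntegral_congr_fun S.isOpen.measurableSet fun z hz => ?_
    by_cases hzW : z ∈ W
    · show ∑ w ∈ S.fib z, f (z, w) = g z
      rw [Finset.sum_eq_single (s z)]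
      · exact h1 z hzW
      · intro w hw hne
        exact h2 (z, w) ⟨hz, hw⟩ fun h => hne h.2
      · intro h
        exact absurd (hs.mem z hzW) h
    · show ∑ w ∈ S.fib z, f (z, w) = g z
      rw [h3 z hzW]
      exact Finset.sum_eq_zero fun w hw => h2 (z, w) ⟨hz, hw⟩ fun h => hzW h.1
  · intro z hz
    exact h3 z fun h => hz (hs.subset h)

/-- distributional plurisubharmonic functions on the total space -/
structure DPsh (S : Sheets n N) (v : (Fin n → ℂ) × ℕ → ℝ) : Prop where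
  loc : ∀ C : Set (Fin n → ℂ), IsCompact C → C ⊆ S.V → IntegrableOn v {q | q.1 ∈ C} S.μ
  pos : ∀ κ : (Fin n → ℂ) × ℕ → ℝ, S.IsTest (fun q => (κ q : ℂ)) → (∀ q, 0 ≤ κ q) →
    ∀ β, 0 ≤ ∫ q, v q * S.levi κ β q ∂S.μ

/-! ### restriction to sections -/

theorem section_integrableOn {W : Set (Fin n → ℂ)} {s : (Fin n → ℂ) → ℕ}
    (hs : S.IsSection W s) {C : Set (Fin n → ℂ)} (hC : IsCompact C) (hCW : C ⊆ W)
    (hv : IntegrableOn v {q | q.1 ∈ C} S.μ) : IntegrableOn (fun z => v (z, s z)) C := by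
  have hm : MeasurableSet {q : (Fin n → ℂ) × ℕ | q.1 ∈ C} := measurable_fst hC.measurableSet
  set f : (Fin n → ℂ) × ℕ → ℝ := {q | q.1 ∈ C}.indicator v with hf
  have hfi : Integrable f S.μ := hv.integrable_indicator hm
  have hCV : C ⊆ S.V := hCW.trans hs.subset
  have hfC : ∀ z ∈ C, ∀ w, f (z, w) = v (z, w) := fun z hz w =>
    indicator_of_mem (s := {q : (Fin n → ℂ) × ℕ | q.1 ∈ C}) (a := (z, w)) hz v
  obtain ⟨s', hs', hss⟩ := hs.exists_ext
  -- measurability
  have h1 : ∀ᵐ z ∂(volume.restrict S.V), ∀ w ∈ S.fib z, f (z, w) = hfi.1.mk f (z, w) :=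
    ae_μ_iff.1 hfi.1.ae_eq_mk
  have h1' : ∀ᵐ z ∂(volume.restrict C), ∀ w ∈ S.fib z, f (z, w) = hfi.1.mk f (z, w) :=
    ae_restrict_of_ae_restrict_of_subset hCV h1
  have hmeas : AEStronglyMeasurable (fun z => v (z, s z)) (volume.restrict C) := by
    have h2 : Measurable fun z => hfi.1.mk f (z, s' z) :=
      hfi.1.stronglyMeasurable_mk.measurable.comp (measurable_id.prodMk hs')
    refine h2.aestronglyMeasurable.congr ?_
    filter_upwards [h1', ae_restrict_mem hC.measurableSet] with z hz hzC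
    rw [hss z (hCW hzC), ← hz _ (hs.mem z (hCW hzC)), hfC z hzC]
  have h3 : IntegrableOn (fun z => ∑ w ∈ S.fib z, |f (z, w)|) C :=
    (sm_integrable hfi.abs).mono_set hCV
  refine Integrable.mono' h3 hmeas ?_
  filter_upwards [ae_restrict_mem hC.measurableSet] with z hz
  rw [Real.norm_eq_abs, ← hfC z hz]
  exact Finset.single_le_sum (f := fun w => |f (z, w)|) (fun _ _ => abs_nonneg _)
    (hs.mem z (hCW hz))

open Classical in
/-- a test function on one sheet -/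
noncomputable def liftT (W : Set (Fin n → ℂ)) (s : (Fin n → ℂ) → ℕ) (χ : (Fin n → ℂ) → ℝ)
    (q : (Fin n → ℂ) × ℕ) : ℝ := if q.1 ∈ W ∧ q.2 = s q.1 then χ q.1 else 0

lemma liftT_nonneg {W : Set (Fin n → ℂ)} {s : (Fin n → ℂ) → ℕ} {χ : (Fin n → ℂ) → ℝ}
    (h : ∀ z, 0 ≤ χ z) (q : (Fin n → ℂ) × ℕ) : 0 ≤ liftT W s χ q := by
  unfold liftT; split_ifs
  · exact h _
  · exact le_rfl

lemma liftT_near_same {W W' : Set (Fin n → ℂ)} {s s' : (Fin n → ℂ) → ℕ} {χ : (Fin n → ℂ) → ℝ}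
    (hs : S.IsSection W s) (hs' : S.IsSection W' s') {z : Fin n → ℂ} (hz : z ∈ W) (hz' : z ∈ W')
    (h : s' z = s z) : (fun y => liftT W s χ (y, s' y)) =ᶠ[𝓝 z] χ := by
  filter_upwards [hs.isOpen.mem_nhds hz, hs'.germ hs hz' hz h] with y hy hy'
  exact if_pos ⟨hy, hy'⟩

lemma liftT_near_zero {W W' : Set (Fin n → ℂ)} {s s' : (Fin n → ℂ) → ℕ} {χ : (Fin n → ℂ) → ℝ}
    (hs : S.IsSection W s) (hs' : S.IsSection W' s') (hχ : tsupport χ ⊆ W) {z : Fin n → ℂ}
    (hz' : z ∈ W') (h : ¬ (z ∈ W ∧ s' z = s z)) :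
    (fun y => liftT W s χ (y, s' y)) =ᶠ[𝓝 z] fun _ => 0 := by
  by_cases hz : z ∈ W
  · have hne : s' z ≠ s z := fun h' => h ⟨hz, h'⟩
    filter_upwards [hs'.germ_ne hs hz' hz hne] with y hy
    exact if_neg fun h' => hy h'.2
  · have h1 : χ =ᶠ[𝓝 z] fun _ => 0 :=
      notMem_tsupport_iff_eventuallyEq.1 fun h' => hz (hχ h')
    filter_upwards [h1] with y hy
    unfold liftT
    split_ifs
    · exact hy
    · rfl

lemma liftT_isTest {W : Set (Fin n → ℂ)} {s : (Fin n → ℂ) → ℕ} {χ : (Fin n → ℂ) → ℝ}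
    (hs : S.IsSection W s) (hχ : ContDiff ℝ ((⊤ : ℕ∞) : WithTop ℕ∞) χ)
    (hc : HasCompactSupport χ) (hχW : tsupport χ ⊆ W) :
    S.IsTest (fun q => (liftT W s χ q : ℂ)) := by
  refine ⟨?_, tsupport χ, hc, hχW.trans hs.subset, ?_⟩
  · intro W' s' hs' z hz
    refine ContDiffAt.contDiffWithinAt ?_
    refine Complex.ofRealCLM.contDiff.contDiffAt.comp z ?_
    by_cases h : z ∈ W ∧ s' z = s z
    · exact (contDiffAt_two hχ z).congr_of_eventuallyEq
        (liftT_near_same hs hs' h.1 hz h.2)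
    · exact contDiffAt_const.congr_of_eventuallyEq (liftT_near_zero hs hs' hχW hz h)
  · intro q hq
    have : liftT W s χ q = 0 := by
      unfold liftT
      split_ifs
      · exact image_eq_zero_of_notMem_tsupport hq
      · rfl
    simp [this]

lemma levi_liftT {W : Set (Fin n → ℂ)} {s : (Fin n → ℂ) → ℕ} {χ : (Fin n → ℂ) → ℝ}
    (hs : S.IsSection W s) {z : Fin n → ℂ} (hz : z ∈ W) (β : Fin n → ℂ) :
    S.levi (liftT W s χ) β (z, s z) = lev χ β z := by
  rw [levi_section hs hz, lev_congr (liftT_near_same hs hs hz hz rfl)]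

lemma levi_liftT_zero {W : Set (Fin n → ℂ)} {s : (Fin n → ℂ) → ℕ} {χ : (Fin n → ℂ) → ℝ}
    (hs : S.IsSection W s) (hχ : tsupport χ ⊆ W) {q : (Fin n → ℂ) × ℕ} (hq : q ∈ S.M)
    (h : ¬ (q.1 ∈ W ∧ q.2 = s q.1)) (β : Fin n → ℂ) : S.levi (liftT W s χ) β q = 0 := by
  obtain ⟨s', W', hs', z, hz', rfl⟩ := exists_section' hq
  rw [levi_section hs' hz', lev_congr (liftT_near_zero hs hs' hχ hz' h), lev_const]

lemma levi_CD {κ : (Fin n → ℂ) × ℕ → ℝ} (h : S.CD 2 (fun q => (κ q : ℂ))) (β : Fin n → ℂ) :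
    S.CD 0 (fun q => (S.levi κ β q : ℂ)) := by
  have h1 : S.CD 0 (fun q => ∑ j, ∑ k, S.D j (S.Db k (fun q => (κ q : ℂ))) q * β j * conj (β k)) := by
    refine CD.sum _ fun j _ => CD.sum _ fun k _ => ?_
    have h2 : S.CD 0 (S.D j (S.Db k (fun q => (κ q : ℂ)))) := CD.D (m := 0) (CD.Db (m := 1) h)
    exact CD.mul (CD.mul h2 (CD.const _)) (CD.const _)
  intro W s hs
  have h2 := h1 W s hs
  have h3 : ContDiffOn ℝ (0 : ℕ) (fun z => ((Complex.reCLM (∑ j, ∑ k,
      S.D j (S.Db k (fun q => (κ q : ℂ))) (z, s z) * β j * conj (β k)) : ℝ) : ℂ)) W :=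
    Complex.ofRealCLM.contDiff.comp_contDiffOn (Complex.reCLM.contDiff.comp_contDiffOn h2)
  exact h3

lemma levi_supp {κ : (Fin n → ℂ) × ℕ → ℝ} {C : Set (Fin n → ℂ)} (hC : IsClosed C)
    (h0 : ∀ q : (Fin n → ℂ) × ℕ, q.1 ∉ C → κ q = 0) (β : Fin n → ℂ) {q : (Fin n → ℂ) × ℕ}
    (hq : q.1 ∉ C) (hqM : q ∈ S.M) : S.levi κ β q = 0 := by
  obtain ⟨s', W', hs', z, hz', rfl⟩ := exists_section' hqM
  rw [levi_section hs' hz']
  have : (fun z => κ (z, s' z)) =ᶠ[𝓝 z] fun _ => 0 := by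
    filter_upwards [hC.isOpen_compl.mem_nhds hq] with y hy using h0 _ hy
  rw [lev_congr this, lev_const]

/-- products of locally integrable functions and continuous functions with compact support -/
lemma integrable_mul_of_supp {X : (Fin n → ℂ) × ℕ → ℝ} (hX : S.CD 0 (fun q => (X q : ℂ)))
    {C : Set (Fin n → ℂ)} (hC : IsCompact C) (hCV : C ⊆ S.V)
    (h0 : ∀ q ∈ S.M, q.1 ∉ C → X q = 0) (hv : IntegrableOn v {q | q.1 ∈ C} S.μ) :
    Integrable (fun q => v q * X q) S.μ := by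
  have hm : MeasurableSet {q : (Fin n → ℂ) × ℕ | q.1 ∈ C} := measurable_fst hC.measurableSet
  obtain ⟨B, hB⟩ := exists_bound hX hC hCV
  have hXm : AEStronglyMeasurable X S.μ := by
    have := (aestronglyMeasurable_of_CD hX).re
    simpa using this
  have h1 : IntegrableOn (fun q => v q * X q) {q | q.1 ∈ C} S.μ := by
    refine Integrable.mono' (hv.abs.const_mul B) (hv.1.mul hXm.restrict) ?_
    have h2 : ∀ᵐ q ∂(S.μ.restrict {q | q.1 ∈ C}), q ∈ S.M := ae_restrict_of_ae ae_mem_M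
    filter_upwards [h2, ae_restrict_mem hm] with q hq hqC
    rw [Real.norm_eq_abs, abs_mul, mul_comm]
    have h3 := hB q hq hqC
    rw [Complex.norm_real, Real.norm_eq_abs] at h3
    exact mul_le_mul_of_nonneg_right h3 (abs_nonneg _)
  have h2 : Integrable (({q : (Fin n → ℂ) × ℕ | q.1 ∈ C}).indicator fun q => v q * X q) S.μ :=
    h1.integrable_indicator hm
  refine h2.congr ?_
  filter_upwards [ae_mem_M (S := S)] with q hq
  by_cases h : q.1 ∈ C
  · exact indicator_of_mem (s := {q : (Fin n → ℂ) × ℕ | q.1 ∈ C}) h _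
  · rw [indicator_of_notMem (s := {q : (Fin n → ℂ) × ℕ | q.1 ∈ C}) h]
    rw [h0 q hq h, mul_zero]

theorem DPsh.integrable_levi (h : DPsh S v) {κ : (Fin n → ℂ) × ℕ → ℝ}
    (hκ : S.IsTest (fun q => (κ q : ℂ))) (β : Fin n → ℂ) :
    Integrable (fun q => v q * S.levi κ β q) S.μ := by
  obtain ⟨hc, C, hC, hCV, h0⟩ := hκ
  refine integrable_mul_of_supp (levi_CD hc β) hC hCV (fun q hq hqC => ?_) (h.loc C hC hCV)
  exact levi_supp hC.isClosed (fun q hq => Complex.ofReal_eq_zero.1 (h0 q hq)) β hqC hq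

/-- restriction of a distributional psh function to a section -/
theorem DPsh.section (h : DPsh S v) {W : Set (Fin n → ℂ)} {s : (Fin n → ℂ) → ℕ}
    (hs : S.IsSection W s) : DPshOn W (fun z => v (z, s z)) := by
  refine ⟨?_, ?_⟩
  · rw [locallyIntegrableOn_iff hs.isOpen.isLocallyClosed]
    intro C hCW hC
    exact section_integrableOn hs hC hCW (h.loc C hC (hCW.trans hs.subset))
  · intro χ h1 h2 h3 h4 β
    have ht := liftT_isTest hs h1 h2 h3
    have h5 := h.pos (liftT W s χ) ht (liftT_nonneg h4) β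
    rwa [integral_section hs (h.integrable_levi ht β) (g := fun z => v (z, s z) * lev χ β z)
      (fun z hz => by rw [levi_liftT hs hz])
      (fun q hq hq' => by rw [levi_liftT_zero hs h3 hq hq', mul_zero])
      (fun z hz => by rw [lev_support fun h' => hz (h3 h'), mul_zero])] at h5

/-- locally plurisubharmonic functions: the distributional inequality on every section, for
smooth test functions -/
structure LPsh (S : Sheets n N) (v : (Fin n → ℂ) × ℕ → ℝ) : Prop where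
  loc : ∀ C : Set (Fin n → ℂ), IsCompact C → C ⊆ S.V → IntegrableOn v {q | q.1 ∈ C} S.μ
  sec : ∀ (W : Set (Fin n → ℂ)) (s : (Fin n → ℂ) → ℕ), S.IsSection W s →
    DPshOn W (fun z => v (z, s z))

theorem LPsh.section (h : LPsh S v) {W : Set (Fin n → ℂ)} {s : (Fin n → ℂ) → ℕ}
    (hs : S.IsSection W s) : DPshOn W (fun z => v (z, s z)) := h.sec W s hs

theorem DPsh.lpsh (h : DPsh S v) : LPsh S v := ⟨h.loc, fun _ _ hs => h.section hs⟩

end Vale.Agent.P299.H91
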