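import Vale.Agent.P299.H91.Sh

/-!
P299, package A-SKODA (helper91): mollification of distributional psh functions on `Sheets`.
-/

set_option linter.all false

open MeasureTheory Filter Topology Set
open scoped ENNReal NNReal ComplexConjugate ContDiff

namespace Vale.Agent.P299.H91

open Vale.Agent.P300.L2 Vale.Agent.P300.L2.Sheets Metric

variable {n N : ℕ} {S : Sheets n N} {v : (Fin n → ℂ) × ℕ → ℝ}

/-! ### sections over balls -/

/-- there is a section through `q` over the ball of radius `r` -/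
def Good (S : Sheets n N) (r : ℝ) (q : (Fin n → ℂ) × ℕ) : Prop :=
  ∃ s, S.IsSection (ball q.1 r) s ∧ s q.1 = q.2

lemma Good.mono {r r' : ℝ} {q : (Fin n → ℂ) × ℕ} (h : Good S r q) (hr : r' ≤ r) :
    Good S r' q := by
  obtain ⟨s, hs, h1⟩ := h
  exact ⟨s, hs.mono isOpen_ball (ball_subset_ball hr), h1⟩

open Classical in
/-- a section through `q` over the ball of radius `r` -/
noncomputable def bsec (S : Sheets n N) (r : ℝ) (q : (Fin n → ℂ) × ℕ) : (Fin n → ℂ) → ℕ :=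
  if h : Good S r q then h.choose else fun _ => 0

lemma bsec_spec {r : ℝ} {q : (Fin n → ℂ) × ℕ} (h : Good S r q) :
    S.IsSection (ball q.1 r) (bsec S r q) ∧ bsec S r q q.1 = q.2 := by
  unfold bsec
  rw [dif_pos h]
  exact h.choose_spec

/-- two sections over a ball agreeing at the centre are equal -/
lemma sec_eq_on_ball {z : Fin n → ℂ} {r : ℝ} {s s' : (Fin n → ℂ) → ℕ}
    (h : S.IsSection (ball z r) s) (h' : S.IsSection (ball z r) s') (hz : s z = s' z)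
    {ζ : Fin n → ℂ} (hζ : ζ ∈ ball z r) : s ζ = s' ζ := by
  have hr : 0 < r := (dist_nonneg.trans_lt (mem_ball.1 hζ))
  set u : Set (Fin n → ℂ) := {y | y ∈ ball z r ∧ s y = s' y} with hu
  set w : Set (Fin n → ℂ) := {y | y ∈ ball z r ∧ s y ≠ s' y} with hw
  have huo : IsOpen u := by
    rw [isOpen_iff_mem_nhds]
    rintro y ⟨hy, hy'⟩
    filter_upwards [isOpen_ball.mem_nhds hy, h.germ h' hy hy hy'] with x hx hx'
    exact ⟨hx, hx'⟩
  have hwo : IsOpen w := by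
    rw [isOpen_iff_mem_nhds]
    rintro y ⟨hy, hy'⟩
    filter_upwards [isOpen_ball.mem_nhds hy, h.germ_ne h' hy hy hy'] with x hx hx'
    exact ⟨hx, hx'⟩
  have hd : Disjoint u w := by
    rw [Set.disjoint_left]
    rintro y ⟨-, h1⟩ ⟨-, h2⟩
    exact h2 h1
  have hc : ball z r ⊆ u ∪ w := by
    intro y hy
    by_cases hy' : s y = s' y
    · exact Or.inl ⟨hy, hy'⟩
    · exact Or.inr ⟨hy, hy'⟩
  have := (convex_ball z r).isPreconnected.subset_left_of_subset_union huo hwo hd hc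
    ⟨z, mem_ball_self hr, mem_ball_self hr, hz⟩ hζ
  exact this.2

/-- uniform radius over compact sets -/
theorem exists_good {C : Set (Fin n → ℂ)} (hC : IsCompact C) (hCV : C ⊆ S.V) :
    ∃ r : ℝ, 0 < r ∧ ∀ q ∈ S.M, q.1 ∈ C → Good S r q := by
  have h : ∀ z : C, ∃ (W : Set (Fin n → ℂ)) (s : Fin N → (Fin n → ℂ) → ℕ),
      S.SmTriv W s ∧ (z : Fin n → ℂ) ∈ W := fun z => sm_loc (hCV z.2)
  choose W s hW hz using h
  obtain ⟨δ, hδ, h1⟩ := lebesgue_number_lemma_of_metric hC (c := W) (fun z => (hW z).isOpen)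
    (fun z hz' => mem_iUnion.2 ⟨⟨z, hz'⟩, hz _⟩)
  refine ⟨δ, hδ, fun q hq hqC => ?_⟩
  obtain ⟨i, hi⟩ := h1 q.1 hqC
  have h2 := hq.2
  have hqW : q.1 ∈ W i := hi (mem_ball_self hδ)
  rw [(hW i).fib q.1 hqW] at h2
  obtain ⟨k, -, hk⟩ := Finset.mem_image.1 h2
  exact ⟨s i k, ((hW i).sec k).mono isOpen_ball hi, hk⟩

/-! ### mollification on the sheets -/

/-- mollification along the sheets -/
noncomputable def smo (S : Sheets n N) (ε : ℝ) (v : (Fin n → ℂ) × ℕ → ℝ)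
    (q : (Fin n → ℂ) × ℕ) : ℝ := mo ε (fun ζ => v (ζ, bsec S (2 * ε) q ζ)) q.1

lemma mo_congr {ε : ℝ} (hε : 0 < ε) {f g : (Fin n → ℂ) → ℝ} {z : Fin n → ℂ}
    (h : ∀ ζ ∈ ball z ε, f ζ = g ζ) : mo ε f z = mo ε g z := by
  unfold mo Cv
  refine integral_congr_ae (Eventually.of_forall fun ζ => ?_)
  show rk ε (z - ζ) * f ζ = rk ε (z - ζ) * g ζ
  by_cases hζ : ζ ∈ ball z ε
  · rw [h ζ hζ]
  · rw [mem_ball, dist_comm, dist_eq_norm] at hζ
    push Not at hζ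
    rw [rk_zero hε hζ, zero_mul, zero_mul]

/-- comparison with a section over a larger ball -/
theorem smo_eq {z0 : Fin n → ℂ} {R : ℝ} {s : (Fin n → ℂ) → ℕ} (hs : S.IsSection (ball z0 R) s)
    {z : Fin n → ℂ} {ε : ℝ} (hε : 0 < ε) (hz : dist z z0 + 2 * ε ≤ R) :
    smo S ε v (z, s z) = mo ε (fun ζ => v (ζ, s ζ)) z := by
  have hb : ball z (2 * ε) ⊆ ball z0 R := ball_subset_ball' (by linarith)
  have hs' : S.IsSection (ball z (2 * ε)) s := hs.mono isOpen_ball hb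
  have hg : Good S (2 * ε) (z, s z) := ⟨s, hs', rfl⟩
  obtain ⟨h1, h2⟩ := bsec_spec hg
  refine mo_congr hε fun ζ hζ => ?_
  have h3 : bsec S (2 * ε) (z, s z) ζ = s ζ :=
    sec_eq_on_ball h1 hs' h2 (ball_subset_ball (by linarith) hζ)
  show v (ζ, bsec S (2 * ε) (z, s z) ζ) = _
  rw [h3]

/-- along a section, the mollification is locally a mollification on `ℂⁿ` -/
theorem smo_near {W : Set (Fin n → ℂ)} {s : (Fin n → ℂ) → ℕ} (hs : S.IsSection W s)
    {z0 : Fin n → ℂ} (hz0 : z0 ∈ W) {ε : ℝ} (hε : 0 < ε) (hg : Good S (4 * ε) (z0, s z0)) :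
    ∃ s', S.IsSection (ball z0 (4 * ε)) s' ∧ s' z0 = s z0 ∧
      (fun z => smo S ε v (z, s z)) =ᶠ[𝓝 z0] mo ε (fun ζ => v (ζ, s' ζ)) := by
  obtain ⟨s', hs', h1⟩ := hg
  refine ⟨s', hs', h1, ?_⟩
  have hz0' : z0 ∈ ball z0 (4 * ε) := mem_ball_self (by linarith)
  filter_upwards [ball_mem_nhds z0 (show 0 < 2 * ε by linarith),
    hs.germ hs' hz0 hz0' h1.symm] with z hz hzs
  rw [hzs]
  exact smo_eq hs' hε (by linarith [mem_ball.1 hz])

/-- smoothness of the mollification -/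
theorem LPsh.smo_contDiffAt (h : LPsh S v) {W : Set (Fin n → ℂ)} {s : (Fin n → ℂ) → ℕ}
    (hs : S.IsSection W s) {z0 : Fin n → ℂ} (hz0 : z0 ∈ W) {ε : ℝ} (hε : 0 < ε)
    (hg : Good S (4 * ε) (z0, s z0)) :
    ContDiffAt ℝ ((⊤ : ℕ∞) : WithTop ℕ∞) (fun z => smo S ε v (z, s z)) z0 := by
  obtain ⟨s', hs', h1, h2⟩ := smo_near (v := v) hs hz0 hε hg
  exact (mo_contDiffAt isOpen_ball (h.section hs').loc hε
    (closedBall_subset_ball (by linarith))).congr_of_eventuallyEq h2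

/-- the mollification is plurisubharmonic -/
theorem LPsh.lev_smo (h : LPsh S v) {W : Set (Fin n → ℂ)} {s : (Fin n → ℂ) → ℕ}
    (hs : S.IsSection W s) {z0 : Fin n → ℂ} (hz0 : z0 ∈ W) {ε : ℝ} (hε : 0 < ε)
    (hg : Good S (4 * ε) (z0, s z0)) (β : Fin n → ℂ) :
    0 ≤ lev (fun z => smo S ε v (z, s z)) β z0 := by
  obtain ⟨s', hs', h1, h2⟩ := smo_near (v := v) hs hz0 hε hg
  rw [lev_congr h2]
  exact (h.section hs').lev_mo isOpen_ball hε (closedBall_subset_ball (by linarith)) β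

/-- the mollifications are monotone -/
theorem LPsh.smo_mono (h : LPsh S v) {q : (Fin n → ℂ) × ℕ} {ε ε' : ℝ} (hε : 0 < ε)
    (hεε : ε ≤ ε') (hg : Good S (2 * ε') q) : smo S ε v q ≤ smo S ε' v q := by
  obtain ⟨s, hs, h1⟩ := hg
  have hε' : 0 < ε' := hε.trans_le hεε
  have e1 : q = (q.1, s q.1) := by rw [h1]
  rw [e1, smo_eq hs hε (by rw [dist_self]; linarith), smo_eq hs hε' (by rw [dist_self]; linarith)]
  exact (h.section hs).mo_mono isOpen_ball hε hεε (closedBall_subset_ball (by linarith))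

/-- upper bounds of mollifications -/
lemma mo_le {ε : ℝ} (hε : 0 < ε) {f : (Fin n → ℂ) → ℝ} {z : Fin n → ℂ}
    (hf : IntegrableOn f (closedBall z ε)) {B : ℝ}
    (h : ∀ᵐ ζ, ζ ∈ ball z ε → f ζ ≤ B) : mo ε f z ≤ B := by
  have h1 := mo_sub hε hf B
  have h2 : ∫ ζ, rk ε (z - ζ) * (f ζ - B) ≤ 0 := by
    refine integral_nonpos_of_ae ?_
    filter_upwards [h] with ζ hζ
    show rk ε (z - ζ) * (f ζ - B) ≤ 0
    by_cases hz : ζ ∈ ball z ε
    · exact mul_nonpos_of_nonneg_of_nonpos (rk_nonneg hε _) (by linarith [hζ hz])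
    · rw [mem_ball, dist_comm, dist_eq_norm] at hz
      push Not at hz
      rw [rk_zero hε hz, zero_mul]
  linarith

/-- almost everywhere statements along sections -/
lemma ae_section {P : (Fin n → ℂ) × ℕ → Prop} (h : ∀ᵐ q ∂S.μ, P q) {W : Set (Fin n → ℂ)}
    {s : (Fin n → ℂ) → ℕ} (hs : S.IsSection W s) : ∀ᵐ z, z ∈ W → P (z, s z) := by
  have h1 := (ae_restrict_iff' S.isOpen.measurableSet).1 (ae_μ_iff.1 h)
  filter_upwards [h1] with z hz hzW
  exact hz (hs.subset hzW) _ (hs.mem z hzW)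

theorem LPsh.smo_le (h : LPsh S v) {q : (Fin n → ℂ) × ℕ} {ε : ℝ} (hε : 0 < ε)
    (hg : Good S (2 * ε) q) {B : ℝ}
    (hB : ∀ᵐ q' ∂S.μ, q'.1 ∈ ball q.1 ε → v q' ≤ B) : smo S ε v q ≤ B := by
  obtain ⟨s, hs, h1⟩ := hg
  have e1 : q = (q.1, s q.1) := by rw [h1]
  rw [e1, smo_eq hs hε (by rw [dist_self]; linarith)]
  refine mo_le hε ((h.section hs).loc.integrableOn_compact_subset
    (closedBall_subset_ball (by linarith)) (isCompact_closedBall _ _)) ?_
  filter_upwards [ae_section hB hs] with ζ hζ hζb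
  exact hζ (ball_subset_ball (by linarith) hζb) hζb

/-- convergence almost everywhere -/
theorem LPsh.smo_tendsto (h : LPsh S v) :
    ∀ᵐ q ∂S.μ, Tendsto (fun ε => smo S ε v q) (𝓝[>] 0) (𝓝 (v q)) := by
  obtain ⟨ι, _, W, s, hW, hU⟩ := sm_cover S
  rw [ae_μ_iff, ae_restrict_iff' S.isOpen.measurableSet]
  have h1 : ∀ i k, ∀ᵐ z, z ∈ W i → Tendsto (fun ε => mo ε (fun ζ => v (ζ, s i k ζ)) z) (𝓝[>] 0)
      (𝓝 (v (z, s i k z))) := fun i k =>
    mo_tendsto_ae (hW i).isOpen (h.section ((hW i).sec k)).loc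
  have h2 : ∀ᵐ z, ∀ i k, z ∈ W i → Tendsto (fun ε => mo ε (fun ζ => v (ζ, s i k ζ)) z) (𝓝[>] 0)
      (𝓝 (v (z, s i k z))) := ae_all_iff.2 fun i => ae_all_iff.2 fun k => h1 i k
  filter_upwards [h2] with z hz hzV w hw
  rw [← hU] at hzV
  obtain ⟨i, hi⟩ := mem_iUnion.1 hzV
  rw [(hW i).fib z hi] at hw
  obtain ⟨k, -, rfl⟩ := Finset.mem_image.1 hw
  refine (hz i k hi).congr' ?_
  obtain ⟨R, hR, hRW⟩ := Metric.isOpen_iff.1 (hW i).isOpen z hi
  filter_upwards [Ioo_mem_nhdsGT (show (0 : ℝ) < R / 2 by linarith)] with ε hε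
  exact (smo_eq (((hW i).sec k).mono isOpen_ball hRW) hε.1
    (by rw [dist_self]; linarith [hε.2])).symm

end Vale.Agent.P299.H91
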