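import Vale.Agent.P299.H91.Reg

/-!
P299, package A-SKODA (helper91), (T2): weak `L²_loc` limits of sequences of functions on `Sheets`.
-/

set_option linter.all false

open MeasureTheory Filter Topology Set
open scoped ENNReal NNReal ComplexConjugate ContDiff

namespace Vale.Agent.P299.H91

open Vale.Agent.P300.L2 Vale.Agent.P300.L2.Sheets Metric

/-- weak compactness of balls in a Hilbert space, along an ultrafilter -/
theorem exists_weak {H : Type*} [NormedAddCommGroup H] [InnerProductSpace ℝ H] [CompleteSpace H]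
    (U : Ultrafilter ℕ) {x : ℕ → H} {C : ℝ} (hx : ∀ᶠ j in (U : Filter ℕ), ‖x j‖ ≤ C) :
    ∃ v : H, ∀ f : H, Tendsto (fun j => inner ℝ (x j) f) U (𝓝 (inner ℝ v f)) := by
  have h1 : ∀ f : H, ∃ l : ℝ, Tendsto (fun j => inner ℝ (x j) f) U (𝓝 l) ∧ |l| ≤ C * ‖f‖ := by
    intro f
    have h2 : Icc (-(C * ‖f‖)) (C * ‖f‖) ∈ U.map (fun j => inner ℝ (x j) f) := by
      show _ ∈ (U.map (fun j => inner ℝ (x j) f) : Filter ℝ)
      rw [Ultrafilter.coe_map, Filter.mem_map]
      filter_upwards [hx] with j hj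
      have h3 := abs_real_inner_le_norm (x j) f
      exact abs_le.1 (h3.trans (mul_le_mul_of_nonneg_right hj (norm_nonneg f)))
    obtain ⟨l, hl, hl'⟩ := isCompact_Icc.ultrafilter_le_nhds' _ h2
    refine ⟨l, ?_, abs_le.2 hl⟩
    rw [Ultrafilter.coe_map] at hl'
    exact hl'
  choose L hL hLb using h1
  have hadd : ∀ f g, L (f + g) = L f + L g := fun f g => by
    refine tendsto_nhds_unique (hL (f + g)) ?_
    simp only [inner_add_right]
    exact (hL f).add (hL g)
  have hsmul : ∀ (c : ℝ) f, L (c • f) = c * L f := fun c f => by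
    refine tendsto_nhds_unique (hL (c • f)) ?_
    simp only [inner_smul_right]
    exact (hL f).const_mul c
  set L' : H →L[ℝ] ℝ := LinearMap.mkContinuous
    { toFun := L, map_add' := hadd, map_smul' := hsmul } C
    (fun f => by simpa [Real.norm_eq_abs] using hLb f) with hL'
  refine ⟨(InnerProductSpace.toDual ℝ H).symm L', fun f => ?_⟩
  rw [InnerProductSpace.toDual_symm_apply]
  exact hL f

/-- weak limits in `L²`, in terms of functions -/
theorem exists_weak_L2 {α : Type*} [MeasurableSpace α] {ν : Measure α} (U : Ultrafilter ℕ)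
    {u : ℕ → α → ℝ} {C : ℝ≥0∞} (hC : C ≠ ⊤)
    (hu : ∀ᶠ j in (U : Filter ℕ), AEStronglyMeasurable (u j) ν ∧ eLpNorm (u j) 2 ν ≤ C) :
    ∃ v : α → ℝ, MemLp v 2 ν ∧ ∀ f : α → ℝ, MemLp f 2 ν →
      Tendsto (fun j => ∫ q, u j q * f q ∂ν) U (𝓝 (∫ q, v q * f q ∂ν)) := by
  classical
  set x : ℕ → Lp ℝ 2 ν := fun j => if h : MemLp (u j) 2 ν then h.toLp (u j) else 0 with hx
  have h1 : ∀ᶠ j in (U : Filter ℕ), MemLp (u j) 2 ν := by
    filter_upwards [hu] with j hj
    exact ⟨hj.1, lt_of_le_of_lt hj.2 hC.lt_top⟩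
  have h2 : ∀ᶠ j in (U : Filter ℕ), ‖x j‖ ≤ C.toReal := by
    filter_upwards [h1, hu] with j hj hj'
    simp only [hx, dif_pos hj]
    rw [Lp.norm_toLp]
    exact ENNReal.toReal_mono hC hj'.2
  obtain ⟨v, hv⟩ := exists_weak U h2
  refine ⟨v, Lp.memLp v, fun f hf => ?_⟩
  have h3 := hv (hf.toLp f)
  have h4 : inner ℝ v (hf.toLp f) = ∫ q, v q * f q ∂ν := by
    rw [L2.inner_def]
    refine integral_congr_ae ?_
    filter_upwards [hf.coeFn_toLp] with q hq
    rw [hq]
    simp [mul_comm]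
  rw [h4] at h3
  refine h3.congr' ?_
  filter_upwards [h1] with j hj
  rw [L2.inner_def]
  refine integral_congr_ae ?_
  have h5 : x j = hj.toLp (u j) := dif_pos hj
  rw [h5]
  filter_upwards [hf.coeFn_toLp, hj.coeFn_toLp] with q hq hq'
  rw [hq, hq']
  simp [mul_comm]

variable {n N : ℕ} {S : Sheets n N}

/-- **Weak `L²_loc` limits.** -/
theorem exists_weak_loc {p : (Fin n → ℂ) → ℝ} {C : ℝ} {k0 : ℕ} (hp : Exh S.V p C k0)
    (U : Ultrafilter ℕ) {u : ℕ → (Fin n → ℂ) × ℕ → ℝ} (hm : ∀ j, AEMeasurable (u j) S.μ)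
    (hB : ∀ K : Set (Fin n → ℂ), IsCompact K → K ⊆ S.V → ∃ B : ℝ≥0∞, B ≠ ⊤ ∧
      ∀ᶠ j in (U : Filter ℕ), eLpNorm (u j) 2 (S.μ.restrict {q | q.1 ∈ K}) ≤ B) :
    ∃ v : (Fin n → ℂ) × ℕ → ℝ, AEMeasurable v S.μ ∧
      ∀ K : Set (Fin n → ℂ), IsCompact K → K ⊆ S.V →
        MemLp v 2 (S.μ.restrict {q | q.1 ∈ K}) ∧
        ∀ f : (Fin n → ℂ) × ℕ → ℝ, MemLp f 2 (S.μ.restrict {q | q.1 ∈ K}) →
          Tendsto (fun j => ∫ q in {q | q.1 ∈ K}, u j q * f q ∂S.μ) U
            (𝓝 (∫ q in {q | q.1 ∈ K}, v q * f q ∂S.μ)) := by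
  classical
  set K : ℕ → Set (Fin n → ℂ) := fun m => {z | z ∈ S.V ∧ p z ≤ m} with hK
  have hKc : ∀ m, IsCompact (K m) := fun m => hp.compact m
  have hKV : ∀ m, K m ⊆ S.V := fun m z hz => hz.1
  have hKmono : ∀ {k m : ℕ}, k ≤ m → K k ⊆ K m := fun h z hz =>
    ⟨hz.1, hz.2.trans (Nat.cast_le.2 h)⟩
  set Q : Set (Fin n → ℂ) → Set ((Fin n → ℂ) × ℕ) := fun A => {q | q.1 ∈ A} with hQ
  have hQm : ∀ {A : Set (Fin n → ℂ)}, MeasurableSet A → MeasurableSet (Q A) := fun hA =>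
    measurable_fst hA
  have h1 : ∀ m, ∃ v : (Fin n → ℂ) × ℕ → ℝ, MemLp v 2 (S.μ.restrict (Q (K m))) ∧
      ∀ f : (Fin n → ℂ) × ℕ → ℝ, MemLp f 2 (S.μ.restrict (Q (K m))) →
      Tendsto (fun j => ∫ q in Q (K m), u j q * f q ∂S.μ) U
        (𝓝 (∫ q in Q (K m), v q * f q ∂S.μ)) := by
    intro m
    obtain ⟨B, hB1, hB2⟩ := hB (K m) (hKc m) (hKV m)
    refine exists_weak_L2 U hB1 ?_
    filter_upwards [hB2] with j hj
    exact ⟨(hm j).aestronglyMeasurable.restrict, hj⟩
  choose V hV1 hV2 using h1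
  -- restriction to smaller sets
  have hrestr : ∀ {A A' : Set (Fin n → ℂ)}, MeasurableSet A → MeasurableSet A' → A ⊆ A' →
      ∀ (w f : (Fin n → ℂ) × ℕ → ℝ),
      ∫ q in Q A', w q * (Q A).indicator f q ∂S.μ = ∫ q in Q A, w q * f q ∂S.μ := by
    intro A A' hA hA' hAA w f
    have h2 : (fun q => w q * (Q A).indicator f q) = (Q A).indicator (fun q => w q * f q) := by
      funext q
      by_cases hq : q ∈ Q A
      · rw [indicator_of_mem hq, indicator_of_mem hq]
      · rw [indicator_of_notMem hq, indicator_of_notMem hq, mul_zero]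
    rw [h2, integral_indicator (hQm hA), Measure.restrict_restrict (hQm hA),
      inter_eq_left.2 (show Q A ⊆ Q A' from fun q hq => hAA hq)]
  have hmemres : ∀ {A A' : Set (Fin n → ℂ)}, MeasurableSet A → MeasurableSet A' → A ⊆ A' →
      ∀ {f : (Fin n → ℂ) × ℕ → ℝ}, MemLp f 2 (S.μ.restrict (Q A)) →
      MemLp ((Q A).indicator f) 2 (S.μ.restrict (Q A')) := by
    intro A A' hA hA' hAA f hf
    rw [memLp_indicator_iff_restrict (hQm hA), Measure.restrict_restrict (hQm hA),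
      inter_eq_left.2 (show Q A ⊆ Q A' from fun q hq => hAA hq)]
    exact hf
  -- compatibility
  have hcomp : ∀ {k m : ℕ}, k ≤ m → ∀ᵐ q ∂(S.μ.restrict (Q (K k))), V k q = V m q := by
    intro k m hkm
    have hKK : K k ⊆ K m := hKmono hkm
    have hres : S.μ.restrict (Q (K k)) ≤ S.μ.restrict (Q (K m)) :=
      Measure.restrict_mono (show Q (K k) ⊆ Q (K m) from fun q hq => hKK hq) le_rfl
    have hVm : MemLp (V m) 2 (S.μ.restrict (Q (K k))) := (hV1 m).mono_measure hres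
    have h2 : ∀ f : (Fin n → ℂ) × ℕ → ℝ, MemLp f 2 (S.μ.restrict (Q (K k))) →
        ∫ q in Q (K k), V k q * f q ∂S.μ = ∫ q in Q (K k), V m q * f q ∂S.μ := by
      intro f hf
      have a1 := hV2 k f hf
      have a2 := hV2 m _ (hmemres (hKc k).measurableSet (hKc m).measurableSet hKK hf)
      simp only [hrestr (hKc k).measurableSet (hKc m).measurableSet hKK] at a2
      exact tendsto_nhds_unique a1 a2
    have hd : MemLp (fun q => V k q - V m q) 2 (S.μ.restrict (Q (K k))) := (hV1 k).sub hVm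
    have h3 := h2 _ hd
    have i1 : Integrable (fun q => V k q * (V k q - V m q)) (S.μ.restrict (Q (K k))) :=
      (hV1 k).integrable_mul hd
    have i2 : Integrable (fun q => V m q * (V k q - V m q)) (S.μ.restrict (Q (K k))) :=
      hVm.integrable_mul hd
    have h4 : ∫ q in Q (K k), (V k q - V m q) ^ 2 ∂S.μ = 0 := by
      have h5 : ∀ q, (V k q - V m q) ^ 2 =
          V k q * (V k q - V m q) - V m q * (V k q - V m q) := fun q => by ring
      simp_rw [h5]
      rw [integral_sub i1 i2, h3, sub_self]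
    have h6 := (integral_eq_zero_iff_of_nonneg (fun q => sq_nonneg (V k q - V m q))
      hd.integrable_sq).1 h4
    filter_upwards [h6] with q hq
    have hq' : (V k q - V m q) ^ 2 = 0 := hq
    have := pow_eq_zero_iff (two_ne_zero) |>.1 hq'
    linarith
  set v : (Fin n → ℂ) × ℕ → ℝ := fun q => V ⌈p q.1⌉₊ q with hv
  have hp0 : ∀ z ∈ S.V, 0 ≤ p z := fun z hz => (sq_nonneg _).trans (hp.norm_sq_le z hz)
  have hvV : ∀ m, ∀ᵐ q ∂(S.μ.restrict (Q (K m))), v q = V m q := by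
    intro m
    have h2 : ∀ᵐ q ∂(S.μ.restrict (Q (K m))), ∀ k ≤ m, q ∈ Q (K k) → V k q = V m q := by
      rw [ae_all_iff]
      intro k
      by_cases hk : k ≤ m
      · have h3 := ae_imp_of_ae_restrict (hcomp hk)
        filter_upwards [ae_restrict_of_ae h3] with q hq _ hqk
        exact hq hqk
      · exact Eventually.of_forall fun q h => absurd h hk
    filter_upwards [h2, ae_restrict_mem (hQm (hKc m).measurableSet)] with q hq hqm
    exact hq ⌈p q.1⌉₊ (Nat.ceil_le.2 hqm.2) ⟨hqm.1, Nat.le_ceil _⟩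
  -- general compact sets
  have hcover : ∀ A : Set (Fin n → ℂ), IsCompact A → A ⊆ S.V → ∃ m, A ⊆ K m := by
    intro A hA hAV
    obtain ⟨B, hB⟩ := hA.exists_bound_of_continuousOn (hp.smooth.continuousOn.mono hAV)
    refine ⟨⌈B⌉₊, fun z hz => ⟨hAV hz, ?_⟩⟩
    exact ((le_abs_self _).trans (hB z hz)).trans (Nat.le_ceil _)
  refine ⟨v, ?_, ?_⟩
  · have h2 : ∀ m, AEMeasurable v (S.μ.restrict (Q (K m))) := fun m =>
      (hV1 m).1.aemeasurable.congr (EventuallyEq.symm (hvV m))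
    have h3 : ⋃ m, Q (K m) = Q S.V := by
      ext q
      simp only [mem_iUnion]
      constructor
      · rintro ⟨m, hq⟩; exact hq.1
      · intro hq; exact ⟨⌈p q.1⌉₊, hq, Nat.le_ceil _⟩
    have h4 : AEMeasurable v (S.μ.restrict (Q S.V)) := by
      rw [← h3]
      exact aemeasurable_iUnion_iff.2 h2
    rwa [Measure.restrict_eq_self_of_ae_mem] at h4
    filter_upwards [ae_mem_M (S := S)] with q hq
    exact hq.1
  · intro A hA hAV
    obtain ⟨m, hm'⟩ := hcover A hA hAV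
    have hle : S.μ.restrict (Q A) ≤ S.μ.restrict (Q (K m)) :=
      Measure.restrict_mono (show Q A ⊆ Q (K m) from fun q hq => hm' hq) le_rfl
    have hvA : ∀ᵐ q ∂(S.μ.restrict (Q A)), v q = V m q :=
      ae_restrict_of_ae_restrict_of_subset (fun q hq => hm' hq) (hvV m)
    refine ⟨((hV1 m).mono_measure hle).ae_eq (EventuallyEq.symm hvA), fun f hf => ?_⟩
    have a2 := hV2 m _ (hmemres hA.measurableSet (hKc m).measurableSet hm' hf)
    simp only [hrestr hA.measurableSet (hKc m).measurableSet hm'] at a2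
    have a3 : ∫ q in Q A, v q * f q ∂S.μ = ∫ q in Q A, V m q * f q ∂S.μ := by
      refine integral_congr_ae ?_
      filter_upwards [hvA] with q hq
      rw [hq]
    show Tendsto _ _ (𝓝 (∫ q in Q A, v q * f q ∂S.μ))
    rw [a3]
    exact a2

end Vale.Agent.P299.H91
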